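import Vale.Agent.P224.R2.H484.AbsT

/-!
The absolute tail for the thresholds `max c1 (c2 / (1 - T^2))`, values for blocks of dimensions.
-/

namespace Vale.Agent.P224.R2.H484

open MeasureTheory Set Function Module Vale.Agent.P224 Vale.Agent.P224.SM2
  Vale.Agent.P224.R2.H869 Vale.Agent.P224.R2.H582 Vale.Agent.P224.R2.H820

lemma kQ_pos {c : ℕ} (hc : c < 80) : (0 : ℝ) < ((kQ c : ℚ) : ℝ) := by
  unfold kQ
  push_cast
  have h : (c : ℝ) < 80 := by exact_mod_cast hc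
  have h0 : (0 : ℝ) ≤ c := by positivity
  apply div_pos
  · nlinarith
  · positivity

lemma lcF_le {c1 c2 : ℚ} {c : ℕ} (hc : c < 80) (h2 : 0 ≤ c2) {T L : ℝ} (hT : T ∈ Ioo (0 : ℝ) 1)
    (hT1 : ((tQ c : ℚ) : ℝ) < T) (hT2 : T ≤ tQ (c + 1)) (l1 : (c1 : ℝ) ≤ L)
    (l2 : (c2 : ℝ) / (1 - T ^ 2) ≤ L) : ((lcF c1 c2 c : ℚ) : ℝ) ≤ L := by
  have hk := (k_cell hc hT1 hT2).2
  have hk0 : 0 < 1 - T ^ 2 := by nlinarith [hT.1, hT.2]
  have hκ := kQ_pos hc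
  have h2' : (0 : ℝ) ≤ (c2 : ℝ) := by exact_mod_cast h2
  have h3 : (c2 : ℝ) / ((kQ c : ℚ) : ℝ) ^ 2 ≤ L :=
    (div_le_div_of_nonneg_left h2' hk0 hk.le).trans l2
  have h4 : (lcF c1 c2 c : ℚ) ≤ max c1 (c2 / kQ c ^ 2) := by
    unfold lcF
    refine (min_le_right _ _).trans ?_
    have h5 := Int.floor_le (max c1 (c2 / kQ c ^ 2) * 10)
    linarith
  have h5 : ((lcF c1 c2 c : ℚ) : ℝ) ≤ ((max c1 (c2 / kQ c ^ 2) : ℚ) : ℝ) := by exact_mod_cast h4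
  refine h5.trans ?_
  push_cast
  exact max_le l1 h3

section

variable {X : Type*} [MeasurableSpace X] {E : Type*} [NormedAddCommGroup E]
  [InnerProductSpace ℝ E] [MeasurableSpace E] [BorelSpace E] [SecondCountableTopology E]
  {μ : Measure X} [IsFiniteMeasure μ] {m : ℕ} {p n : X → E}

/-- the integrated absolute tail, with thresholds `l`, is at most `ε` -/
def AbsTail (μ : Measure X) (m : ℕ) (p n : X → E) (l : ℝ → ℝ) (ε : ℝ) : Prop :=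
  ∃ τ : ℝ → ℝ, IntervalIntegrable τ volume 0 1 ∧
      (∀ T ∈ Ioo (0 : ℝ) 1, (m + 1) * (m + 2) * T ^ 2 * rM m T / (1 - T ^ 2) / 2
        * E2 μ p n (TK m T (l T)) ≤ τ T * (μ.real univ) ^ 2) ∧
      ∫ T in (0 : ℝ)..1, τ T ≤ ε

/-- the absolute tail of a block, thresholds at least `max c1 (c2 / (1 - T^2))` -/
theorem abs_max [Nontrivial E] (h2 : Two μ m p n) (h1 : MinRow μ m p n) {m1 : ℕ} {x ε c1 c2 : ℚ}
    (hok : absOK m1 x (lcF c1 c2) ε = true) (h17 : 17 ≤ m1) (hm1 : m1 ≤ m)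
    (hx : (x : ℝ) ≤ 1 / m) (hc2 : 0 ≤ c2) {l : ℝ → ℝ}
    (l1 : ∀ T ∈ Ioo (0 : ℝ) 1, (c1 : ℝ) ≤ l T)
    (l2 : ∀ T ∈ Ioo (0 : ℝ) 1, (c2 : ℝ) / (1 - T ^ 2) ≤ l T) : AbsTail μ m p n l ε :=
  abs_block h2 h1 hok h17 hm1 hx fun _ hc T hT hT1 hT2 =>
    lcF_le hc hc2 hT hT1 hT2 (l1 T hT) (l2 T hT)

lemma ok_17_25 : absOK 17 (1 / 25) (lcF (35 / 2) (23 / 2)) (5 / 1000000) = true := by
  decide +kernel
lemma ok_17_35 : absOK 17 (1 / 35) (lcF (35 / 2) (23 / 2)) (16 / 1000000) = true := by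
  decide +kernel
lemma ok_36_60 : absOK 36 (1 / 60) (lcF (91 / 5) (61 / 5)) (30 / 1000000) = true := by
  decide +kernel
lemma ok_60_100 : absOK 60 (1 / 100) (lcF (91 / 5) (61 / 5)) (53 / 1000000) = true := by
  decide +kernel
lemma ok_100_150 : absOK 100 (1 / 150) (lcF (93 / 5) (63 / 5)) (56 / 1000000) = true := by
  decide +kernel
lemma ok_150_200 : absOK 150 (1 / 200) (lcF (93 / 5) (63 / 5)) (64 / 1000000) = true := by
  decide +kernel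
lemma ok_200_300 : absOK 200 (1 / 300) (lcF (93 / 5) (63 / 5)) (74 / 1000000) = true := by
  decide +kernel
lemma ok_300_400 : absOK 300 (1 / 400) (lcF (93 / 5) (63 / 5)) (79 / 1000000) = true := by
  decide +kernel
lemma ok_400_600 : absOK 400 (1 / 600) (lcF (93 / 5) (63 / 5)) (84 / 1000000) = true := by
  decide +kernel
lemma ok_600 : absOK 600 0 (lcF (93 / 5) (63 / 5)) (95 / 1000000) = true := by
  decide +kernel

/-- helper for the reciprocal bound -/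
lemma inv_block {m m2 : ℕ} (h0 : 1 ≤ m) (h : m ≤ m2) : (((1 / m2 : ℚ)) : ℝ) ≤ 1 / m := by
  have h1 : (1 : ℝ) ≤ m := by exact_mod_cast h0
  have h2 : (m : ℝ) ≤ m2 := by exact_mod_cast h
  push_cast
  apply div_le_div_of_nonneg_left <;> linarith

end

end Vale.Agent.P224.R2.H484
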