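import Vale.Agent.P224.R2.H484.TlS

/-!
Blocks given by a list of scaled natural numbers: fast evaluation of the coefficients, and the
relative tail with a rational polynomial.
-/

namespace Vale.Agent.P224.R2.H484

open MeasureTheory Set Function Module Vale.Agent.P224 Vale.Agent.P224.SM2
  Vale.Agent.P224.R2.H869 Vale.Agent.P224.R2.H582 Vale.Agent.P224.R2.H820
  Vale.Agent.P224.R2.H876 Vale.Agent.P224.R2.H728
open scoped RealInnerProductSpace

set_option linter.unusedSectionVars false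

/-- a cell: weight (`10^9`), `Z` (`10^4`), `Z^2 / m` (`10^8`), its root (`10^4`), the inverse of the
threshold (`10^8`) -/
structure CN where
  w : ℕ
  z : ℕ
  o : ℕ
  s : ℕ
  u : ℕ

def c0 : CN := ⟨0, 0, 0, 0, 0⟩

/-- the moments of a list of cells, scaled -/
def sN (p r t q : ℕ) : List CN → ℕ
  | [] => 0
  | x :: l => x.w * (Nat.pow x.z p * Nat.pow x.o r * Nat.pow x.s t * Nat.pow x.u q) + sN p r t q l

/-- the moments of a list of cells -/
def SF (L : List CN) (p r t q : ℕ) : ℚ :=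
  (sN p r t q L : ℚ) / ((Nat.pow 10 (9 + 4 * p + 8 * r + 4 * t + 8 * q) : ℕ) : ℚ)

/-- the block of a list of cells -/
def blkL (L : List CN) (m1 : ℕ) (Mq : ℕ → ℚ) (η β K : ℚ) (j i1 i2 : ℕ) : Blk where
  N := 200
  w := wR
  Z c := ((L.getD c c0).z : ℚ) / 10000
  ω c := ((L.getD c c0).o : ℚ) / 100000000
  u c := if (L.getD c c0).u = 0 then 1 else ((L.getD c c0).u : ℚ) / 100000000
  act c := !((L.getD c c0).u == 0)
  m1 := m1
  Mq := Mq
  η := η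
  β := β
  K := K
  j := j
  i1 := i1
  i2 := i2
  θ _ := 1
  θ1 := 1
  θ2 := 1

/-- the bounds of the roots -/
def sC (L : List CN) (c : ℕ) : ℚ := ((L.getD c c0).s : ℚ) / 10000

/-- the check of the cells -/
def cellsOK (L : List CN) (m1 m2 : ℕ) (c1 c2 : ℕ → ℚ) : Bool :=
  (L.length == 200) && (List.range 200).all (fun c =>
    let x := L.getD c c0
    if x.u == 0 then (x.w == 0) && (x.o == 0) && !(m2 == 0) && decide ((m2 : ℚ) ≤ lB (c1 c) (c2 c) c)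
    else (x.w == wLR.getD c 0) && decide (zB (c1 c) (c2 c) c ≤ (x.z : ℚ) / 10000)
      && decide (wB8 m1 (c2 c) c ≤ (x.o : ℚ) / 100000000)
      && decide ((x.o : ℚ) / 100000000 ≤ ((x.s : ℚ) / 10000) ^ 2)
      && decide (rU8 (1 / lB (c1 c) (c2 c) c) ≤ (x.u : ℚ) / 100000000))

section

variable {L : List CN} {m1 m2 : ℕ} {Mq : ℕ → ℚ} {c1 c2 : ℕ → ℚ} {η β K : ℚ} {j i1 i2 : ℕ}

lemma cellsOK_inactive (h : cellsOK L m1 m2 c1 c2 = true) {c : ℕ} (hc : c < 200)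
    (h0 : (L.getD c c0).u = 0) :
    (L.getD c c0).w = 0 ∧ (L.getD c c0).o = 0 ∧ m2 ≠ 0 ∧ (m2 : ℚ) ≤ lB (c1 c) (c2 c) c := by
  unfold cellsOK at h
  simp only [Bool.and_eq_true, List.all_eq_true, List.mem_range] at h
  have h1 := h.2 c hc
  rw [if_pos (by rw [h0]; rfl)] at h1
  simp only [Bool.and_eq_true, beq_iff_eq, Bool.not_eq_true', decide_eq_true_eq,
    beq_eq_false_iff_ne] at h1
  exact ⟨h1.1.1.1, h1.1.1.2, h1.1.2, h1.2⟩

lemma cellsOK_active (h : cellsOK L m1 m2 c1 c2 = true) {c : ℕ} (hc : c < 200)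
    (h0 : (L.getD c c0).u ≠ 0) :
    (L.getD c c0).w = wLR.getD c 0 ∧ zB (c1 c) (c2 c) c ≤ ((L.getD c c0).z : ℚ) / 10000 ∧
      wB8 m1 (c2 c) c ≤ ((L.getD c c0).o : ℚ) / 100000000 ∧
      ((L.getD c c0).o : ℚ) / 100000000 ≤ (((L.getD c c0).s : ℚ) / 10000) ^ 2 ∧
      rU8 (1 / lB (c1 c) (c2 c) c) ≤ ((L.getD c c0).u : ℚ) / 100000000 := by
  unfold cellsOK at h
  simp only [Bool.and_eq_true, List.all_eq_true, List.mem_range] at h
  have h1 := h.2 c hc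
  rw [if_neg (by simpa using h0)] at h1
  simp only [Bool.and_eq_true, beq_iff_eq, decide_eq_true_eq] at h1
  obtain ⟨⟨⟨⟨a1, a2⟩, a3⟩, a4⟩, a5⟩ := h1
  exact ⟨a1, a2, a3, a4, a5⟩

lemma cellsOK_length (h : cellsOK L m1 m2 c1 c2 = true) : L.length = 200 := by
  unfold cellsOK at h
  simp only [Bool.and_eq_true, beq_iff_eq] at h
  exact h.1

theorem blkL_ok (h : okB m1 c1 c2 η β K j i1 i2 = true) : (blkL L m1 Mq η β K j i1 i2).Ok := by
  have h1 := mkB_ok (m2 := 0) (Mq := Mq) (θ := []) (θ1 := 1) (θ2 := 1) h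
  refine
  { cut := h1.cut
    w0 := fun c hc => grdR.w_nonneg c hc
    Z0 := fun c hc => by unfold blkL; positivity
    ω0 := fun c hc => by unfold blkL; positivity
    u0 := fun c hc => ?_
    θ := fun i => by unfold blkL; norm_num
    θ1 := by unfold blkL; norm_num
    θ2 := by unfold blkL; norm_num
    j3 := h1.j3
    j14 := h1.j14
    i1 := h1.i1
    i14 := h1.i14
    i2 := h1.i2
    i24 := h1.i24 }
  show (0 : ℚ) < if (L.getD c c0).u = 0 then 1 else ((L.getD c c0).u : ℚ) / 100000000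
  split_ifs with h0
  · norm_num
  · have : 0 < (L.getD c c0).u := Nat.pos_of_ne_zero h0
    positivity

theorem blkL_cell (h : okB m1 c1 c2 η β K j i1 i2 = true) (hL : cellsOK L m1 m2 c1 c2 = true)
    {m : ℕ} (hm1 : m1 ≤ m) (hm2 : m2 = 0 ∨ m ≤ m2) {lT : ℝ → ℝ}
    (hl : ∀ c < 200, ∀ T ∈ Ioo (0 : ℝ) 1, ((tR c : ℚ) : ℝ) < T → T ≤ tR (c + 1) →
      ((c1 c : ℚ) : ℝ) ≤ lT T ∧ ((c2 c : ℚ) : ℝ) / (1 - T ^ 2) ≤ lT T) :
    ∀ c < (blkL L m1 Mq η β K j i1 i2).N, ∀ T ∈ Ioo (0 : ℝ) 1,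
      ((tR c : ℚ) : ℝ) < T → T ≤ tR (c + 1) →
      (m : ℝ) ≤ lT T ∨ ((blkL L m1 Mq η β K j i1 i2).act c = true ∧
        T ^ 2 / (1 - T ^ 2) / m ≤ (blkL L m1 Mq η β K j i1 i2).ω c ∧
        ∃ r : ℝ, 1 ≤ r ∧ T / √(1 - T ^ 2) ≤ r * (blkL L m1 Mq η β K j i1 i2).Z c ∧
          r ^ 2 * (1 / (blkL L m1 Mq η β K j i1 i2).u c) ≤ lT T) := by
  intro c hc T hT hT1 hT2
  have hc' : c < 200 := hc
  rcases mkB_cell (m2 := m2) (Mq := Mq) (θ := []) (θ1 := 1) (θ2 := 1) h hm1 hm2 hl c hc T hT hT1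
    hT2 with h1 | ⟨h1, h2, r, hr, h3, h4⟩
  · exact Or.inl h1
  right
  by_cases h0 : (L.getD c c0).u = 0
  · exfalso
    obtain ⟨-, -, b2, b3⟩ := cellsOK_inactive hL hc' h0
    unfold mkB at h1
    simp only [Bool.or_eq_true, beq_iff_eq, decide_eq_true_eq] at h1
    rcases h1 with h1 | h1
    · exact b2 h1
    · exact absurd h1 (not_lt.2 b3)
  · obtain ⟨-, b2, b3, -, b5⟩ := cellsOK_active hL hc' h0
    have hu : (0 : ℚ) < ((L.getD c c0).u : ℚ) / 100000000 := by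
      have : 0 < (L.getD c c0).u := Nat.pos_of_ne_zero h0
      positivity
    refine ⟨?_, ?_, r, hr, ?_, ?_⟩
    · show (!((L.getD c c0).u == 0)) = true
      simpa using h0
    · refine h2.trans ?_
      show ((wB8 m1 (c2 c) c : ℚ) : ℝ) ≤ ((((L.getD c c0).o : ℚ) / 100000000 : ℚ) : ℝ)
      exact_mod_cast b3
    · refine h3.trans (mul_le_mul_of_nonneg_left ?_ (by linarith))
      show ((zB (c1 c) (c2 c) c : ℚ) : ℝ) ≤ ((((L.getD c c0).z : ℚ) / 10000 : ℚ) : ℝ)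
      exact_mod_cast b2
    · refine le_trans (mul_le_mul_of_nonneg_left ?_ (by positivity)) h4
      show 1 / (((if (L.getD c c0).u = 0 then 1 else ((L.getD c c0).u : ℚ) / 100000000 : ℚ)) : ℝ)
        ≤ 1 / ((rU8 (1 / lB (c1 c) (c2 c) c) : ℚ) : ℝ)
      rw [if_neg h0]
      have h5 := (okB_cell h hc').2.1
      have h6 : (0 : ℚ) < rU8 (1 / lB (c1 c) (c2 c) c) :=
        lt_of_lt_of_le (by positivity) (le_rU8 _)
      have h6' : (0 : ℝ) < ((rU8 (1 / lB (c1 c) (c2 c) c) : ℚ) : ℝ) := by exact_mod_cast h6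
      have h7 : ((rU8 (1 / lB (c1 c) (c2 c) c) : ℚ) : ℝ)
          ≤ ((((L.getD c c0).u : ℚ) / 100000000 : ℚ) : ℝ) := by exact_mod_cast b5
      exact one_div_le_one_div_of_le h6' h7

/-- the sum over the list as a finite sum -/
lemma sN_eq (p r t q : ℕ) (L : List CN) : sN p r t q L = ∑ c ∈ Finset.range L.length,
    (L.getD c c0).w * ((L.getD c c0).z ^ p * (L.getD c c0).o ^ r * (L.getD c c0).s ^ t
      * (L.getD c c0).u ^ q) := by
  induction L with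
  | nil => simp [sN]
  | cons x l ih =>
    rw [List.length_cons, Finset.sum_range_succ', sN, ih]
    simp only [List.getD_cons_succ, List.getD_cons_zero]
    rw [Nat.add_comm]
    rfl

lemma den_eq (p r t q : ℕ) : ((Nat.pow 10 (9 + 4 * p + 8 * r + 4 * t + 8 * q) : ℕ) : ℝ)
    = 1000000000 * 10000 ^ p * 100000000 ^ r * 10000 ^ t * 100000000 ^ q := by
  have e : Nat.pow 10 (9 + 4 * p + 8 * r + 4 * t + 8 * q)
      = 1000000000 * 10000 ^ p * 100000000 ^ r * 10000 ^ t * 100000000 ^ q := by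
    show 10 ^ (9 + 4 * p + 8 * r + 4 * t + 8 * q) = _
    rw [pow_add, pow_add, pow_add, pow_add, pow_mul, pow_mul, pow_mul, pow_mul]
    norm_num
  rw [e]
  push_cast
  ring

/-- the moments of the block -/
lemma S4_eq (hL : cellsOK L m1 m2 c1 c2 = true) (p r t q : ℕ) :
    (blkL L m1 Mq η β K j i1 i2).S4 (sC L) p r t q = SF L p r t q := by
  have h : (((blkL L m1 Mq η β K j i1 i2).S4 (sC L) p r t q : ℚ) : ℝ)
      = ((SF L p r t q : ℚ) : ℝ) := by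
    rw [Blk.S4_cast]
    unfold SF
    rw [sN_eq, cellsOK_length hL]
    rw [Rat.cast_div, Rat.cast_natCast, Rat.cast_natCast, den_eq, Nat.cast_sum, Finset.sum_div]
    refine Finset.sum_congr rfl fun c hc => ?_
    have hc' : c < 200 := Finset.mem_range.1 hc
    by_cases h0 : (L.getD c c0).u = 0
    · obtain ⟨b1, -, -, -⟩ := cellsOK_inactive hL hc' h0
      have e1 : (blkL L m1 Mq η β K j i1 i2).act c = false := by
        show (!((L.getD c c0).u == 0)) = false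
        rw [h0]
        rfl
      rw [e1, b1]
      simp
    · obtain ⟨b1, -, -, -, -⟩ := cellsOK_active hL hc' h0
      have e1 : (blkL L m1 Mq η β K j i1 i2).act c = true := by
        show (!((L.getD c c0).u == 0)) = true
        rw [Bool.not_eq_true', beq_eq_false_iff_ne]
        exact h0
      have e2 : (blkL L m1 Mq η β K j i1 i2).w c = ((wLR.getD c 0 : ℕ) : ℚ) / 1000000000 := rfl
      have e3 : (blkL L m1 Mq η β K j i1 i2).Z c = ((L.getD c c0).z : ℚ) / 10000 := rfl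
      have e4 : (blkL L m1 Mq η β K j i1 i2).ω c = ((L.getD c c0).o : ℚ) / 100000000 := rfl
      have e5 : (blkL L m1 Mq η β K j i1 i2).u c = ((L.getD c c0).u : ℚ) / 100000000 := by
        show (if (L.getD c c0).u = 0 then (1 : ℚ) else ((L.getD c c0).u : ℚ) / 100000000) = _
        rw [if_neg h0]
      rw [e1, e2, e3, e4, e5, b1]
      unfold sC
      simp only [if_true]
      push_cast
      rw [div_pow, div_pow, div_pow, div_pow]
      field_simp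
  exact_mod_cast h

end

/-- comparison of the coefficients with the functions `X2`, `X1`, `X0` -/
def coefS (L : List CN) (m1 : ℕ) (Mq : ℕ → ℚ) (η β K : ℚ) (j i1 i2 : ℕ) (X2 X1 X0 : ℕ → ℕ → ℚ)
    (z2 z1 z0 : ℚ) : Bool :=
  let B := blkL L m1 Mq η β K j i1 i2
  (List.range (j + 2)).all (fun i => (List.range (i + 1)).all (fun k =>
    decide (B.pre i k * (Mq (j + 1 + i + 2) * SF L (j + 1 - i) (i - k) 0 j) ≤ X2 i k)
    && decide (B.pre i k * (2 * Mq (j + 1 + i + 1) * SF L (j + 1 - i + 1) (i - k) 0 j) ≤ X1 i k)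
    && decide (B.pre i k * (Mq (j + 1 + i + 2) * SF L (j + 1 - i) (i - k + 1) 0 j
      + 2 * Mq (j + 1 + i + 1) * SF L (j + 1 - i + 1) (i - k) 1 j
      + Mq (j + 1 + i) * SF L (j + 1 - i + 2) (i - k) 0 j) ≤ X0 i k)))
  && decide (2 * cMQ m1 * (B.f1 * Blk.ccQ i1) * (Mq (2 * i1 + 2 + 2) * SF L 0 0 0 i1)
    + 2 * cMQ m1 * (B.f2 * Blk.ccQ i2) * (Mq (2 * i2 + 2 + 2) * SF L 0 0 0 i2) ≤ z2)
  && decide (2 * cMQ m1 * (B.f1 * Blk.ccQ i1) * (2 * Mq (2 * i1 + 2 + 1) * SF L 1 0 0 i1)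
    + 2 * cMQ m1 * (B.f2 * Blk.ccQ i2) * (2 * Mq (2 * i2 + 2 + 1) * SF L 1 0 0 i2) ≤ z1)
  && decide (2 * cMQ m1 * (B.f1 * Blk.ccQ i1) * (Mq (2 * i1 + 2 + 2) * SF L 0 1 0 i1
      + 2 * Mq (2 * i1 + 2 + 1) * SF L 1 0 1 i1 + Mq (2 * i1 + 2) * SF L 2 0 0 i1)
    + 2 * cMQ m1 * (B.f2 * Blk.ccQ i2) * (Mq (2 * i2 + 2 + 2) * SF L 0 1 0 i2
      + 2 * Mq (2 * i2 + 2 + 1) * SF L 1 0 1 i2 + Mq (2 * i2 + 2) * SF L 2 0 0 i2) ≤ z0)

lemma PS_le {L : List CN} {m1 m2 : ℕ} {Mq : ℕ → ℚ} {c1 c2 : ℕ → ℚ} {η β K : ℚ} {j i1 i2 : ℕ}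
    (hL : cellsOK L m1 m2 c1 c2 = true) {X2 X1 X0 : ℕ → ℕ → ℚ} {z2 z1 z0 : ℚ}
    (h : coefS L m1 Mq η β K j i1 i2 X2 X1 X0 z2 z1 z0 = true) {a b φ : ℝ} (ha : 0 ≤ a)
    (hb : 0 ≤ b) (hφ : 0 ≤ φ) :
    PS j ((blkL L m1 Mq η β K j i1 i2).A2 (sC L)) ((blkL L m1 Mq η β K j i1 i2).A1 (sC L))
      ((blkL L m1 Mq η β K j i1 i2).A0 (sC L)) ((blkL L m1 Mq η β K j i1 i2).Z2 (sC L))
      ((blkL L m1 Mq η β K j i1 i2).Z1 (sC L)) ((blkL L m1 Mq η β K j i1 i2).Z0 (sC L)) a b φ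
      ≤ PS j X2 X1 X0 z2 z1 z0 a b φ := by
  unfold coefS at h
  simp only [Bool.and_eq_true, decide_eq_true_eq, List.all_eq_true, List.mem_range] at h
  obtain ⟨⟨⟨h1, h2⟩, h3⟩, h4⟩ := h
  have e2 : (blkL L m1 Mq η β K j i1 i2).Z2 (sC L) ≤ z2 := by
    unfold Blk.Z2 Blk.Rs2
    rw [S4_eq hL, S4_eq hL]
    exact h2
  have e1 : (blkL L m1 Mq η β K j i1 i2).Z1 (sC L) ≤ z1 := by
    unfold Blk.Z1 Blk.Rs1
    rw [S4_eq hL, S4_eq hL]
    exact h3
  have e0 : (blkL L m1 Mq η β K j i1 i2).Z0 (sC L) ≤ z0 := by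
    unfold Blk.Z0 Blk.Rs0
    simp only [S4_eq hL]
    exact h4
  have e2' : (((blkL L m1 Mq η β K j i1 i2).Z2 (sC L) : ℚ) : ℝ) ≤ (z2 : ℝ) := by exact_mod_cast e2
  have e1' : (((blkL L m1 Mq η β K j i1 i2).Z1 (sC L) : ℚ) : ℝ) ≤ (z1 : ℝ) := by exact_mod_cast e1
  have e0' : (((blkL L m1 Mq η β K j i1 i2).Z0 (sC L) : ℚ) : ℝ) ≤ (z0 : ℝ) := by exact_mod_cast e0
  unfold PS
  refine add_le_add (Finset.sum_le_sum fun i hi => Finset.sum_le_sum fun k hk => ?_)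
    (add_le_add (add_le_add (mul_le_mul_of_nonneg_right e2' ha)
      (mul_le_mul_of_nonneg_right e1' (by positivity)))
      (mul_le_mul_of_nonneg_right e0' (by positivity)))
  obtain ⟨⟨h5, h6⟩, h7⟩ := h1 i (Finset.mem_range.1 hi) k (Finset.mem_range.1 hk)
  have f2 : (blkL L m1 Mq η β K j i1 i2).A2 (sC L) i k ≤ X2 i k := by
    unfold Blk.A2
    rw [S4_eq hL]
    exact h5
  have f1 : (blkL L m1 Mq η β K j i1 i2).A1 (sC L) i k ≤ X1 i k := by
    unfold Blk.A1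
    rw [S4_eq hL]
    exact h6
  have f0 : (blkL L m1 Mq η β K j i1 i2).A0 (sC L) i k ≤ X0 i k := by
    unfold Blk.A0
    simp only [S4_eq hL]
    exact h7
  have f2' : (((blkL L m1 Mq η β K j i1 i2).A2 (sC L) i k : ℚ) : ℝ) ≤ (X2 i k : ℝ) := by
    exact_mod_cast f2
  have f1' : (((blkL L m1 Mq η β K j i1 i2).A1 (sC L) i k : ℚ) : ℝ) ≤ (X1 i k : ℝ) := by
    exact_mod_cast f1
  have f0' : (((blkL L m1 Mq η β K j i1 i2).A0 (sC L) i k : ℚ) : ℝ) ≤ (X0 i k : ℝ) := by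
    exact_mod_cast f0
  exact mul_le_mul_of_nonneg_right (add_le_add (add_le_add (mul_le_mul_of_nonneg_right f2' ha)
    (mul_le_mul_of_nonneg_right f1' (by positivity)))
    (mul_le_mul_of_nonneg_right f0' (by positivity))) (by positivity)

section

variable {X : Type*} [MeasurableSpace X] {E : Type*} [NormedAddCommGroup E]
  [InnerProductSpace ℝ E] [MeasurableSpace E] [BorelSpace E] [SecondCountableTopology E]
  {μ : Measure X} [IsFiniteMeasure μ] {m : ℕ} {p n z : X → E}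

lemma bm_PS {f g h : X → ℝ} (hf : BM f) (hg : BM g) (hh : BM h) (j : ℕ) (X2 X1 X0 : ℕ → ℕ → ℚ)
    (z2 z1 z0 : ℚ) : BM (fun x => PS j X2 X1 X0 z2 z1 z0 (f x) (g x) (h x)) := by
  have hs := (bm_sqrt hf).mul hh
  unfold PS
  refine BM.add (BM.sum _ fun i _ => BM.sum _ fun k _ => ?_)
    (((hf.const_mul _).add (hs.const_mul _)).add ((hh.pow 2).const_mul _))
  exact (((hf.const_mul _).add (hs.const_mul _)).add ((hh.pow 2).const_mul _)).mul
    ((hg.pow k).mul (hh.pow _))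

/-- the relative tail of a block: rational polynomial with the mixed term -/
theorem rel_blkS {L : List CN} {m1 m2 : ℕ} {Lm : List ℕ} {c1 c2 : ℕ → ℚ} {η β K : ℚ}
    {j i1 i2 : ℕ} {X2 X1 X0 : ℕ → ℕ → ℚ} {z2 z1 z0 : ℚ}
    (hok : okB m1 c1 c2 η β K j i1 i2 = true) (hL : cellsOK L m1 m2 c1 c2 = true)
    (hco : coefS L m1 (MQ Lm) η β K j i1 i2 X2 X1 X0 z2 z1 z0 = true)
    (h2 : Two μ m p n) (hμ : μ.real univ = 1) (hM : MomB μ m p (Mt m Lm))
    (hm1 : m1 ≤ m) (hm2 : m2 = 0 ∨ m ≤ m2) (hz : Measurable z) {D : ℝ} (hD : ∀ x, ‖z x‖ ≤ D)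
    (hsym : ∀ x y, ⟪n x, p y⟫ - ⟪p x, n y⟫ = ⟪z x, p y⟫ - ⟪p x, z y⟫)
    {b : X → ℝ} (hb : BM b) (hb0 : ∀ y, 0 ≤ b y) (hbz : BOk z n b) {lT : ℝ → ℝ}
    (hl : ∀ c < 200, ∀ T ∈ Ioo (0 : ℝ) 1, ((tR c : ℚ) : ℝ) < T → T ≤ tR (c + 1) →
      ((c1 c : ℚ) : ℝ) ≤ lT T ∧ ((c2 c : ℚ) : ℝ) / (1 - T ^ 2) ≤ lT T) :
    Tail μ m p n lT (∫ y, PS j X2 X1 X0 z2 z1 z0 (aG z y) (b y) (pG m p z y) ∂μ) := by
  have h17 : 17 ≤ m1 := by
    unfold okB at hok
    simp only [Bool.and_eq_true, decide_eq_true_eq] at hok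
    exact hok.2
  have hB : (blkL L m1 (MQ Lm) η β K j i1 i2).Ok := blkL_ok hok
  have h := Blk.rel (B := blkL L m1 (MQ Lm) η β K j i1 i2) hB grdR h2 hμ
    hM (Mt_nonneg m Lm) h17 hm1 hz hD hsym hb hb0 hbz (blkL_cell hok hL hm1 hm2 hl)
  refine h.mono (integral_mono_of_nonneg (Filter.Eventually.of_forall fun y => ?_)
    (bm_PS (bm_aG hz hD) hb (bm_pG h2.toPts hz hD) j X2 X1 X0 z2 z1 z0).int
    (Filter.Eventually.of_forall fun y => ?_))
  · unfold Blk.F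
    refine mul_nonneg (by exact_mod_cast Blk.cMQ_nonneg _) (mul_nonneg (by norm_num)
      (Finset.sum_nonneg fun c hc => mul_nonneg
        (by exact_mod_cast hB.w0 c (Finset.mem_range.1 hc)) ?_))
    split_ifs
    · have h4 : (0 : ℝ) < ((blkL L m1 (MQ Lm) η β K j i1 i2).u c : ℝ) := by
        exact_mod_cast hB.u0 c (Finset.mem_range.1 hc)
      exact HC3_nonneg (Mt_nonneg m Lm) hB.cut
        (by exact_mod_cast hB.Z0 c (Finset.mem_range.1 hc))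
        (by exact_mod_cast hB.ω0 c (Finset.mem_range.1 hc)) (by positivity)
        (hb0 y) (pG_nonneg y)
    · exact le_rfl
  · refine (Blk.F_leS (s := sC L) hB (Mt_nonneg m Lm) (Mt_eq m Lm) (fun c hc => ?_)
      (fun c hc => ?_) (aG_nonneg y) (hb0 y) (pG_nonneg y)).trans
        (PS_le hL hco (aG_nonneg y) (hb0 y) (pG_nonneg y))
    · unfold sC
      positivity
    · have hc' : c < 200 := hc
      show ((L.getD c c0).o : ℚ) / 100000000 ≤ (((L.getD c c0).s : ℚ) / 10000) ^ 2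
      by_cases h0 : (L.getD c c0).u = 0
      · rw [(cellsOK_inactive hL hc' h0).2.1]
        simpa using sq_nonneg _
      · exact (cellsOK_active hL hc' h0).2.2.2.1

end

/-- a table of natural numbers, scaled by `10^24` -/
def tN (T : List (List ℕ)) (i k : ℕ) : ℚ :=
  (((T.getD i []).getD k 0 : ℕ) : ℚ) / 1000000000000000000000000

/-- a list of cells from a list of numbers -/
def mkL : List (ℕ × ℕ × ℕ × ℕ × ℕ) → List CN :=
  List.map fun x => ⟨x.1, x.2.1, x.2.2.1, x.2.2.2.1, x.2.2.2.2⟩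

end Vale.Agent.P224.R2.H484
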