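import Vale.Agent.P224.R2.H484.Tint

/-!
The T-integrals of the tail terms: integration over the cells.
-/

namespace Vale.Agent.P224.R2.H484

open MeasureTheory Set Filter Function Real Vale.Agent.P224.SM2 Vale.Agent.P224.R2.H820
  Vale.Agent.P224.R2.H627
open scoped Topology

variable {m : ℕ} {T : ℝ}

section factor

/-- `x / (1 + x^2)^2` -/
noncomputable def fx (x : ℝ) : ℝ := x / (1 + x ^ 2) ^ 2

/-- `(2 + s) / (1 + s)^2` -/
noncomputable def gx (s : ℝ) : ℝ := (2 + s) / (1 + s) ^ 2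

lemma gx_anti {s s' : ℝ} (h0 : 0 ≤ s) (h : s ≤ s') : gx s' ≤ gx s := by
  unfold gx
  rw [div_le_div_iff₀ (by nlinarith) (by nlinarith)]
  nlinarith [mul_nonneg h0 (sub_nonneg.2 h), mul_nonneg (mul_nonneg h0 (h0.trans h)) (sub_nonneg.2 h),
    mul_nonneg (sub_nonneg.2 h) (sub_nonneg.2 h)]

lemma gx_nonneg {s : ℝ} (h0 : 0 ≤ s) : 0 ≤ gx s := by unfold gx; positivity

lemma fx_nonneg {x : ℝ} (h0 : 0 ≤ x) : 0 ≤ fx x := by unfold fx; positivity

lemma fx_le_max {x : ℝ} : fx x ≤ 13 / 40 := by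
  unfold fx
  rw [div_le_iff₀ (by positivity)]
  nlinarith [sq_nonneg (x ^ 2 - 1 / 3), sq_nonneg (x - 15 / 26)]

lemma fx_mono {x y : ℝ} (hx : 0 ≤ x) (hxy : x ≤ y) (hy : y ^ 2 * (2 + 3 * y ^ 2) ≤ 1) :
    fx x ≤ fx y := by
  unfold fx
  have hy0 := hx.trans hxy
  rw [div_le_div_iff₀ (by positivity) (by positivity)]
  have h1 : x * y ≤ y ^ 2 := by nlinarith
  have h2 : x ^ 2 ≤ y ^ 2 := by nlinarith
  have h3 : x * y * (2 + x ^ 2 + x * y + y ^ 2) ≤ 1 := by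
    refine le_trans ?_ hy
    have h4 : 2 + x ^ 2 + x * y + y ^ 2 ≤ 2 + 3 * y ^ 2 := by linarith
    exact mul_le_mul h1 h4 (by positivity) (by positivity)
  have h5 := mul_nonneg (sub_nonneg.2 hxy) (sub_nonneg.2 h3)
  have e : y * (1 + x ^ 2) ^ 2 - x * (1 + y ^ 2) ^ 2
      = (y - x) * (1 - x * y * (2 + x ^ 2 + x * y + y ^ 2)) := by ring
  linarith

lemma fx_anti {x y : ℝ} (hx : 0 ≤ x) (hxy : x ≤ y) (hx1 : 1 ≤ x ^ 2 * (2 + 3 * x ^ 2)) :
    fx y ≤ fx x := by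
  unfold fx
  have hy0 := hx.trans hxy
  rw [div_le_div_iff₀ (by positivity) (by positivity)]
  have h1 : x ^ 2 ≤ x * y := by nlinarith
  have h2 : x ^ 2 ≤ y ^ 2 := by nlinarith
  have h3 : 1 ≤ x * y * (2 + x ^ 2 + x * y + y ^ 2) := by
    refine le_trans hx1 ?_
    have h4 : 2 + 3 * x ^ 2 ≤ 2 + x ^ 2 + x * y + y ^ 2 := by linarith
    exact mul_le_mul h1 h4 (by positivity) (by positivity)
  have h5 := mul_nonneg (sub_nonneg.2 hxy) (sub_nonneg.2 h3)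
  have e : x * (1 + y ^ 2) ^ 2 - y * (1 + x ^ 2) ^ 2
      = (y - x) * (x * y * (2 + x ^ 2 + x * y + y ^ 2) - 1) := by ring
  linarith

lemma le_sv {s a : ℝ} (ha : 0 ≤ a) (hs : s ^ 2 * (1 + a ^ 2) ≤ 2 * a ^ 2)
    (haT : a ≤ T) : s ≤ sv T := by
  have hT := ha.trans haT
  have h1 := sv_sq T
  have h2 := sv_nonneg hT
  refine le_of_sq_le_sq' h2 ?_
  rw [h1]
  unfold hv
  have h3 : s ^ 2 ≤ 2 * a ^ 2 / (1 + a ^ 2) := by
    rw [le_div_iff₀ (by positivity)]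
    exact hs
  have h4 : 2 * a ^ 2 / (1 + a ^ 2) ≤ 2 * T ^ 2 / (1 + T ^ 2) := by
    rw [div_le_div_iff₀ (by positivity) (by positivity)]
    nlinarith
  have e : 1 - (1 - T ^ 2) / (1 + T ^ 2) = 2 * T ^ 2 / (1 + T ^ 2) := by
    field_simp
    ring
  rw [e]
  exact h3.trans h4
where
  le_of_sq_le_sq' {x y : ℝ} (hy : 0 ≤ y) (h : x ^ 2 ≤ y ^ 2) : x ≤ y := by
    exact abs_le_of_sq_le_sq' h hy |>.2

/-- the factor of the weight on a cell -/
noncomputable def gT (T : ℝ) : ℝ := fx T * gx (sv T) * (1 / (3 * √2))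

lemma cg_eq : cg T = gT T * (T / √(1 - T ^ 2)) := rfl

lemma inv_sqrt2 : 1 / (3 * √2) ≤ 2357023 / 10000000 := by
  have h : (14142135 / 10000000 : ℝ) ≤ √2 := by
    apply Real.le_sqrt_of_sq_le
    norm_num
  rw [div_le_iff₀ (by positivity)]
  nlinarith

lemma gT_le {a s f G : ℝ} (ha : 0 ≤ a) (hs0 : 0 ≤ s) (hs : s ^ 2 * (1 + a ^ 2) ≤ 2 * a ^ 2)
    (haT : a ≤ T) (hf : fx T ≤ f) (hG : f * gx s * (2357023 / 10000000) ≤ G) : gT T ≤ G := by
  refine le_trans ?_ hG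
  have hT := ha.trans haT
  have h1 := gx_anti hs0 (le_sv ha hs haT)
  have h2 := inv_sqrt2
  have h3 := fx_nonneg hT
  have h4 := gx_nonneg (sv_nonneg hT)
  have h5 := gx_nonneg hs0
  unfold gT
  have hf0 := h3.trans hf
  gcongr

end factor

section integral

/-- `T / √(1 - T^2)` -/
noncomputable def tk (T : ℝ) : ℝ := T / √(1 - T ^ 2)

lemma hasDerivAt_tk (hT : T ∈ Ioo (0 : ℝ) 1) : HasDerivAt (fun T => -√(1 - T ^ 2)) (tk T) T := by
  have hk : 0 < 1 - T ^ 2 := by nlinarith [hT.1, hT.2]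
  have h1 := (((hasDerivAt_pow 2 T).const_sub 1).sqrt hk.ne').fun_neg
  refine h1.congr_deriv ?_
  unfold tk
  have hs := Real.sqrt_pos.2 hk
  field_simp
  norm_num

lemma tk_nonneg (hT : 0 ≤ T) : 0 ≤ tk T := by unfold tk; positivity

lemma intble_tk {a b : ℝ} (ha : 0 ≤ a) (hab : a ≤ b) (hb : b ≤ 1) :
    IntervalIntegrable tk volume a b := by
  refine intervalIntegral.intervalIntegrable_deriv_of_nonneg (g := fun T => -√(1 - T ^ 2)) ?_ ?_ ?_
  · exact (by fun_prop : Continuous fun T : ℝ => -√(1 - T ^ 2)).continuousOn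
  · intro x hx
    rw [min_eq_left hab, max_eq_right hab] at hx
    exact hasDerivAt_tk ⟨lt_of_le_of_lt ha hx.1, lt_of_lt_of_le hx.2 hb⟩
  · intro x hx
    rw [min_eq_left hab, max_eq_right hab] at hx
    exact tk_nonneg (ha.trans hx.1.le)

lemma integral_tk {a b : ℝ} (ha : 0 ≤ a) (hab : a ≤ b) (hb : b ≤ 1) :
    ∫ T in a..b, tk T = √(1 - a ^ 2) - √(1 - b ^ 2) := by
  have h := intervalIntegral.integral_eq_sub_of_hasDerivAt_of_le (f := fun T => -√(1 - T ^ 2))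
    (f' := tk) hab
    (by exact (by fun_prop : Continuous fun T : ℝ => -√(1 - T ^ 2)).continuousOn)
    (fun x hx => hasDerivAt_tk ⟨lt_of_le_of_lt ha hx.1, lt_of_lt_of_le hx.2 hb⟩)
    (intble_tk ha hab hb)
  rw [h]
  ring

/-- the step function with value `φ c` on the cell `(t c, t (c + 1)]`, times `T / √(1 - T^2)` -/
noncomputable def stp (t ψ : ℕ → ℝ) (n : ℕ) (T : ℝ) : ℝ :=
  ∑ c ∈ Finset.range n, (Ioc (t c) (t (c + 1))).indicator (fun T => ψ c * tk T) T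

lemma t_mem {t : ℕ → ℝ} {n : ℕ} (ht0 : t 0 = 0) (htn : t n = 1) (ht : ∀ c < n, t c ≤ t (c + 1))
    {c : ℕ} (hc : c ≤ n) : 0 ≤ t c ∧ t c ≤ 1 := by
  have h1 : ∀ c ≤ n, 0 ≤ t c := by
    intro c
    induction c with
    | zero => intro _; rw [ht0]
    | succ k ih => intro h; exact (ih (by omega)).trans (ht k (by omega))
  have h2 : ∀ d ≤ n, t (n - d) ≤ 1 := by
    intro d
    induction d with
    | zero => intro _; simp [htn]
    | succ k ih =>
      intro h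
      have h3 := ht (n - (k + 1)) (by omega)
      rw [show n - (k + 1) + 1 = n - k by omega] at h3
      exact h3.trans (ih (by omega))
  refine ⟨h1 c hc, ?_⟩
  have := h2 (n - c) (by omega)
  rwa [Nat.sub_sub_self hc] at this

lemma stp_int {t ψ : ℕ → ℝ} {n : ℕ} (ht0 : t 0 = 0) (htn : t n = 1)
    (ht : ∀ c < n, t c ≤ t (c + 1)) :
    IntervalIntegrable (stp t ψ n) volume 0 1 ∧
    ∫ T in (0 : ℝ)..1, stp t ψ n T
      = ∑ c ∈ Finset.range n, ψ c * (√(1 - t c ^ 2) - √(1 - t (c + 1) ^ 2)) := by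
  have hI : ∀ c ∈ Finset.range n, IntegrableOn
      ((Ioc (t c) (t (c + 1))).indicator (fun T => ψ c * tk T)) (Ioc 0 1) := by
    intro c hc
    have h1 := (intble_tk (le_refl (0 : ℝ)) zero_le_one le_rfl).1.const_mul (ψ c)
    exact h1.indicator measurableSet_Ioc
  constructor
  · rw [intervalIntegrable_iff_integrableOn_Ioc_of_le zero_le_one]
    exact integrable_finsetSum _ hI
  · rw [intervalIntegral.integral_of_le zero_le_one]
    unfold stp
    rw [integral_finsetSum _ hI]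
    refine Finset.sum_congr rfl fun c hc => ?_
    have hcn := Finset.mem_range.1 hc
    have m1 := t_mem ht0 htn ht hcn.le
    have m2 := t_mem ht0 htn ht (Nat.succ_le_of_lt hcn)
    rw [integral_indicator measurableSet_Ioc, Measure.restrict_restrict measurableSet_Ioc,
      inter_eq_left.2 (Ioc_subset_Ioc m1.1 m2.2), ← intervalIntegral.integral_of_le (ht c hcn),
      intervalIntegral.integral_const_mul, integral_tk m1.1 (ht c hcn) m2.2]

lemma stp_ge {t ψ : ℕ → ℝ} {n : ℕ} (hψ : ∀ c < n, 0 ≤ ψ c) (hT : 0 ≤ T) {c : ℕ} (hc : c < n)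
    (h1 : t c < T) (h2 : T ≤ t (c + 1)) : ψ c * tk T ≤ stp t ψ n T := by
  have h := Finset.single_le_sum (f := fun c =>
    (Ioc (t c) (t (c + 1))).indicator (fun T => ψ c * tk T) T)
    (s := Finset.range n) (a := c) (fun i hi => ?_) (Finset.mem_range.2 hc)
  · refine le_trans (le_of_eq ?_) h
    rw [indicator_of_mem (show T ∈ Ioc (t c) (t (c + 1)) from ⟨h1, h2⟩)]
  · simp only [indicator]
    split_ifs
    · exact mul_nonneg (hψ i (Finset.mem_range.1 hi)) (tk_nonneg hT)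
    · exact le_rfl

lemma cf_nonneg (hm : 17 ≤ m) (hT : T ∈ Ioo (0 : ℝ) 1) : 0 ≤ cf m T := by
  have hm' : (17 : ℝ) ≤ m := by exact_mod_cast hm
  have hk : 0 < 1 - T ^ 2 := by nlinarith [hT.1, hT.2]
  have hn := nrm_cn (m := m) (by omega)
  have hc := hn.pos' (by linarith)
  have h := Rf_nonneg (a := (m : ℝ) / 2) hc.le (by linarith) ⟨hT.1.le, hT.2.le⟩
  rw [cf_eq (by omega) hT]
  positivity

lemma exists_cell {t : ℕ → ℝ} {n : ℕ} (ht0 : t 0 = 0) (htn : t n = 1)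
    (hT : T ∈ Ioo (0 : ℝ) 1) : ∃ c < n, t c < T ∧ T ≤ t (c + 1) := by
  classical
  have hex : ∃ k, T ≤ t k := ⟨n, by rw [htn]; exact hT.2.le⟩
  set k := Nat.find hex with hk
  have h1 : T ≤ t k := Nat.find_spec hex
  have h2 : k ≤ n := Nat.find_min' hex (by rw [htn]; exact hT.2.le)
  have h3 : k ≠ 0 := by
    intro h
    rw [h, ht0] at h1
    exact absurd h1 (not_le.2 hT.1)
  refine ⟨k - 1, by omega, ?_, ?_⟩
  · have := Nat.find_min hex (m := k - 1) (by omega)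
    exact not_le.1 this
  · rwa [Nat.sub_add_cancel (Nat.pos_of_ne_zero h3)]

/-- the integral over the cells -/
theorem tau_cells (hm : 17 ≤ m) {n : ℕ} {t κ G φ : ℕ → ℝ} (ht0 : t 0 = 0) (htn : t n = 1)
    (ht : ∀ c < n, t c ≤ t (c + 1)) (hκ : ∀ c ≤ n, √(1 - t c ^ 2) = κ c)
    (hG0 : ∀ c < n, 0 ≤ G c) (hφ0 : ∀ c < n, 0 ≤ φ c)
    (hG : ∀ c < n, ∀ T ∈ Ioo (0 : ℝ) 1, t c < T → T ≤ t (c + 1) → gT T ≤ G c)
    {Φ : ℝ → ℝ}
    (hΦ : ∀ c < n, ∀ T ∈ Ioo (0 : ℝ) 1, t c < T → T ≤ t (c + 1) → Φ T ≤ φ c) :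
    ∃ τ : ℝ → ℝ, IntervalIntegrable τ volume 0 1 ∧
      (∀ T ∈ Ioo (0 : ℝ) 1, cf m T * Φ T ≤ τ T) ∧
      ∫ T in (0 : ℝ)..1, τ T
        = cM m * ∑ c ∈ Finset.range n, G c * (κ c - κ (c + 1)) * φ c := by
  have hψ : ∀ c < n, 0 ≤ cM m * (G c * φ c) := fun c hc =>
    mul_nonneg (cM_nonneg m) (mul_nonneg (hG0 c hc) (hφ0 c hc))
  obtain ⟨i1, i2⟩ := stp_int (ψ := fun c => cM m * (G c * φ c)) ht0 htn ht
  refine ⟨_, i1, ?_, ?_⟩
  · intro T hT
    obtain ⟨c, hc, h1, h2⟩ := exists_cell ht0 htn hT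
    have h3 := stp_ge hψ hT.1.le hc h1 h2
    refine le_trans ?_ h3
    have h4 := cf_le hm hT
    have h5 := hG c hc T hT h1 h2
    have h6 := hΦ c hc T hT h1 h2
    have h7 := cf_nonneg hm hT
    have h8 := tk_nonneg hT.1.le
    rw [cg_eq] at h4
    calc cf m T * Φ T ≤ cf m T * φ c := mul_le_mul_of_nonneg_left h6 h7
      _ ≤ (cM m * (gT T * tk T)) * φ c := mul_le_mul_of_nonneg_right h4 (hφ0 c hc)
      _ ≤ (cM m * (G c * tk T)) * φ c := by
          have := cM_nonneg m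
          have := hφ0 c hc
          gcongr
      _ = _ := by ring
  · rw [i2, Finset.mul_sum]
    refine Finset.sum_congr rfl fun c hc => ?_
    have hcn := Finset.mem_range.1 hc
    rw [hκ c hcn.le, hκ (c + 1) (by omega)]
    ring

end integral

end Vale.Agent.P224.R2.H484
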