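import Vale.Agent.P224.R2.H484.Conf
import Vale.Agent.P224.R2.H582.If

/-!
The absolute tail bound at level `T`, for every minimal law.
-/

namespace Vale.Agent.P224.R2.H484

open MeasureTheory Set Function Module Vale.Agent.P224 Vale.Agent.P224.SM2
  Vale.Agent.P224.R2.H869 Vale.Agent.P224.R2.H582
open scoped RealInnerProductSpace

set_option linter.unusedSectionVars false

section scalar

/-- `x e^{-a x} ≤ 1/(e a)` -/
lemma mul_exp_neg_le {a x : ℝ} (ha : 0 < a) :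
    x * Real.exp (-(a * x)) ≤ 1 / (Real.exp 1 * a) := by
  have h1 := Real.add_one_le_exp (a * x - 1)
  have h2 : a * x ≤ Real.exp (a * x) * Real.exp (-1) := by
    rw [← Real.exp_add, show a * x + -1 = a * x - 1 by ring]
    linarith
  rw [le_div_iff₀ (by positivity)]
  have h3 : Real.exp (a * x) * Real.exp (-(a * x)) = 1 := by
    rw [← Real.exp_add]
    simp
  have h4 : Real.exp (-1) * Real.exp 1 = 1 := by
    rw [← Real.exp_add]
    simp
  calc x * Real.exp (-(a * x)) * (Real.exp 1 * a)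
      = (a * x) * (Real.exp (-(a * x)) * Real.exp 1) := by ring
    _ ≤ (Real.exp (a * x) * Real.exp (-1)) * (Real.exp (-(a * x)) * Real.exp 1) :=
        mul_le_mul_of_nonneg_right h2 (by positivity)
    _ = (Real.exp (a * x) * Real.exp (-(a * x))) * (Real.exp (-1) * Real.exp 1) := by ring
    _ = 1 := by rw [h3, h4, one_mul]

lemma sc1 {l x : ℝ} (hl : 5 / 2 < l) (hx : 0 ≤ x) :
    x * (2 + x) * (1 + x) ^ 2 * Real.exp (-(l * x)) ≤ 2 / (Real.exp 1 * (l - 5 / 2)) := by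
  have h1 : 2 + x ≤ 2 * Real.exp (x / 2) := by
    have := Real.add_one_le_exp (x / 2)
    linarith
  have h2 : (1 + x) ^ 2 ≤ Real.exp (2 * x) := by
    have h := Real.add_one_le_exp x
    have e : Real.exp (2 * x) = Real.exp x ^ 2 := by
      rw [← Real.exp_nat_mul]
      norm_num
    rw [e]
    exact pow_le_pow_left₀ (by linarith) (by linarith) 2
  have h3 : (2 + x) * (1 + x) ^ 2 ≤ 2 * Real.exp (x / 2) * Real.exp (2 * x) :=
    mul_le_mul h1 h2 (by positivity) (by positivity)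
  have h4 := mul_exp_neg_le (a := l - 5 / 2) (x := x) (by linarith)
  calc x * (2 + x) * (1 + x) ^ 2 * Real.exp (-(l * x))
      = x * Real.exp (-(l * x)) * ((2 + x) * (1 + x) ^ 2) := by ring
    _ ≤ x * Real.exp (-(l * x)) * (2 * Real.exp (x / 2) * Real.exp (2 * x)) :=
        mul_le_mul_of_nonneg_left h3 (by positivity)
    _ = 2 * (x * (Real.exp (-(l * x)) * Real.exp (x / 2) * Real.exp (2 * x))) := by ring
    _ = 2 * (x * Real.exp (-((l - 5 / 2) * x))) := by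
        rw [← Real.exp_add, ← Real.exp_add]
        congr 3
        ring
    _ ≤ 2 * (1 / (Real.exp 1 * (l - 5 / 2))) := by linarith
    _ = _ := by ring

/-- the domination constant -/
noncomputable def Cd (m : ℕ) (l : ℝ) : ℝ :=
  2 / (Real.exp 1 * (l - 5 / 2)) * (l ^ 2 / m) * (1 - l / m) ^ (m - 1)

lemma Cd_nonneg {m : ℕ} {l : ℝ} (hl : 5 / 2 < l) (hlm : l < m) : 0 ≤ Cd m l := by
  have h1 : 0 < l - 5 / 2 := by linarith
  have hm : (0 : ℝ) < m := by linarith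
  have h2 : 0 ≤ 1 - l / m := by
    rw [sub_nonneg, div_le_one hm]
    exact hlm.le
  unfold Cd
  positivity

/-- one variable domination, positive side -/
lemma dom_pos {m : ℕ} {l z : ℝ} (hl : 5 / 2 < l) (hlm : l < m) (hz : √(l / m) ≤ z)
    (hz1 : z ≤ 1) :
    z ^ 2 * (m * z ^ 2 - l) ≤ Cd m l * ((1 - √(l / m) * z) ^ (m - 1))⁻¹ := by
  have hm : (0 : ℝ) < m := by linarith
  have hl0 : 0 < l := by linarith
  set τ := √(l / m) with hτ
  have hτ2 : τ ^ 2 = l / m := Real.sq_sqrt (by positivity)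
  have hτ0 : 0 < τ := Real.sqrt_pos.2 (by positivity)
  have hτ1 : τ ^ 2 < 1 := by
    rw [hτ2, div_lt_one hm]
    exact hlm
  have hτlt : τ < 1 := by nlinarith
  have hK : 0 < 1 - τ ^ 2 := by linarith
  set x := (z - τ) / τ with hx
  have hx0 : 0 ≤ x := div_nonneg (by linarith) hτ0.le
  have hzx : z = τ * (1 + x) := by
    rw [hx]
    field_simp
    ring
  have hb : 0 < 1 - τ * z := by
    have : τ * z ≤ τ * 1 := mul_le_mul_of_nonneg_left hz1 hτ0.le
    linarith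
  obtain ⟨q, rfl⟩ : ∃ q, m = q + 1 := ⟨m - 1, by
    have : (1 : ℝ) < m := by linarith
    have : 1 < m := by exact_mod_cast this
    omega⟩
  simp only [Nat.add_sub_cancel]
  have h1 : 1 - τ * z ≤ (1 - τ ^ 2) * Real.exp (-(τ ^ 2 / (1 - τ ^ 2) * x)) := by
    have h := Real.add_one_le_exp (-(τ ^ 2 / (1 - τ ^ 2) * x))
    have e : 1 - τ * z = (1 - τ ^ 2) * (-(τ ^ 2 / (1 - τ ^ 2) * x) + 1) := by
      rw [hzx]
      field_simp
      ring
    rw [e]
    exact mul_le_mul_of_nonneg_left h hK.le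
  have h2 : (1 - τ * z) ^ q ≤ (1 - τ ^ 2) ^ q * Real.exp (-(l * x)) := by
    refine (pow_le_pow_left₀ hb.le h1 q).trans ?_
    rw [mul_pow, ← Real.exp_nat_mul]
    refine mul_le_mul_of_nonneg_left (Real.exp_le_exp.2 ?_) (by positivity)
    have h3 : l ≤ q * (τ ^ 2 / (1 - τ ^ 2)) := by
      rw [hτ2, ← mul_div_assoc, le_div_iff₀ (by rwa [hτ2] at hK)]
      have : l * (1 - l / ((q + 1 : ℕ) : ℝ)) = l / ((q + 1 : ℕ) : ℝ) * (((q + 1 : ℕ) : ℝ) - l) := by
        field_simp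
      rw [this]
      have h5 : 0 ≤ l / ((q + 1 : ℕ) : ℝ) := by positivity
      have h6 : (((q + 1 : ℕ) : ℝ) - l) ≤ q := by
        push_cast
        linarith
      nlinarith
    nlinarith [mul_le_mul_of_nonneg_right h3 hx0]
  have h7 : z ^ 2 * (((q + 1 : ℕ) : ℝ) * z ^ 2 - l)
      = l ^ 2 / ((q + 1 : ℕ) : ℝ) * (x * (2 + x) * (1 + x) ^ 2) := by
    have e1 : z ^ 2 = l / ((q + 1 : ℕ) : ℝ) * (1 + x) ^ 2 := by
      rw [hzx, mul_pow, hτ2]
    rw [e1]
    field_simp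
    ring
  rw [← div_eq_mul_inv, le_div_iff₀ (pow_pos hb q), h7]
  have h8 := sc1 hl hx0
  have h9 : 0 ≤ l ^ 2 / ((q + 1 : ℕ) : ℝ) * (x * (2 + x) * (1 + x) ^ 2) := by positivity
  calc l ^ 2 / ((q + 1 : ℕ) : ℝ) * (x * (2 + x) * (1 + x) ^ 2) * (1 - τ * z) ^ q
      ≤ l ^ 2 / ((q + 1 : ℕ) : ℝ) * (x * (2 + x) * (1 + x) ^ 2)
        * ((1 - τ ^ 2) ^ q * Real.exp (-(l * x))) := mul_le_mul_of_nonneg_left h2 h9
    _ = (x * (2 + x) * (1 + x) ^ 2 * Real.exp (-(l * x))) * (l ^ 2 / ((q + 1 : ℕ) : ℝ))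
        * (1 - τ ^ 2) ^ q := by ring
    _ ≤ 2 / (Real.exp 1 * (l - 5 / 2)) * (l ^ 2 / ((q + 1 : ℕ) : ℝ)) * (1 - τ ^ 2) ^ q := by
        refine mul_le_mul_of_nonneg_right (mul_le_mul_of_nonneg_right h8 (by positivity))
          (by positivity)
    _ = Cd (q + 1) l := by
        unfold Cd
        rw [hτ2]
        simp

/-- one variable domination -/
lemma dom_two {m : ℕ} {l z : ℝ} (hl : 5 / 2 < l) (hlm : l < m) (hz : |z| ≤ 1) :
    z ^ 2 * max (m * z ^ 2 - l) 0 ≤ Cd m l * ((1 - √(l / m) * z) ^ (m - 1))⁻¹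
      + Cd m l * ((1 + √(l / m) * z) ^ (m - 1))⁻¹ := by
  have hm : (0 : ℝ) < m := by linarith
  have hl0 : 0 < l := by linarith
  have hC := Cd_nonneg hl hlm
  have hτ2 : √(l / m) ^ 2 = l / m := Real.sq_sqrt (by positivity)
  have hτ0 : 0 < √(l / m) := Real.sqrt_pos.2 (by positivity)
  have hτ1 : √(l / m) ^ 2 < 1 := by
    rw [hτ2, div_lt_one hm]
    exact hlm
  have hτlt : √(l / m) < 1 := by nlinarith
  obtain ⟨hz0, hz1⟩ := abs_le.1 hz
  have hb1 : 0 < 1 - √(l / m) * z := by nlinarith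
  have hb2 : 0 < 1 + √(l / m) * z := by nlinarith
  have p1 : 0 ≤ Cd m l * ((1 - √(l / m) * z) ^ (m - 1))⁻¹ :=
    mul_nonneg hC (inv_nonneg.2 (pow_nonneg hb1.le _))
  have p2 : 0 ≤ Cd m l * ((1 + √(l / m) * z) ^ (m - 1))⁻¹ :=
    mul_nonneg hC (inv_nonneg.2 (pow_nonneg hb2.le _))
  rcases le_or_gt (m * z ^ 2 - l) 0 with h | h
  · rw [max_eq_right h, mul_zero]
    linarith
  · rw [max_eq_left h.le]
    have hz2 : l / m < z ^ 2 := by
      rw [div_lt_iff₀ hm]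
      linarith
    rcases le_total 0 z with h0 | h0
    · have hz3 : √(l / m) ≤ z := by
        rw [← hτ2] at hz2
        exact (abs_le_of_sq_le_sq' hz2.le h0).2
      have := dom_pos hl hlm hz3 hz1
      linarith
    · have hz3 : √(l / m) ≤ -z := by
        rw [← hτ2, ← neg_sq z] at hz2
        exact (abs_le_of_sq_le_sq' hz2.le (by linarith)).2
      have := dom_pos hl hlm hz3 (by linarith : -z ≤ 1)
      rw [neg_sq, mul_neg, sub_neg_eq_add] at this
      linarith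

/-- convexity: reduction of the pair tail to one variable -/
lemma pair_tail {m l a b : ℝ} (hm : 0 ≤ m) :
    (a - b) ^ 2 * max (-(m * (a * b)) - l) 0
      ≤ 2 * (a ^ 2 * max (m * a ^ 2 - l) 0) + 2 * (b ^ 2 * max (m * b ^ 2 - l) 0) := by
  have h1 : 0 ≤ a ^ 2 * max (m * a ^ 2 - l) 0 := mul_nonneg (sq_nonneg _) (le_max_right _ _)
  have h2 : 0 ≤ b ^ 2 * max (m * b ^ 2 - l) 0 := mul_nonneg (sq_nonneg _) (le_max_right _ _)
  rcases le_or_gt (-(m * (a * b)) - l) 0 with h | h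
  · rw [max_eq_right h, mul_zero]
    linarith
  · rw [max_eq_left h.le]
    have h3 : a ^ 2 * (m * a ^ 2 - l) ≤ a ^ 2 * max (m * a ^ 2 - l) 0 :=
      mul_le_mul_of_nonneg_left (le_max_left _ _) (sq_nonneg _)
    have h4 : b ^ 2 * (m * b ^ 2 - l) ≤ b ^ 2 * max (m * b ^ 2 - l) 0 :=
      mul_le_mul_of_nonneg_left (le_max_left _ _) (sq_nonneg _)
    have h5 : (a - b) ^ 2 ≤ 2 * (a ^ 2 + b ^ 2) := by nlinarith [sq_nonneg (a + b)]
    have h6 : -(m * (a * b)) - l ≤ m * (a ^ 2 + b ^ 2) / 2 - l := by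
      nlinarith [mul_nonneg hm (sq_nonneg (a + b))]
    have h7 : (a - b) ^ 2 * (-(m * (a * b)) - l) ≤ 2 * (a ^ 2 + b ^ 2) * (m * (a ^ 2 + b ^ 2) / 2 - l) :=
      mul_le_mul h5 h6 h.le (by positivity)
    nlinarith [mul_nonneg hm (sq_nonneg (a ^ 2 - b ^ 2))]

end scalar

section

variable {X : Type*} [MeasurableSpace X] {E : Type*} [NormedAddCommGroup E]
  [InnerProductSpace ℝ E] [MeasurableSpace E] [BorelSpace E] [SecondCountableTopology E]
  {μ : Measure X} [IsFiniteMeasure μ] {m q : ℕ} {p n : X → E}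

/-- the constant of the absolute tail -/
noncomputable def At (m : ℕ) (l : ℝ) : ℝ :=
  4 / (Real.exp 1 * (l - 5 / 2)) * (l ^ 2 / m) * √(1 - l / m) ^ (m - 1)

lemma At_eq {m : ℕ} {l : ℝ} (hl : 5 / 2 < l) (hlm : l < m) :
    At m l = 2 * (Cd m l * (√(1 - √(l / m) ^ 2) ^ (m - 1))⁻¹) := by
  have hm : (0 : ℝ) < m := by linarith
  have hl0 : 0 < l := by linarith
  have hτ2 : √(l / m) ^ 2 = l / m := Real.sq_sqrt (by positivity)
  have h2 : 0 < 1 - l / m := by
    rw [sub_pos, div_lt_one hm]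
    exact hlm
  have hs := Real.sqrt_pos.2 h2
  rw [hτ2]
  unfold At Cd
  have e : (1 - l / (m : ℝ)) ^ (m - 1) = √(1 - l / m) ^ (m - 1) * √(1 - l / m) ^ (m - 1) := by
    rw [← mul_pow, Real.mul_self_sqrt h2.le]
  rw [e]
  have hs' := (pow_pos hs (m - 1)).ne'
  field_simp
  ring

/-- the one point tail: `w` a unit vector -/
theorem CV.tail1 (h : CV μ (m - 1) p) {T l : ℝ} (hT : T ∈ Ico (0 : ℝ) 1) (hl : 5 / 2 < l)
    (hlm : l < m) {y w : E} (hy : ‖y‖ = 1) (hw : ‖w‖ = 1) :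
    √(1 - T ^ 2) ^ (m - 1) * ∫ x, ((1 - T * ⟪p x, y⟫) ^ (m - 1))⁻¹ *
      (⟪w, mob T y (p x)⟫ ^ 2 * max (m * ⟪w, mob T y (p x)⟫ ^ 2 - l) 0) ∂μ
      ≤ μ.real univ * At m l := by
  have hm : (0 : ℝ) < m := by linarith
  have hl0 : 0 < l := by linarith
  set τ := √(l / m) with hτ
  have hτ2 : τ ^ 2 = l / m := Real.sq_sqrt (by positivity)
  have hτ0 : 0 < τ := Real.sqrt_pos.2 (by positivity)
  have hτ1 : τ ^ 2 < 1 := by
    rw [hτ2, div_lt_one hm]
    exact hlm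
  have hτlt : τ < 1 := by nlinarith
  have hn : ‖τ • w‖ = τ := by rw [norm_smul, hw, mul_one, Real.norm_eq_abs, abs_of_pos hτ0]
  have hC := Cd_nonneg hl hlm
  have key := h.dom hT hy (Finset.univ : Finset (Fin 2)) (fun _ => Cd m l)
    ![τ • w, -(τ • w)] (fun _ _ => hC)
    (by
      intro i _
      fin_cases i
      · simpa [hn] using hτlt
      · simpa [hn] using hτlt)
    (G := fun x => ⟪w, mob T y (p x)⟫ ^ 2 * max (m * ⟪w, mob T y (p x)⟫ ^ 2 - l) 0)
    (fun x => mul_nonneg (sq_nonneg _) (le_max_right _ _))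
    (by
      intro x
      have hz : |⟪w, mob T y (p x)⟫| ≤ 1 := by
        have := inner_mob_le hT (h.np x) hy w
        rwa [hw] at this
      have := dom_two hl hlm hz
      rw [Fin.sum_univ_two]
      simp only [Matrix.cons_val_zero, Matrix.cons_val_one, inner_neg_left,
        real_inner_smul_left, sub_neg_eq_add]
      rwa [← hτ] at this)
  refine key.trans (le_of_eq ?_)
  rw [Fin.sum_univ_two, At_eq hl hlm]
  simp only [Matrix.cons_val_zero, Matrix.cons_val_one, norm_neg, hn, ← hτ]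
  ring

end

section

variable {X : Type*} [MeasurableSpace X] {E : Type*} [NormedAddCommGroup E]
  [InnerProductSpace ℝ E] [MeasurableSpace E] [BorelSpace E] [SecondCountableTopology E]
  {μ : Measure X} [IsFiniteMeasure μ] {m : ℕ} {p n : X → E}

/-- the second coordinate one variable tail -/
noncomputable def TZ (m : ℕ) (T l : ℝ) (s t : ℝ) : ℝ :=
  ker T (m - 1) s * ((√(1 - T ^ 2) * t / (1 - T * s)) ^ 2 *
    max (m * (√(1 - T ^ 2) * t / (1 - T * s)) ^ 2 - l) 0)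

lemma TK_le {T l : ℝ} (hT : T ∈ Ico (0 : ℝ) 1) (hm : 1 ≤ m) {k : R4} (hk : k ∈ KK) :
    TK m T l k ≤ 2 / (1 - T ^ 2) * (TZ m T l k.1 k.2.1 + TZ m T l k.1 k.2.2.1) := by
  obtain ⟨s, t, p, c⟩ := k
  have hv : 0 < 1 - T * s := one_sub_pos' hT hk.1.2
  have hκ := k_pos hT
  have hs := Real.sqrt_pos.2 hκ
  have hs2 : √(1 - T ^ 2) ^ 2 = 1 - T ^ 2 := Real.sq_sqrt hκ.le
  unfold TK TZ Xk Yk
  simp only
  set v := 1 - T * s with hvdef
  set κ := √(1 - T ^ 2) with hκdef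
  have h1 := pair_tail (m := (m : ℝ)) (l := l) (a := κ * t / v) (b := κ * p / v)
    (Nat.cast_nonneg m)
  have e1 : (p - t) ^ 2 = v ^ 2 / κ ^ 2 * (κ * t / v - κ * p / v) ^ 2 := by
    field_simp
    ring
  have e2 : (m : ℝ) * (1 - T ^ 2) * (p * t) / v ^ 2 = m * (κ * t / v * (κ * p / v)) := by
    rw [← hs2]
    field_simp
  have e3 : ker T (m + 1) s * v ^ 2 = ker T (m - 1) s := by
    obtain ⟨q, rfl⟩ : ∃ q, m = q + 1 := ⟨m - 1, by omega⟩
    simp only [Nat.add_sub_cancel]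
    unfold ker
    rw [← hvdef, show q + 1 + 1 = q + 2 by ring, pow_add]
    field_simp
  rw [e1, e2]
  have hker : 0 ≤ ker T (m - 1) s := (ker_pos _ hv).le
  calc ker T (m + 1) s * (v ^ 2 / κ ^ 2 * (κ * t / v - κ * p / v) ^ 2)
        * max (-(m * (κ * t / v * (κ * p / v))) - l) 0
      = (ker T (m + 1) s * v ^ 2) / κ ^ 2 * ((κ * t / v - κ * p / v) ^ 2
        * max (-(m * (κ * t / v * (κ * p / v))) - l) 0) := by ring
    _ ≤ (ker T (m + 1) s * v ^ 2) / κ ^ 2 * _ := by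
        refine mul_le_mul_of_nonneg_left h1 ?_
        rw [e3]
        positivity
    _ = _ := by
        rw [e3, hs2]
        ring

lemma measurable_TZ (m : ℕ) (T l : ℝ) : Measurable fun z : ℝ × ℝ => TZ m T l z.1 z.2 := by
  have := measurable_ker T (m - 1)
  unfold TZ
  fun_prop

lemma contOn_TZ {T : ℝ} (hT : T ∈ Ico (0 : ℝ) 1) (m : ℕ) (l : ℝ) :
    ContinuousOn (fun z : ℝ × ℝ => TZ m T l z.1 z.2) (Icc (-1) 1 ×ˢ Icc (-1) 1) := by
  have hne : ∀ z ∈ (Icc (-1 : ℝ) 1 ×ˢ Icc (-1 : ℝ) 1), 1 - T * z.1 ≠ 0 := fun z hz =>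
    (one_sub_pos' hT hz.1.2).ne'
  unfold TZ ker
  have h1 : ContinuousOn (fun z : ℝ × ℝ => √(1 - T ^ 2) * z.2 / (1 - T * z.1))
      (Icc (-1) 1 ×ˢ Icc (-1) 1) := by
    refine ContinuousOn.div (by fun_prop) (by fun_prop) hne
  refine ContinuousOn.mul ?_ ((h1.pow 2).mul ?_)
  · exact ContinuousOn.inv₀ (by fun_prop) fun z hz => pow_ne_zero _ (hne z hz)
  · exact ((continuousOn_const.mul (h1.pow 2)).sub continuousOn_const).sup continuousOn_const

lemma measurable_TZ1 (m : ℕ) (T l : ℝ) : Measurable fun k : R4 => TZ m T l k.1 k.2.1 := by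
  have := measurable_ker T (m - 1)
  unfold TZ
  fun_prop

lemma measurable_TZ2 (m : ℕ) (T l : ℝ) : Measurable fun k : R4 => TZ m T l k.1 k.2.2.1 := by
  have := measurable_ker T (m - 1)
  unfold TZ
  fun_prop

lemma contOn_TZ1 {T : ℝ} (hT : T ∈ Ico (0 : ℝ) 1) (m : ℕ) (l : ℝ) :
    ContinuousOn (fun k : R4 => TZ m T l k.1 k.2.1) KK := by
  have h : ContinuousOn (fun k : R4 => (k.1, k.2.1)) KK := by fun_prop
  exact ContinuousOn.comp (g := fun z : ℝ × ℝ => TZ m T l z.1 z.2)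
    (f := fun k : R4 => (k.1, k.2.1)) (contOn_TZ hT m l) h (fun k hk => ⟨hk.1, hk.2.1⟩)

lemma contOn_TZ2 {T : ℝ} (hT : T ∈ Ico (0 : ℝ) 1) (m : ℕ) (l : ℝ) :
    ContinuousOn (fun k : R4 => TZ m T l k.1 k.2.2.1) KK := by
  have h : ContinuousOn (fun k : R4 => (k.1, k.2.2.1)) KK := by fun_prop
  exact ContinuousOn.comp (g := fun z : ℝ × ℝ => TZ m T l z.1 z.2)
    (f := fun k : R4 => (k.1, k.2.2.1)) (contOn_TZ hT m l) h (fun k hk => ⟨hk.1, hk.2.2.1⟩)

/-- the absolute tail bound at level `T` -/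
theorem E2_TK_le [Nontrivial E] (h2 : Two μ m p n) (h1 : MinRow μ m p n) (hm : 1 ≤ m) {T l : ℝ}
    (hT : T ∈ Ico (0 : ℝ) 1) (hl : 5 / 2 < l) (hlm : l < m) :
    √(1 - T ^ 2) ^ (m + 1) * E2 μ p n (TK m T l) ≤ (μ.real univ) ^ 2 * (4 * At m l) := by
  have hcv : CV μ (m - 1) p := by
    obtain ⟨q, rfl⟩ : ∃ q, m = q + 1 := ⟨m - 1, by omega⟩
    exact cv_pred_of_min h1
  have hκ := k_pos hT
  have hs := Real.sqrt_pos.2 hκ
  have hs2 : √(1 - T ^ 2) ^ 2 = 1 - T ^ 2 := Real.sq_sqrt hκ.le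
  have hA : 0 ≤ μ.real univ := measureReal_nonneg
  -- the two one variable integrals
  have g1m := measurable_TZ1 m T l
  have g2m := measurable_TZ2 m T l
  have g1c := contOn_TZ1 hT m l
  have g2c := contOn_TZ2 hT m l
  have i1 := int_E2 (μ := μ) h2 g1m g1c
  have i2 := int_E2 (μ := μ) h2 g2m g2c
  have b1 : √(1 - T ^ 2) ^ (m - 1) * E2 μ p n (fun k => TZ m T l k.1 k.2.1)
      ≤ (μ.real univ) ^ 2 * At m l := by
    unfold E2
    rw [integral_prod_symm _ i1, ← integral_const_mul]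
    have hb : ∀ y, √(1 - T ^ 2) ^ (m - 1) * ∫ x, TZ m T l (SM2.pr p n (x, y)).1
        (SM2.pr p n (x, y)).2.1 ∂μ ≤ μ.real univ * At m l := by
      intro y
      have h3 := hcv.tail1 hT hl hlm (y := p y) (w := n y) (h2.np y) (h2.nn y)
      refine le_trans (le_of_eq ?_) h3
      congr 1
      refine integral_congr_ae (Filter.Eventually.of_forall fun x => ?_)
      simp only
      rw [inner_mob_perp hT (h2.np x) (h2.np y) (by rw [real_inner_comm]; exact h2.pn y)]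
      unfold TZ ker SM2.pr
      simp only
      rw [real_inner_comm (p x) (n y)]
    refine (integral_mono_of_nonneg ?_ (integrable_const _)
      (Filter.Eventually.of_forall hb)).trans (le_of_eq ?_)
    · refine Filter.Eventually.of_forall fun y => mul_nonneg (by positivity)
        (integral_nonneg fun x => ?_)
      have hv := one_sub_pos' hT (h2.pr_mem (x, y)).1.2
      unfold TZ
      exact mul_nonneg (ker_pos _ hv).le (mul_nonneg (sq_nonneg _) (le_max_right _ _))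
    · rw [integral_const, smul_eq_mul]
      ring
  have b2 : √(1 - T ^ 2) ^ (m - 1) * E2 μ p n (fun k => TZ m T l k.1 k.2.2.1)
      ≤ (μ.real univ) ^ 2 * At m l := by
    unfold E2
    rw [integral_prod _ i2, ← integral_const_mul]
    have hb : ∀ x, √(1 - T ^ 2) ^ (m - 1) * ∫ y, TZ m T l (SM2.pr p n (x, y)).1
        (SM2.pr p n (x, y)).2.2.1 ∂μ ≤ μ.real univ * At m l := by
      intro x
      have h3 := hcv.tail1 hT hl hlm (y := p x) (w := n x) (h2.np x) (h2.nn x)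
      refine le_trans (le_of_eq ?_) h3
      congr 1
      refine integral_congr_ae (Filter.Eventually.of_forall fun y => ?_)
      simp only
      rw [inner_mob_perp hT (h2.np y) (h2.np x) (by rw [real_inner_comm]; exact h2.pn x)]
      unfold TZ ker SM2.pr
      simp only
      rw [real_inner_comm (p x) (p y)]
    refine (integral_mono_of_nonneg ?_ (integrable_const _)
      (Filter.Eventually.of_forall hb)).trans (le_of_eq ?_)
    · refine Filter.Eventually.of_forall fun x => mul_nonneg (by positivity)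
        (integral_nonneg fun y => ?_)
      have hv := one_sub_pos' hT (h2.pr_mem (x, y)).1.2
      unfold TZ
      exact mul_nonneg (ker_pos _ hv).le (mul_nonneg (sq_nonneg _) (le_max_right _ _))
    · rw [integral_const, smul_eq_mul]
      ring
  have h5 : E2 μ p n (TK m T l) ≤ 2 / (1 - T ^ 2) *
      (E2 μ p n (fun k => TZ m T l k.1 k.2.1) + E2 μ p n (fun k => TZ m T l k.1 k.2.2.1)) := by
    unfold E2
    rw [← integral_add i1 i2, ← integral_const_mul]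
    refine integral_mono (int_E2 h2 (measurable_TK m T l) (contOn_TK hT m l))
      ((i1.add i2).const_mul _) fun q => ?_
    exact TK_le hT hm (h2.pr_mem q)
  obtain ⟨q, rfl⟩ : ∃ q, m = q + 1 := ⟨m - 1, by omega⟩
  simp only [Nat.add_sub_cancel] at b1 b2
  have e : √(1 - T ^ 2) ^ (q + 1 + 1) = √(1 - T ^ 2) ^ q * (1 - T ^ 2) := by
    rw [pow_succ, pow_succ, mul_assoc, Real.mul_self_sqrt hκ.le]
  rw [e]
  have h6 := mul_le_mul_of_nonneg_left h5
    (by positivity : (0 : ℝ) ≤ √(1 - T ^ 2) ^ q * (1 - T ^ 2))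
  refine h6.trans ?_
  have e2 : √(1 - T ^ 2) ^ q * (1 - T ^ 2) * (2 / (1 - T ^ 2) *
      (E2 μ p n (fun k => TZ (q + 1) T l k.1 k.2.1)
        + E2 μ p n (fun k => TZ (q + 1) T l k.1 k.2.2.1)))
      = 2 * (√(1 - T ^ 2) ^ q * E2 μ p n (fun k => TZ (q + 1) T l k.1 k.2.1)
        + √(1 - T ^ 2) ^ q * E2 μ p n (fun k => TZ (q + 1) T l k.1 k.2.2.1)) := by
    field_simp
  rw [e2]
  linarith

/-- no tail above the threshold `m` -/
theorem E2_TK_eq_zero (h2 : Two μ m p n) {T l : ℝ}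
    (hT : T ∈ Ico (0 : ℝ) 1) (hlm : (m : ℝ) ≤ l) : E2 μ p n (TK m T l) = 0 := by
  unfold E2
  refine integral_eq_zero_of_ae (Filter.Eventually.of_forall fun q => ?_)
  have hκ := k_pos hT
  simp only [Pi.zero_apply]
  unfold TK Yk SM2.pr
  simp only
  set s := ⟪p q.1, p q.2⟫
  have hx1 : |⟪n q.2, mob T (p q.2) (p q.1)⟫| ≤ 1 := by
    have := inner_mob_le hT (h2.np q.1) (h2.np q.2) (n q.2)
    rwa [h2.nn] at this
  have hy1 : |⟪n q.1, mob T (p q.1) (p q.2)⟫| ≤ 1 := by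
    have := inner_mob_le hT (h2.np q.2) (h2.np q.1) (n q.1)
    rwa [h2.nn] at this
  rw [inner_mob_perp hT (h2.np q.1) (h2.np q.2) (by rw [real_inner_comm]; exact h2.pn q.2),
    real_inner_comm (p q.1) (n q.2)] at hx1
  rw [inner_mob_perp hT (h2.np q.2) (h2.np q.1) (by rw [real_inner_comm]; exact h2.pn q.1),
    real_inner_comm (p q.1) (p q.2)] at hy1
  have hv : 0 < 1 - T * s := one_sub_pos' hT (h2.pr_mem q).1.2
  have hs2 : √(1 - T ^ 2) * √(1 - T ^ 2) = 1 - T ^ 2 := Real.mul_self_sqrt hκ.le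
  have h3 : |(1 - T ^ 2) * (⟪n q.1, p q.2⟫ * ⟪p q.1, n q.2⟫) / (1 - T * s) ^ 2| ≤ 1 := by
    have e0 : ∀ κ : ℝ, κ * κ = 1 - T ^ 2 →
        (1 - T ^ 2) * (⟪n q.1, p q.2⟫ * ⟪p q.1, n q.2⟫) / (1 - T * s) ^ 2
        = (κ * ⟪p q.1, n q.2⟫ / (1 - T * s)) * (κ * ⟪n q.1, p q.2⟫ / (1 - T * s)) := by
      intro κ hκ2
      rw [div_mul_div_comm, ← hκ2]
      ring
    have e := e0 _ hs2
    rw [e, abs_mul]
    exact mul_le_one₀ hx1 (abs_nonneg _) hy1
  have h4 : -(m * (1 - T ^ 2) * (⟪n q.1, p q.2⟫ * ⟪p q.1, n q.2⟫) / (1 - T * s) ^ 2) - l ≤ 0 := by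
    have h5 := (abs_le.1 h3).1
    have h6 : (m : ℝ) * (-1) ≤ m * ((1 - T ^ 2) * (⟪n q.1, p q.2⟫ * ⟪p q.1, n q.2⟫)
        / (1 - T * s) ^ 2) := mul_le_mul_of_nonneg_left h5 (Nat.cast_nonneg m)
    have e : (m : ℝ) * (1 - T ^ 2) * (⟪n q.1, p q.2⟫ * ⟪p q.1, n q.2⟫) / (1 - T * s) ^ 2
        = m * ((1 - T ^ 2) * (⟪n q.1, p q.2⟫ * ⟪p q.1, n q.2⟫) / (1 - T * s) ^ 2) := by ring
    rw [e]
    linarith
  rw [max_eq_right h4, mul_zero]

end

end Vale.Agent.P224.R2.H484
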