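import Vale.Agent.P224.R2.H484.TintG
import Vale.Agent.P224.R2.H484.Abs

/-!
The absolute tail bound, integrated over the levels, for blocks of dimensions.
-/

namespace Vale.Agent.P224.R2.H484

open MeasureTheory Set Function Module Vale.Agent.P224 Vale.Agent.P224.SM2
  Vale.Agent.P224.R2.H869 Vale.Agent.P224.R2.H582 Vale.Agent.P224.R2.H820
open scoped RealInnerProductSpace

set_option linter.unusedSectionVars false

section scalar

/-- sum of the first `n` values -/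
def sumQ (f : ℕ → ℚ) : ℕ → ℚ
  | 0 => 0
  | n + 1 => sumQ f n + f n

lemma sumQ_cast (f : ℕ → ℚ) (n : ℕ) : ((sumQ f n : ℚ) : ℝ) = ∑ c ∈ Finset.range n, ((f c : ℚ) : ℝ) := by
  induction n with
  | zero => simp [sumQ]
  | succ k ih =>
    rw [Finset.sum_range_succ, ← ih]
    simp [sumQ]

/-- rational upper bound of `exp (-E)` -/
def eU (E : ℚ) : ℚ :=
  let k := ⌊E⌋₊
  let r := E - k
  1 / ((27182818283 / 10000000000) ^ k * (1 + r + r ^ 2 / 2 + r ^ 3 / 6))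

lemma exp_le_eU {E : ℚ} (hE : 0 ≤ E) : Real.exp (-(E : ℝ)) ≤ (eU E : ℚ) := by
  set k := ⌊E⌋₊ with hk
  set r : ℚ := E - k with hr
  have hr0 : (0 : ℝ) ≤ (r : ℝ) := by
    have : 0 ≤ r := by
      rw [hr, sub_nonneg]
      exact Nat.floor_le hE
    exact_mod_cast this
  have e1 : (E : ℝ) = k + r := by
    rw [hr]
    push_cast
    ring
  have h1 : (27182818283 / 10000000000 : ℝ) ≤ Real.exp 1 := by
    have := Real.exp_one_gt_d9
    norm_num at this ⊢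
    linarith
  have h2 : 1 + (r : ℝ) + r ^ 2 / 2 + r ^ 3 / 6 ≤ Real.exp r := by
    have := Real.sum_le_exp_of_nonneg hr0 4
    simp only [Finset.sum_range_succ, Finset.sum_range_zero, Nat.factorial] at this
    norm_num at this
    linarith
  have h3 : (27182818283 / 10000000000 : ℝ) ^ k * (1 + (r : ℝ) + r ^ 2 / 2 + r ^ 3 / 6)
      ≤ Real.exp E := by
    rw [e1, Real.exp_add, ← Real.exp_one_pow]
    exact mul_le_mul (pow_le_pow_left₀ (by norm_num) h1 k) h2 (by positivity) (by positivity)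
  have h4 : 0 < (27182818283 / 10000000000 : ℝ) ^ k * (1 + (r : ℝ) + r ^ 2 / 2 + r ^ 3 / 6) := by
    positivity
  have e2 : ((eU E : ℚ) : ℝ)
      = 1 / ((27182818283 / 10000000000 : ℝ) ^ k * (1 + (r : ℝ) + r ^ 2 / 2 + r ^ 3 / 6)) := by
    unfold eU
    simp only [← hk, ← hr]
    push_cast
    ring
  rw [e2, Real.exp_neg, one_div]
  exact inv_anti₀ h4 h3

/-- the exponent -/
def exQ (x l : ℚ) : ℚ := l / 2 * (1 - x) * (1 + l * x / 2 + l ^ 2 * x ^ 2 / 3)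

/-- rational bound of the tail factor -/
def phQ (x l : ℚ) : ℚ :=
  16 / (27182818283 / 10000000000 * (l - 5 / 2)) * l ^ 2 * eU (exQ x l)

lemma neg_log_ge {y : ℝ} (h0 : 0 ≤ y) (h1 : y < 1) :
    Real.log (1 - y) ≤ -(y + y ^ 2 / 2 + y ^ 3 / 3) := by
  have h := Real.hasSum_pow_div_log_of_abs_lt_one (x := y) (by rw [abs_of_nonneg h0]; exact h1)
  have h2 := sum_le_hasSum (Finset.range 3) (fun i _ => by positivity) h
  simp only [Finset.sum_range_succ, Finset.sum_range_zero] at h2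
  norm_num at h2
  linarith

/-- the power of `1 - l / m` -/
lemma pow_le_exp {m : ℕ} (hm : 17 ≤ m) {l x : ℝ} (hl : 5 / 2 < l) (hlm : l < m) (hx0 : 0 ≤ x)
    (hx : x ≤ 1 / m) :
    √(1 - l / m) ^ (m - 1) ≤ Real.exp (-(l / 2 * (1 - x) * (1 + l * x / 2 + l ^ 2 * x ^ 2 / 3))) := by
  have hm' : (17 : ℝ) ≤ m := by exact_mod_cast hm
  have hm0 : (0 : ℝ) < m := by linarith
  have hy0 : 0 ≤ l / m := by positivity
  have hy1 : l / m < 1 := by rw [div_lt_one hm0]; exact hlm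
  have hp : 0 < 1 - l / m := by linarith
  have e1 : √(1 - l / m) ^ (m - 1) = Real.exp (((m : ℝ) - 1) / 2 * Real.log (1 - l / m)) := by
    rw [Real.sqrt_eq_rpow, ← Real.rpow_natCast, ← Real.rpow_mul hp.le, Real.rpow_def_of_pos hp]
    congr 1
    rw [Nat.cast_sub (by omega)]
    push_cast
    ring
  rw [e1]
  apply Real.exp_le_exp.2
  have h1 := mul_le_mul_of_nonneg_left (neg_log_ge hy0 hy1)
    (by linarith : 0 ≤ ((m : ℝ) - 1) / 2)
  refine h1.trans ?_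
  set x' : ℝ := 1 / m with hx'
  have e2 : l / m = l * x' := by rw [hx']; ring
  have e3 : ((m : ℝ) - 1) / 2 * (l * x') = l / 2 * (1 - x') := by
    rw [hx']
    field_simp
  have hx'17 : x' ≤ 1 / 17 := by
    rw [hx']
    apply div_le_div_of_nonneg_left <;> linarith
  have hx'0 : 0 < x' := by rw [hx']; positivity
  rw [e2]
  have e4 : ((m : ℝ) - 1) / 2 * -(l * x' + (l * x') ^ 2 / 2 + (l * x') ^ 3 / 3)
      = -(l / 2 * (1 - x') * (1 + l * x' / 2 + l ^ 2 * x' ^ 2 / 3)) := by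
    have : ((m : ℝ) - 1) / 2 * -(l * x' + (l * x') ^ 2 / 2 + (l * x') ^ 3 / 3)
      = -((((m : ℝ) - 1) / 2 * (l * x')) * (1 + l * x' / 2 + l ^ 2 * x' ^ 2 / 3)) := by ring
    rw [this, e3]
  rw [e4, neg_le_neg_iff, mul_assoc, mul_assoc]
  apply mul_le_mul_of_nonneg_left _ (by linarith)
  have hd : 0 ≤ x' - x := by linarith
  have h5 : 0 ≤ -1 + l / 2 - l / 2 * (x + x') := by nlinarith
  have h6 : 0 ≤ l ^ 2 / 3 * (x + x') - l ^ 2 / 3 * (x ^ 2 + x * x' + x' ^ 2) := by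
    have h7 : x ^ 2 + x * x' + x' ^ 2 ≤ x + x' := by nlinarith
    have h8 : 0 ≤ l ^ 2 / 3 := by positivity
    nlinarith
  have h9 := mul_nonneg hd (add_nonneg h5 h6)
  have e5 : (1 - x') * (1 + l * x' / 2 + l ^ 2 * x' ^ 2 / 3)
      - (1 - x) * (1 + l * x / 2 + l ^ 2 * x ^ 2 / 3)
      = (x' - x) * (-1 + l / 2 - l / 2 * (x + x')
        + (l ^ 2 / 3 * (x + x') - l ^ 2 / 3 * (x ^ 2 + x * x' + x' ^ 2))) := by ring
  linarith

lemma phQ_nonneg {x l : ℚ} (hl : 5 / 2 < l) (hx0 : 0 ≤ x) (hx1 : x ≤ 1) :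
    (0 : ℝ) ≤ (phQ x l : ℚ) := by
  have hE : 0 ≤ exQ x l := by
    unfold exQ
    have h1 : 0 ≤ 1 - x := by linarith
    have h2 : 0 < l := by linarith
    positivity
  have h := (Real.exp_pos _).le.trans (exp_le_eU hE)
  have h' : 0 ≤ eU (exQ x l) := by exact_mod_cast h
  have h3 : 0 < l - 5 / 2 := by linarith
  have : 0 ≤ phQ x l := by
    unfold phQ
    positivity
  exact_mod_cast this

lemma At_le_phQ {m : ℕ} (hm : 17 ≤ m) {x l : ℚ} (hl : 5 / 2 < l) (hlm : (l : ℝ) < m) (hx0 : 0 ≤ x)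
    (hx : (x : ℝ) ≤ 1 / m) : m * (4 * At m l) ≤ (phQ x l : ℚ) := by
  have hm' : (17 : ℝ) ≤ m := by exact_mod_cast hm
  have hm0 : (0 : ℝ) < m := by linarith
  have hlR : (5 / 2 : ℝ) < (l : ℝ) := by
    have : ((5 / 2 : ℚ) : ℝ) < (l : ℝ) := by exact_mod_cast hl
    norm_num at this ⊢
    exact this
  have hx0' : (0 : ℝ) ≤ (x : ℝ) := by exact_mod_cast hx0
  have h1 := pow_le_exp hm hlR hlm hx0' hx
  have hx1 : (x : ℝ) ≤ 1 := hx.trans (by rw [div_le_one hm0]; linarith)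
  have hx1' : x ≤ 1 := by exact_mod_cast hx1
  have hE : 0 ≤ exQ x l := by
    unfold exQ
    have h1 : 0 ≤ 1 - x := by linarith
    have h2 : 0 < l := by linarith
    positivity
  have h2 := exp_le_eU hE
  have e1 : ((exQ x l : ℚ) : ℝ) = l / 2 * (1 - x) * (1 + l * x / 2 + l ^ 2 * x ^ 2 / 3) := by
    unfold exQ
    push_cast
    ring
  rw [e1] at h2
  have h3 := h1.trans h2
  have h4 : (27182818283 / 10000000000 : ℝ) ≤ Real.exp 1 := by
    have := Real.exp_one_gt_d9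
    norm_num at this ⊢
    linarith
  have h5 : 0 < (l : ℝ) - 5 / 2 := by linarith
  have e2 : (m : ℝ) * (4 * At m l) = 16 / (Real.exp 1 * (l - 5 / 2)) * l ^ 2
      * √(1 - l / m) ^ (m - 1) := by
    unfold At
    field_simp
    ring
  have e3 : ((phQ x l : ℚ) : ℝ) = 16 / (27182818283 / 10000000000 * (l - 5 / 2)) * l ^ 2
      * (eU (exQ x l) : ℚ) := by
    unfold phQ
    push_cast
    ring
  rw [e2, e3]
  have h6 : 16 / (Real.exp 1 * ((l : ℝ) - 5 / 2)) ≤ 16 / (27182818283 / 10000000000 * (l - 5 / 2)) := by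
    apply div_le_div_of_nonneg_left (by norm_num) (by positivity)
    exact mul_le_mul_of_nonneg_right h4 h5.le
  have h7 : 0 ≤ √(1 - (l : ℝ) / m) ^ (m - 1) := by positivity
  exact mul_le_mul (mul_le_mul_of_nonneg_right h6 (sq_nonneg _)) h3 h7 (by positivity)

/-- rational bound of the dimension factor -/
def cMQ (m : ℕ) : ℚ := (1 + 6 / (5 * m)) * ((1 + 1 / m) * (1 + 2 / m)) / 2

lemma cM_le {m1 m : ℕ} (h1 : 1 ≤ m1) (h : m1 ≤ m) : cM m ≤ (cMQ m1 : ℚ) := by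
  have r1 : (1 : ℝ) ≤ m1 := by exact_mod_cast h1
  have r2 : (m1 : ℝ) ≤ m := by exact_mod_cast h
  have hm0 : (0 : ℝ) < m := by linarith
  have hm1 : (0 : ℝ) < m1 := by linarith
  have e1 : cM m = (1 + 6 / (5 * m)) * ((1 + 1 / m) * (1 + 2 / m)) / 2 := by
    unfold cM
    field_simp
  have e2 : ((cMQ m1 : ℚ) : ℝ) = (1 + 6 / (5 * m1)) * ((1 + 1 / m1) * (1 + 2 / m1)) / 2 := by
    unfold cMQ
    push_cast
    ring
  rw [e1, e2]
  gcongr

end scalar

section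

variable {X : Type*} [MeasurableSpace X] {E : Type*} [NormedAddCommGroup E]
  [InnerProductSpace ℝ E] [MeasurableSpace E] [BorelSpace E] [SecondCountableTopology E]
  {μ : Measure X} [IsFiniteMeasure μ] {m : ℕ} {p n : X → E}

lemma TK_anti {T l l' : ℝ} (hT : T ∈ Ico (0 : ℝ) 1) (h : l ≤ l') {k : R4} (hk : k ∈ KK) :
    TK m T l' k ≤ TK m T l k := by
  have hv := one_sub_pos' hT hk.1.2
  unfold TK
  have h1 : 0 ≤ ker T (m + 1) k.1 * Xk k := mul_nonneg (ker_pos _ hv).le (by unfold Xk; positivity)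
  exact mul_le_mul_of_nonneg_left (max_le_max (by linarith) le_rfl) h1

lemma E2_TK_anti (h2 : Two μ m p n) {T l l' : ℝ} (hT : T ∈ Ico (0 : ℝ) 1) (h : l ≤ l') :
    E2 μ p n (TK m T l') ≤ E2 μ p n (TK m T l) :=
  integral_mono (int_E2 h2 (measurable_TK m T l') (contOn_TK hT m l'))
    (int_E2 h2 (measurable_TK m T l) (contOn_TK hT m l))
    fun q => TK_anti hT h (h2.pr_mem q)

/-- from the level bound to the form of the law -/
lemma htau_of (hm : 17 ≤ m) {T : ℝ} (hT : T ∈ Ioo (0 : ℝ) 1) {A2 e Φ t : ℝ} (hA : 0 ≤ A2)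
    (h : √(1 - T ^ 2) ^ (m + 1) * e ≤ A2 * (Φ / m)) (ht : cf m T * Φ ≤ t) :
    (m + 1) * (m + 2) * T ^ 2 * rM m T / (1 - T ^ 2) / 2 * e ≤ t * A2 := by
  have hk : 0 < 1 - T ^ 2 := by nlinarith [hT.1, hT.2]
  have hs := Real.sqrt_pos.2 hk
  have hm0 : (0 : ℝ) < m := by exact_mod_cast (by omega : 0 < m)
  have hc := cf_nonneg hm hT
  have hp : 0 < √(1 - T ^ 2) ^ (m + 1) := pow_pos hs _
  have e1 : (m + 1) * (m + 2) * T ^ 2 * rM m T / (1 - T ^ 2) / 2 * e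
      = cf m T * (m * (√(1 - T ^ 2) ^ (m + 1) * e)) := by
    unfold cf
    field_simp
  rw [e1]
  have h3 : (m : ℝ) * (√(1 - T ^ 2) ^ (m + 1) * e) ≤ A2 * Φ := by
    have := mul_le_mul_of_nonneg_left h hm0.le
    have e2 : (m : ℝ) * (A2 * (Φ / m)) = A2 * Φ := by field_simp
    linarith
  have h4 := mul_le_mul_of_nonneg_left h3 hc
  have h5 := mul_le_mul_of_nonneg_left ht hA
  nlinarith

/-- the check of a block: dimensions `m ≥ m1` with `x ≤ 1 / m`, thresholds `lc c` on the cells -/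
def absOK (m1 : ℕ) (x : ℚ) (lc : ℕ → ℚ) (ε : ℚ) : Bool :=
  (List.range 80).all (fun c => decide (5 / 2 < lc c)) && decide (0 ≤ x)
    && decide (cMQ m1 * sumQ (fun c => wQ c * phQ x (lc c)) 80 ≤ ε)

/-- the absolute tail of a block -/
theorem abs_block [Nontrivial E] (h2 : Two μ m p n) (h1 : MinRow μ m p n) {m1 : ℕ} {x ε : ℚ}
    {lc : ℕ → ℚ} (hok : absOK m1 x lc ε = true) (h17 : 17 ≤ m1) (hm1 : m1 ≤ m)
    (hx : (x : ℝ) ≤ 1 / m) {l : ℝ → ℝ}
    (hl : ∀ c < 80, ∀ T ∈ Ioo (0 : ℝ) 1, ((tQ c : ℚ) : ℝ) < T → T ≤ tQ (c + 1) →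
      ((lc c : ℚ) : ℝ) ≤ l T) :
    ∃ τ : ℝ → ℝ, IntervalIntegrable τ volume 0 1 ∧
      (∀ T ∈ Ioo (0 : ℝ) 1, (m + 1) * (m + 2) * T ^ 2 * rM m T / (1 - T ^ 2) / 2
        * E2 μ p n (TK m T (l T)) ≤ τ T * (μ.real univ) ^ 2) ∧
      ∫ T in (0 : ℝ)..1, τ T ≤ ε := by
  have hm : 17 ≤ m := h17.trans hm1
  have hm' : (17 : ℝ) ≤ m := by exact_mod_cast hm
  have hm0 : (0 : ℝ) < m := by linarith
  unfold absOK at hok
  simp only [Bool.and_eq_true, decide_eq_true_eq, List.all_eq_true, List.mem_range] at hok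
  obtain ⟨⟨hlc, hx0⟩, hsum⟩ := hok
  have hx1 : x ≤ 1 := by
    have : (x : ℝ) ≤ 1 := hx.trans (by rw [div_le_one hm0]; linarith)
    exact_mod_cast this
  have hφ0 : ∀ c < 80, (0 : ℝ) ≤ (phQ x (lc c) : ℚ) := fun c hc => phQ_nonneg (hlc c hc) hx0 hx1
  have hΦ : ∀ c < 80, ∀ T ∈ Ioo (0 : ℝ) 1, ((tQ c : ℚ) : ℝ) < T → T ≤ tQ (c + 1) →
      m * (√(1 - T ^ 2) ^ (m + 1) * E2 μ p n (TK m T (l T))) / ((μ.real univ) ^ 2)
        ≤ (phQ x (lc c) : ℚ) := by
    intro c hc T hT hT1 hT2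
    have hT' : T ∈ Ico (0 : ℝ) 1 := ⟨hT.1.le, hT.2⟩
    have hk : 0 < 1 - T ^ 2 := by nlinarith [hT.1, hT.2]
    have hs := Real.sqrt_pos.2 hk
    have h3 := E2_TK_anti (m := m) h2 hT' (hl c hc T hT hT1 hT2)
    rcases (measureReal_nonneg (μ := μ) (s := univ)).eq_or_lt with h0 | h0
    · rw [← h0]
      simp only [ne_eq, OfNat.ofNat_ne_zero, not_false_eq_true, zero_pow, div_zero]
      exact hφ0 c hc
    · rw [div_le_iff₀ (by positivity)]
      have h4 := mul_le_mul_of_nonneg_left h3 (pow_pos hs (m + 1)).le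
      have hlR : (5 / 2 : ℝ) < ((lc c : ℚ) : ℝ) := by
        have : ((5 / 2 : ℚ) : ℝ) < ((lc c : ℚ) : ℝ) := by exact_mod_cast hlc c hc
        norm_num at this ⊢
        exact this
      rcases lt_or_ge ((lc c : ℚ) : ℝ) (m : ℝ) with h5 | h5
      · have h6 := E2_TK_le h2 h1 (by omega) hT' hlR h5
        have h7 := At_le_phQ hm (hlc c hc) h5 hx0 hx
        have h8 := mul_le_mul_of_nonneg_right h7 (sq_nonneg (μ.real univ))
        nlinarith
      · have h6 := E2_TK_eq_zero h2 hT' h5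
        rw [h6, mul_zero] at h4
        have h7 := mul_nonneg (hφ0 c hc) (sq_nonneg (μ.real univ))
        nlinarith
  obtain ⟨τ, i1, i2, i3⟩ := tau_grid hm (φ := fun c => ((phQ x (lc c) : ℚ) : ℝ))
    (Φ := fun T => m * (√(1 - T ^ 2) ^ (m + 1) * E2 μ p n (TK m T (l T))) / ((μ.real univ) ^ 2))
    hφ0 hΦ
  refine ⟨τ, i1, fun T hT => ?_, ?_⟩
  · rcases (measureReal_nonneg (μ := μ) (s := univ)).eq_or_lt with h0 | h0
    · have e0 : E2 μ p n (TK m T (l T)) = 0 := by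
        have hz : μ = 0 := by
          have := (measureReal_eq_zero_iff (measure_ne_top μ univ)).1 h0.symm
          exact Measure.measure_univ_eq_zero.1 this
        unfold E2
        rw [hz]
        simp
      rw [e0, ← h0]
      simp
    · refine htau_of hm hT (sq_nonneg _) (le_of_eq ?_) (i2 T hT)
      field_simp
  · rw [i3]
    have h5 : cM m ≤ (cMQ m1 : ℚ) := cM_le (by omega) hm1
    have h6 : (0 : ℝ) ≤ ∑ c ∈ Finset.range 80, ((wQ c : ℚ) : ℝ) * ((phQ x (lc c) : ℚ) : ℝ) := by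
      refine Finset.sum_nonneg fun c hc => mul_nonneg ?_ (hφ0 c (Finset.mem_range.1 hc))
      unfold wQ
      push_cast
      positivity
    refine (mul_le_mul_of_nonneg_right h5 h6).trans ?_
    have h7 : ((cMQ m1 * sumQ (fun c => wQ c * phQ x (lc c)) 80 : ℚ) : ℝ) ≤ (ε : ℝ) := by
      exact_mod_cast hsum
    rw [Rat.cast_mul, sumQ_cast] at h7
    push_cast at h7
    exact h7

/-- rounded thresholds of the cells for `max c1 (c2 / (1 - T^2))` -/
def lcF (c1 c2 : ℚ) (c : ℕ) : ℚ := min 80 ((⌊max c1 (c2 / kQ c ^ 2) * 10⌋ : ℤ) / 10)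

end

end Vale.Agent.P224.R2.H484
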