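import Vale.Agent.P224.R2.H484.TlH

/-!
The polynomial form with the mixed term `√a φ`.
-/

namespace Vale.Agent.P224.R2.H484

open MeasureTheory Set Function Module Vale.Agent.P224 Vale.Agent.P224.SM2
  Vale.Agent.P224.R2.H869 Vale.Agent.P224.R2.H582 Vale.Agent.P224.R2.H820
  Vale.Agent.P224.R2.H876 Vale.Agent.P224.R2.H728
open scoped RealInnerProductSpace

set_option linter.unusedSectionVars false

section scalar

variable {M : ℕ → ℝ}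

/-- `d ≤ √a + ρ φ` -/
lemma sqrt_le {a ω ρ φ : ℝ} (ha : 0 ≤ a) (hρ : 0 ≤ ρ) (hω : ω ≤ ρ ^ 2) (hφ : 0 ≤ φ) :
    √(a + ω * φ ^ 2) ≤ √a + ρ * φ := by
  apply Real.sqrt_le_iff.2
  refine ⟨by positivity, ?_⟩
  have h1 : √a ^ 2 = a := Real.sq_sqrt ha
  have h2 : 0 ≤ √a := Real.sqrt_nonneg a
  nlinarith [mul_nonneg (mul_nonneg h2 hρ) hφ, mul_le_mul_of_nonneg_right hω (sq_nonneg φ)]

/-- the polynomial bound of `mp2` -/
lemma mp2_leS (hM0 : ∀ q, 0 ≤ M q) (q : ℕ) {Z a ω ρ φ : ℝ} (hZ : 0 ≤ Z) (ha : 0 ≤ a)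
    (hω0 : 0 ≤ ω) (hρ : 0 ≤ ρ) (hω : ω ≤ ρ ^ 2) (hφ : 0 ≤ φ) :
    mp2 M q (Z * φ) (√(a + ω * φ ^ 2)) ≤ M (q + 2) * a + 2 * Z * M (q + 1) * (√a * φ)
      + (ω * M (q + 2) + 2 * Z * ρ * M (q + 1) + Z ^ 2 * M q) * φ ^ 2 := by
  unfold mp2
  have h1 := sqrt_le ha hρ hω hφ
  have h2 : 0 ≤ 2 * (Z * φ) * M (q + 1) := by
    have := hM0 (q + 1)
    positivity
  have h3 := mul_le_mul_of_nonneg_left h1 h2
  rw [Real.sq_sqrt (by positivity)]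
  nlinarith

/-- the polynomial bound of the one point function -/
lemma HC3_leS (hM0 : ∀ q, 0 ≤ M q) {C : Cut} (hC : C.Ok) {Z ω ρ l a b φ : ℝ}
    (hZ : 0 ≤ Z) (ha : 0 ≤ a) (hω0 : 0 ≤ ω) (hρ : 0 ≤ ρ) (hω : ω ≤ ρ ^ 2) (hl : 0 < l)
    (hb : 0 ≤ b) (hφ : 0 ≤ φ) :
    HC3 M C Z ω l a b φ ≤ (∑ i ∈ Finset.range (C.j + 2), ∑ k ∈ Finset.range (i + 1),
      (C.K * (cc C.j / l ^ C.j) * (((C.j + 1).choose i : ℝ) * (i.choose k : ℝ) / 4 ^ i)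
        * (Z ^ (C.j + 1 - i) * ω ^ (i - k))) *
      (M (C.j + 1 + i + 2) * a + 2 * Z * M (C.j + 1 + i + 1) * (√a * φ)
        + (ω * M (C.j + 1 + i + 2) + 2 * Z * ρ * M (C.j + 1 + i + 1) + Z ^ 2 * M (C.j + 1 + i))
          * φ ^ 2) * (b ^ k * φ ^ (C.j + 1 - i + 2 * (i - k))))
      + (C.β ^ (C.i + 1) / (2 * C.η ^ 2) * (cc C.i / l ^ C.i) *
          (M (2 * C.i + 2 + 2) * a + 2 * Z * M (2 * C.i + 2 + 1) * (√a * φ)
        + (ω * M (2 * C.i + 2 + 2) + 2 * Z * ρ * M (2 * C.i + 2 + 1) + Z ^ 2 * M (2 * C.i + 2))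
          * φ ^ 2)
        + 2 / C.β ^ (C.i' + 1) * (cc C.i' / l ^ C.i') *
          (M (2 * C.i' + 2 + 2) * a + 2 * Z * M (2 * C.i' + 2 + 1) * (√a * φ)
        + (ω * M (2 * C.i' + 2 + 2) + 2 * Z * ρ * M (2 * C.i' + 2 + 1) + Z ^ 2 * M (2 * C.i' + 2))
          * φ ^ 2)) := by
  have hβ := hC.β0
  have hK := hC.K0
  unfold HC3
  refine add_le_add ?_ ?_
  · unfold YVp
    rw [Finset.mul_sum]
    refine Finset.sum_le_sum fun i _ => ?_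
    have h1 := cc_nonneg' C.j
    have h2 := mp2_leS hM0 (C.j + 1 + i) hZ ha hω0 hρ hω hφ
    have h3 : 0 ≤ ((C.j + 1).choose i : ℝ) * (((b + ω * φ ^ 2) / 4) ^ i
        * (Z * φ) ^ (C.j + 1 - i)) := by positivity
    have h4 := mul_le_mul_of_nonneg_left (mul_le_mul_of_nonneg_left h2 h3)
      (by positivity : 0 ≤ C.K * (cc C.j / l ^ C.j))
    refine h4.trans (le_of_eq ?_)
    rw [div_pow, add_pow, Finset.sum_div, Finset.sum_mul, Finset.mul_sum, Finset.sum_mul,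
      Finset.mul_sum]
    refine Finset.sum_congr rfl fun k _ => ?_
    rw [mul_pow, mul_pow, ← pow_mul, pow_add φ]
    ring
  · unfold ZV
    have h1 := cc_nonneg' C.i
    have h1' := cc_nonneg' C.i'
    exact add_le_add
      (mul_le_mul_of_nonneg_left (mp2_leS hM0 _ hZ ha hω0 hρ hω hφ) (by positivity))
      (mul_le_mul_of_nonneg_left (mp2_leS hM0 _ hZ ha hω0 hρ hω hφ) (by positivity))

end scalar

/-- the polynomial with the mixed term -/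
noncomputable def PS (j : ℕ) (A2 A1 A0 : ℕ → ℕ → ℚ) (Z2 Z1 Z0 : ℚ) (a b φ : ℝ) : ℝ :=
  (∑ i ∈ Finset.range (j + 2), ∑ k ∈ Finset.range (i + 1),
    ((A2 i k : ℝ) * a + (A1 i k : ℝ) * (√a * φ) + (A0 i k : ℝ) * φ ^ 2)
      * (b ^ k * φ ^ (j + 1 - i + 2 * (i - k))))
    + ((Z2 : ℝ) * a + (Z1 : ℝ) * (√a * φ) + (Z0 : ℝ) * φ ^ 2)

namespace Blk

variable (B : Blk) (s : ℕ → ℚ)

/-- the moments of the grid with the bound `s` of `√ω` -/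
def S4 (p r t q : ℕ) : ℚ :=
  sumQ (fun c => if B.act c then B.w c * (B.Z c ^ p * B.ω c ^ r * s c ^ t * B.u c ^ q) else 0) B.N

/-- the coefficient of `a b^k φ^(j + 1 - i + 2 (i - k))` -/
def A2 (i k : ℕ) : ℚ := B.pre i k * (B.Mq (B.j + 1 + i + 2) * B.S4 s (B.j + 1 - i) (i - k) 0 B.j)

/-- the coefficient of `√a φ b^k φ^(j + 1 - i + 2 (i - k))` -/
def A1 (i k : ℕ) : ℚ := B.pre i k *
  (2 * B.Mq (B.j + 1 + i + 1) * B.S4 s (B.j + 1 - i + 1) (i - k) 0 B.j)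

/-- the coefficient of `φ^2 b^k φ^(j + 1 - i + 2 (i - k))` -/
def A0 (i k : ℕ) : ℚ := B.pre i k *
  (B.Mq (B.j + 1 + i + 2) * B.S4 s (B.j + 1 - i) (i - k + 1) 0 B.j
    + 2 * B.Mq (B.j + 1 + i + 1) * B.S4 s (B.j + 1 - i + 1) (i - k) 1 B.j
    + B.Mq (B.j + 1 + i) * B.S4 s (B.j + 1 - i + 2) (i - k) 0 B.j)

/-- a remainder term with factor `f`, power `i` -/
def Rs2 (f : ℚ) (i : ℕ) : ℚ := 2 * cMQ B.m1 * (f * ccQ i) *
  (B.Mq (2 * i + 2 + 2) * B.S4 s 0 0 0 i)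

def Rs1 (f : ℚ) (i : ℕ) : ℚ := 2 * cMQ B.m1 * (f * ccQ i) *
  (2 * B.Mq (2 * i + 2 + 1) * B.S4 s 1 0 0 i)

def Rs0 (f : ℚ) (i : ℕ) : ℚ := 2 * cMQ B.m1 * (f * ccQ i) *
  (B.Mq (2 * i + 2 + 2) * B.S4 s 0 1 0 i + 2 * B.Mq (2 * i + 2 + 1) * B.S4 s 1 0 1 i
    + B.Mq (2 * i + 2) * B.S4 s 2 0 0 i)

def Z2 : ℚ := B.Rs2 s B.f1 B.i1 + B.Rs2 s B.f2 B.i2
def Z1 : ℚ := B.Rs1 s B.f1 B.i1 + B.Rs1 s B.f2 B.i2
def Z0 : ℚ := B.Rs0 s B.f1 B.i1 + B.Rs0 s B.f2 B.i2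

variable {B s}

lemma S4_cast (p r t q : ℕ) : ((B.S4 s p r t q : ℚ) : ℝ)
    = ∑ c ∈ Finset.range B.N, ((if B.act c then B.w c else 0 : ℚ) : ℝ) *
      (((B.Z c : ℚ) : ℝ) ^ p * ((B.ω c : ℚ) : ℝ) ^ r * ((s c : ℚ) : ℝ) ^ t
        * ((B.u c : ℚ) : ℝ) ^ q) := by
  unfold S4
  rw [sumQ_cast]
  refine Finset.sum_congr rfl fun c _ => ?_
  cases B.act c <;> simp

/-- the main terms -/
lemma main_eqS {M : ℕ → ℝ} (hM : ∀ q, 3 ≤ q → q < 33 → M q = (B.Mq q : ℝ)) (hj : 3 ≤ B.j)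
    (hj14 : B.j ≤ 14) {i : ℕ} (hi : i < B.j + 2) (k : ℕ) (a e φ mo : ℝ) :
    ∑ c ∈ Finset.range B.N, ((if B.act c then B.w c else 0 : ℚ) : ℝ) *
      (((B.K : ℝ) * (cc B.j / (1 / (B.u c : ℝ)) ^ B.j)
          * (((B.j + 1).choose i : ℝ) * (i.choose k : ℝ) / 4 ^ i)
        * ((B.Z c : ℝ) ^ (B.j + 1 - i) * (B.ω c : ℝ) ^ (i - k))) *
      (M (B.j + 1 + i + 2) * a + 2 * (B.Z c : ℝ) * M (B.j + 1 + i + 1) * e
        + ((B.ω c : ℝ) * M (B.j + 1 + i + 2) + 2 * (B.Z c : ℝ) * (s c : ℝ) * M (B.j + 1 + i + 1)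
          + (B.Z c : ℝ) ^ 2 * M (B.j + 1 + i)) * φ ^ 2) * mo) * (2 * (cMQ B.m1 : ℝ))
      = ((B.A2 s i k : ℝ) * a + (B.A1 s i k : ℝ) * e + (B.A0 s i k : ℝ) * φ ^ 2) * mo := by
  have h1 := hM (B.j + 1 + i + 2) (by omega) (by omega)
  have h2 := hM (B.j + 1 + i + 1) (by omega) (by omega)
  have h3 := hM (B.j + 1 + i) (by omega) (by omega)
  unfold A2 A1 A0 pre
  simp only [Rat.cast_mul, Rat.cast_add, Rat.cast_div, S4_cast, ccQ_cast]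
  rw [h1, h2, h3]
  simp only [Finset.mul_sum, Finset.sum_mul, ← Finset.sum_add_distrib]
  refine Finset.sum_congr rfl fun c _ => ?_
  push_cast
  rw [one_div, inv_pow, div_inv_eq_mul]
  ring

/-- the remainder terms -/
lemma rem_eqS {M : ℕ → ℝ} (hM : ∀ q, 3 ≤ q → q < 33 → M q = (B.Mq q : ℝ)) {i : ℕ} (hi : 1 ≤ i)
    (hi14 : i ≤ 14) (f : ℚ) (a e φ : ℝ) :
    ∑ c ∈ Finset.range B.N, ((if B.act c then B.w c else 0 : ℚ) : ℝ) *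
      ((f : ℝ) * (cc i / (1 / (B.u c : ℝ)) ^ i) *
        (M (2 * i + 2 + 2) * a + 2 * (B.Z c : ℝ) * M (2 * i + 2 + 1) * e
          + ((B.ω c : ℝ) * M (2 * i + 2 + 2) + 2 * (B.Z c : ℝ) * (s c : ℝ) * M (2 * i + 2 + 1)
          + (B.Z c : ℝ) ^ 2 * M (2 * i + 2)) * φ ^ 2)) * (2 * (cMQ B.m1 : ℝ))
      = (B.Rs2 s f i : ℝ) * a + (B.Rs1 s f i : ℝ) * e + (B.Rs0 s f i : ℝ) * φ ^ 2 := by
  have h1 := hM (2 * i + 2 + 2) (by omega) (by omega)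
  have h2 := hM (2 * i + 2 + 1) (by omega) (by omega)
  have h3 := hM (2 * i + 2) (by omega) (by omega)
  unfold Rs2 Rs1 Rs0
  simp only [Rat.cast_mul, Rat.cast_add, Rat.cast_div, S4_cast, ccQ_cast]
  rw [h1, h2, h3]
  simp only [Finset.mul_sum, Finset.sum_mul, ← Finset.sum_add_distrib]
  refine Finset.sum_congr rfl fun c _ => ?_
  push_cast
  rw [one_div, inv_pow, div_inv_eq_mul]
  ring

/-- the total one point function is at most the polynomial -/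
theorem F_leS {M : ℕ → ℝ} (hB : B.Ok) (hM0 : ∀ q, 0 ≤ M q)
    (hM : ∀ q, 3 ≤ q → q < 33 → M q = (B.Mq q : ℝ)) (hs0 : ∀ c < B.N, 0 ≤ s c)
    (hs : ∀ c < B.N, B.ω c ≤ s c ^ 2) {a b φ : ℝ} (ha : 0 ≤ a) (hb : 0 ≤ b)
    (hφ : 0 ≤ φ) : B.F M a b φ ≤ PS B.j (B.A2 s) (B.A1 s) (B.A0 s) (B.Z2 s) (B.Z1 s) (B.Z0 s)
      a b φ := by
  have hc0 : (0 : ℝ) ≤ (cMQ B.m1 : ℝ) := by exact_mod_cast cMQ_nonneg _
  unfold F
  have h1 : ∀ c ∈ Finset.range B.N, ((B.w c : ℚ) : ℝ) *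
      (if B.act c then HC3 M B.cut (B.Z c) (B.ω c) (1 / B.u c) a b φ else 0)
      ≤ ((if B.act c then B.w c else 0 : ℚ) : ℝ) * ((∑ i ∈ Finset.range (B.j + 2),
        ∑ k ∈ Finset.range (i + 1),
        ((B.K : ℝ) * (cc B.j / (1 / (B.u c : ℝ)) ^ B.j)
          * (((B.j + 1).choose i : ℝ) * (i.choose k : ℝ) / 4 ^ i)
        * ((B.Z c : ℝ) ^ (B.j + 1 - i) * (B.ω c : ℝ) ^ (i - k))) *
      (M (B.j + 1 + i + 2) * a + 2 * (B.Z c : ℝ) * M (B.j + 1 + i + 1) * (√a * φ)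
        + ((B.ω c : ℝ) * M (B.j + 1 + i + 2) + 2 * (B.Z c : ℝ) * (s c : ℝ) * M (B.j + 1 + i + 1)
          + (B.Z c : ℝ) ^ 2 * M (B.j + 1 + i)) * φ ^ 2)
            * (b ^ k * φ ^ (B.j + 1 - i + 2 * (i - k))))
      + (((B.f1 : ℚ) : ℝ) * (cc B.i1 / (1 / (B.u c : ℝ)) ^ B.i1) *
        (M (2 * B.i1 + 2 + 2) * a + 2 * (B.Z c : ℝ) * M (2 * B.i1 + 2 + 1) * (√a * φ)
          + ((B.ω c : ℝ) * M (2 * B.i1 + 2 + 2)
            + 2 * (B.Z c : ℝ) * (s c : ℝ) * M (2 * B.i1 + 2 + 1)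
          + (B.Z c : ℝ) ^ 2 * M (2 * B.i1 + 2)) * φ ^ 2)
      + ((B.f2 : ℚ) : ℝ) * (cc B.i2 / (1 / (B.u c : ℝ)) ^ B.i2) *
        (M (2 * B.i2 + 2 + 2) * a + 2 * (B.Z c : ℝ) * M (2 * B.i2 + 2 + 1) * (√a * φ)
          + ((B.ω c : ℝ) * M (2 * B.i2 + 2 + 2)
            + 2 * (B.Z c : ℝ) * (s c : ℝ) * M (2 * B.i2 + 2 + 1)
          + (B.Z c : ℝ) ^ 2 * M (2 * B.i2 + 2)) * φ ^ 2))) := by
    intro c hc
    have hc' := Finset.mem_range.1 hc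
    cases hac : B.act c with
    | false => simp
    | true =>
      simp only [if_true]
      have hu : (0 : ℝ) < (B.u c : ℝ) := by exact_mod_cast hB.u0 c hc'
      refine mul_le_mul_of_nonneg_left ?_ (by exact_mod_cast hB.w0 c hc')
      have h := HC3_leS (C := B.cut) hM0 hB.cut (Z := B.Z c) (ω := B.ω c) (ρ := s c)
        (l := 1 / B.u c) (a := a) (b := b) (φ := φ)
        (by exact_mod_cast hB.Z0 c hc') ha (by exact_mod_cast hB.ω0 c hc')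
        (by exact_mod_cast hs0 c hc') (by exact_mod_cast hs c hc') (by positivity) hb hφ
      have e1 : ((B.f1 : ℚ) : ℝ) = (B.β : ℝ) ^ (B.i1 + 1) / (2 * (B.η : ℝ) ^ 2) := by
        unfold f1
        push_cast
        rfl
      have e2 : ((B.f2 : ℚ) : ℝ) = 2 / (B.β : ℝ) ^ (B.i2 + 1) := by
        unfold f2
        push_cast
        rfl
      rw [e1, e2]
      exact h
  have h2 := mul_le_mul_of_nonneg_left (mul_le_mul_of_nonneg_left (Finset.sum_le_sum h1)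
    (by norm_num : (0 : ℝ) ≤ 2)) hc0
  refine h2.trans (le_of_eq ?_)
  rw [← mul_assoc, mul_comm _ (2 : ℝ), mul_comm (2 * (cMQ B.m1 : ℝ)), swap]
  unfold PS Z2 Z1 Z0
  rw [rem_eqS hM hB.i1 hB.i14, rem_eqS hM hB.i2 hB.i24]
  congr 1
  · refine Finset.sum_congr rfl fun i hi => Finset.sum_congr rfl fun k _ => ?_
    exact main_eqS hM hB.j3 hB.j14 (Finset.mem_range.1 hi) k a (√a * φ) φ _
  · push_cast
    ring

end Blk

end Vale.Agent.P224.R2.H484
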