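import Vale.Agent.P224.R2.H484.TlF
import Vale.Agent.P224.R2.H869.Tl3

/-!
The relative tail over the levels of a grid with the parameter `lam`: polynomial form.
-/

namespace Vale.Agent.P224.R2.H484

open MeasureTheory Set Function Module Vale.Agent.P224 Vale.Agent.P224.SM2
  Vale.Agent.P224.R2.H869 Vale.Agent.P224.R2.H582 Vale.Agent.P224.R2.H820
  Vale.Agent.P224.R2.H876 Vale.Agent.P224.R2.H728
open scoped RealInnerProductSpace

set_option linter.unusedSectionVars false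

section bm

variable {Ω : Type*} [MeasurableSpace Ω] {f g h : Ω → ℝ}

lemma bm_HC3 (hf : BM f) (hg : BM g) (hh : BM h) (M : ℕ → ℝ) (C : Cut) (Z ω l : ℝ) :
    BM (fun x => HC3 M C Z ω l (f x) (g x) (h x)) := by
  have hs : BM (fun x => Z * h x) := hh.const_mul Z
  have hd : BM (fun x => √(f x + ω * h x ^ 2)) := bm_sqrt (hf.add ((hh.pow 2).const_mul ω))
  have hl : BM (fun x => (g x + ω * h x ^ 2) / 4) :=
    bm_div (hg.add ((hh.pow 2).const_mul ω)) 4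
  unfold HC3 YVp ZV
  refine BM.add (BM.const_mul (BM.sum _ fun i _ => ?_) _) (BM.add ?_ ?_)
  · have h2 := hs.pow (C.j + 1 - i)
    have h3 := bm_mp2 hs hd M (C.j + 1 + i)
    exact (((hl.pow i).mul h2).const_mul _).mul h3
  · exact (bm_mp2 hs hd M (2 * C.i + 2)).const_mul _
  · exact (bm_mp2 hs hd M (2 * C.i' + 2)).const_mul _

end bm

section

variable {X : Type*} [MeasurableSpace X] {E : Type*} [NormedAddCommGroup E]
  [InnerProductSpace ℝ E] [MeasurableSpace E] [BorelSpace E] [SecondCountableTopology E]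
  {μ : Measure X} [IsFiniteMeasure μ] {m : ℕ} {p n z : X → E}

/-- the parameter `4 lam` without the term of `φ` -/
noncomputable def bG (z n : X → E) (y : X) : ℝ := aG z y - (max ‖n y - z y‖ 1 - 1) ^ 2

lemma aG_nonneg (y : X) : 0 ≤ aG z y := by unfold aG; positivity

lemma bG_le (y : X) : bG z n y ≤ aG z y := by
  unfold bG
  nlinarith [sq_nonneg (max ‖n y - z y‖ 1 - 1)]

lemma bG_nonneg {y : X} (hn : ‖n y‖ = 1) : 0 ≤ bG z n y := by
  unfold bG aG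
  have h1 : ‖n y - z y‖ ≤ 1 + ‖z y‖ := by
    have := norm_sub_le (n y) (z y)
    rwa [hn] at this
  have h2 : 0 ≤ ‖z y‖ := norm_nonneg _
  have h3 : max ‖n y - z y‖ 1 ≤ 1 + ‖z y‖ := max_le h1 (by linarith)
  have h4 : 1 ≤ max ‖n y - z y‖ 1 := le_max_right _ _
  nlinarith

lemma bm_bG (hn : Measurable n) (hn1 : ∀ x, ‖n x‖ = 1) (hz : Measurable z) {B : ℝ}
    (hB : ∀ x, ‖z x‖ ≤ B) : BM (bG z n) := by
  refine ⟨?_, B ^ 2, fun x => ?_⟩
  · unfold bG aG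
    exact (hz.norm.pow_const 2).sub ((((hn.sub hz).norm.max measurable_const).sub
      measurable_const).pow_const 2)
  · rw [abs_of_nonneg (bG_nonneg (hn1 x))]
    refine (bG_le x).trans ?_
    unfold aG
    exact pow_le_pow_left₀ (norm_nonneg _) (hB x) 2

/-- the condition on the parameter `b` -/
def BOk (z n : X → E) (b : X → ℝ) : Prop := ∀ y, ∃ C : ℝ, 1 ≤ C ∧
  C ^ 2 - 2 * (1 - ⟪n y, z y⟫) + (1 - 2 * ⟪n y, z y⟫ + aG z y) / C ^ 2 ≤ b y

lemma bOk_bG (hn : ∀ x, ‖n x‖ = 1) : BOk z n (bG z n) := by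
  intro y
  have e : ‖n y - z y‖ ^ 2 = 1 - 2 * ⟪n y, z y⟫ + aG z y := by
    unfold aG
    rw [norm_sub_sq_real, hn y]
    ring
  rcases le_total ‖n y - z y‖ 1 with h | h
  · refine ⟨1, le_rfl, ?_⟩
    unfold bG
    rw [max_eq_right h]
    linarith
  · refine ⟨√‖n y - z y‖, Real.one_le_sqrt.2 h, ?_⟩
    rw [Real.sq_sqrt (norm_nonneg _), ← e]
    unfold bG
    rw [max_eq_left h]
    have h0 : ‖n y - z y‖ ≠ 0 := by linarith
    have e2 : ‖n y - z y‖ ^ 2 / ‖n y - z y‖ = ‖n y - z y‖ := by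
      field_simp
    rw [e2]
    nlinarith

/-- the level bound with the one point function -/
theorem lev3 (h2 : Two μ m p n) {M : ℕ → ℝ} (hM : MomB μ m p M) (hM0 : ∀ q, 0 ≤ M q)
    (hm : 1 ≤ m) (hz : Measurable z) {B : ℝ} (hB : ∀ x, ‖z x‖ ≤ B)
    (hsym : ∀ x y, ⟪n x, p y⟫ - ⟪p x, n y⟫ = ⟪z x, p y⟫ - ⟪p x, z y⟫) {C : Cut} (hC : C.Ok)
    {b : X → ℝ} (hb : BM b) (hbz : BOk z n b)
    {T lT Z ω l : ℝ} (hT : T ∈ Ioo (0 : ℝ) 1) (hZ : T / √(1 - T ^ 2) ≤ Z)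
    (hω : T ^ 2 / (1 - T ^ 2) / m ≤ ω) (hl : 0 < l) (hlT : l ≤ lT) :
    √(1 - T ^ 2) ^ (m + 1) * E2 μ p n (TK m T lT)
      ≤ μ.real univ * (2 / m * ∫ y, HC3 M C Z ω l (aG z y) (b y) (pG m p z y) ∂μ) := by
  have hT' : T ∈ Ico (0 : ℝ) 1 := ⟨hT.1.le, hT.2⟩
  have hm0 : (0 : ℝ) < m := by exact_mod_cast hm
  have hk : 0 < 1 - T ^ 2 := by nlinarith [hT.1, hT.2]
  have hsk := Real.sqrt_pos.2 hk
  have hT0 : 0 < T := hT.1
  choose Cf hC1 hC2 using hbz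
  -- the square of the size
  have hdz : ∀ y, dz T p z y ^ 2 ≤ aG z y + ω * pG m p z y ^ 2 := by
    intro y
    unfold dz
    rw [Real.sq_sqrt (by positivity)]
    unfold aG pG
    rw [mul_pow √(m : ℝ), Real.sq_sqrt hm0.le, sq_abs]
    have h3 : T ^ 2 / (1 - T ^ 2) ≤ ω * m := by
      rwa [div_le_iff₀ hm0] at hω
    have h4 := mul_le_mul_of_nonneg_right h3 (sq_nonneg ⟪z y, p y⟫)
    linarith
  have hlam : ∀ y, Cf y ^ 2 - 2 * (1 - ⟪n y, z y⟫)
      + (1 - 2 * ⟪n y, z y⟫ + dz T p z y ^ 2) / Cf y ^ 2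
      ≤ 4 * ((b y + ω * pG m p z y ^ 2) / 4) := by
    intro y
    have h1 := hC1 y
    have h3 := hC2 y
    have h4 : (1 : ℝ) ≤ Cf y ^ 2 := one_le_pow₀ h1
    have hω0 : 0 ≤ ω * pG m p z y ^ 2 := by
      have : 0 ≤ ω := le_trans (by positivity) hω
      positivity
    have h5 : (1 - 2 * ⟪n y, z y⟫ + dz T p z y ^ 2) / Cf y ^ 2
        ≤ (1 - 2 * ⟪n y, z y⟫ + aG z y) / Cf y ^ 2 + ω * pG m p z y ^ 2 := by
      have h6 : (1 - 2 * ⟪n y, z y⟫ + dz T p z y ^ 2) / Cf y ^ 2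
          ≤ (1 - 2 * ⟪n y, z y⟫ + aG z y + ω * pG m p z y ^ 2) / Cf y ^ 2 := by
        apply div_le_div_of_nonneg_right _ (by positivity)
        have := hdz y
        linarith
      refine h6.trans ?_
      rw [add_div (1 - 2 * ⟪n y, z y⟫ + aG z y)]
      have h7 := div_le_self hω0 h4
      linarith
    linarith
  have hlam0 : ∀ y, 0 ≤ dz T p z y := fun y => Real.sqrt_nonneg _
  have hH : ∀ y, YV3 M C.j l C.K (sh m T p z y) (dz T p z y) ((b y + ω * pG m p z y ^ 2) / 4)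
      + ZV M C.i C.i' l C.η C.β (sh m T p z y) (dz T p z y)
        ≤ HC3 M C Z ω l (aG z y) (b y) (pG m p z y) := by
    intro y
    have hs0 : 0 ≤ sh m T p z y := by unfold sh; positivity
    have hs : sh m T p z y ≤ Z * pG m p z y := by
      unfold sh pG
      have e : √(m : ℝ) * (T * |⟪z y, p y⟫| / √(1 - T ^ 2))
          = T / √(1 - T ^ 2) * (√m * |⟪z y, p y⟫|) := by ring
      rw [e]
      exact mul_le_mul_of_nonneg_right hZ (by positivity)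
    have hd0 : 0 ≤ dz T p z y := Real.sqrt_nonneg _
    have hd : dz T p z y ≤ √(aG z y + ω * pG m p z y ^ 2) := Real.le_sqrt_of_sq_le (hdz y)
    have hl0 : 0 ≤ (b y + ω * pG m p z y ^ 2) / 4 := by
      have h3 := hlam y
      have h1 := hC1 y
      have h4 : 0 < Cf y := by linarith
      have h5 : 0 ≤ Cf y ^ 2 - 2 * (1 - ⟪n y, z y⟫)
          + (1 - 2 * ⟪n y, z y⟫ + dz T p z y ^ 2) / Cf y ^ 2 := by
        have h6 : |⟪n y, z y⟫| ≤ ‖z y‖ := by
          have := abs_real_inner_le_norm (n y) (z y)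
          rwa [h2.nn y, one_mul] at this
        have h7 : ‖z y‖ ^ 2 ≤ dz T p z y ^ 2 := by
          unfold dz
          rw [Real.sq_sqrt (by positivity)]
          have : 0 ≤ T ^ 2 / (1 - T ^ 2) * ⟪z y, p y⟫ ^ 2 := by positivity
          linarith
        have h8 : ⟪n y, z y⟫ ^ 2 ≤ ‖z y‖ ^ 2 := by
          rw [← sq_abs]
          exact pow_le_pow_left₀ (abs_nonneg _) h6 2
        have e : Cf y ^ 2 - 2 * (1 - ⟪n y, z y⟫)
            + (1 - 2 * ⟪n y, z y⟫ + dz T p z y ^ 2) / Cf y ^ 2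
            = ((Cf y ^ 2 - (1 - ⟪n y, z y⟫)) ^ 2 + (dz T p z y ^ 2 - ⟪n y, z y⟫ ^ 2))
              / Cf y ^ 2 := by
          field_simp
          ring
        rw [e]
        apply div_nonneg _ (by positivity)
        nlinarith [sq_nonneg (Cf y ^ 2 - (1 - ⟪n y, z y⟫))]
      linarith
    exact add_le_add (YVp_mono hM0 _ hl hC.K0 hs0 hs hd0 hd hl0 le_rfl)
      (ZV_mono hM0 _ _ hl hC.β0 hs0 hs hd0 hd)
  have hHi : Integrable (fun y => HC3 M C Z ω l (aG z y) (b y) (pG m p z y)) μ :=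
    (bm_HC3 (bm_aG hz hB) hb (bm_pG h2.toPts hz hB) M C Z ω l).int
  have h10 := tl_level3 h2 hM hM0 hm hz hB hsym hT' hl hC.η0 hC.η1 hC.β0 C.i C.i' (fun _ => C.j)
    (K := fun _ => C.K) (C := Cf) (lam := fun y => (b y + ω * pG m p z y ^ 2) / 4)
    (fun _ => hC.K0) (fun _ => hC.K1) hC1 hlam hHi hH
  have h11 := E2_TK_anti (m := m) h2 hT' hlT
  exact (mul_le_mul_of_nonneg_left h11 (pow_pos hsk (m + 1)).le).trans h10

/-- the relative tail, for probability measures -/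
theorem Blk.rel {B : Blk} (hB : B.Ok) {t k : ℕ → ℚ} (g : Grd B.N t k B.w) (h2 : Two μ m p n)
    (hμ : μ.real univ = 1) {M : ℕ → ℝ} (hM : MomB μ m p M) (hM0 : ∀ q, 0 ≤ M q)
    (h17 : 17 ≤ B.m1) (hm1 : B.m1 ≤ m) (hz : Measurable z) {D : ℝ} (hD : ∀ x, ‖z x‖ ≤ D)
    (hsym : ∀ x y, ⟪n x, p y⟫ - ⟪p x, n y⟫ = ⟪z x, p y⟫ - ⟪p x, z y⟫)
    {b : X → ℝ} (hb : BM b) (hb0 : ∀ y, 0 ≤ b y) (hbz : BOk z n b) {lT : ℝ → ℝ}
    (hcell : ∀ c < B.N, ∀ T ∈ Ioo (0 : ℝ) 1, ((t c : ℚ) : ℝ) < T → T ≤ t (c + 1) →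
      (m : ℝ) ≤ lT T ∨ (B.act c = true ∧ T ^ 2 / (1 - T ^ 2) / m ≤ B.ω c ∧
        ∃ r : ℝ, 1 ≤ r ∧ T / √(1 - T ^ 2) ≤ r * B.Z c ∧ r ^ 2 * (1 / B.u c) ≤ lT T)) :
    Tail μ m p n lT (∫ y, B.F M (aG z y) (b y) (pG m p z y) ∂μ) := by
  have hm : 17 ≤ m := h17.trans hm1
  have hm' : (17 : ℝ) ≤ m := by exact_mod_cast hm
  have hm0 : (0 : ℝ) < m := by linarith
  have hu : ∀ c < B.N, (0 : ℝ) < 1 / (B.u c : ℝ) := fun c hc => by
    have : (0 : ℝ) < (B.u c : ℝ) := by exact_mod_cast hB.u0 c hc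
    positivity
  have hZ0 : ∀ c < B.N, (0 : ℝ) ≤ (B.Z c : ℝ) := fun c hc => by exact_mod_cast hB.Z0 c hc
  have hω0 : ∀ c < B.N, (0 : ℝ) ≤ (B.ω c : ℝ) := fun c hc => by exact_mod_cast hB.ω0 c hc
  have hj : 3 ≤ B.cut.j := hB.j3
  have hi : 1 ≤ B.cut.i := hB.i1
  have hi' : 1 ≤ B.cut.i' := hB.i2
  set I : ℕ → ℝ := fun c => ∫ y, (if B.act c then
    HC3 M B.cut (B.Z c) (B.ω c) (1 / B.u c) (aG z y) (b y) (pG m p z y) else 0) ∂μ with hI
  have hI0 : ∀ c < B.N, 0 ≤ I c := by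
    intro c hc
    refine integral_nonneg fun y => ?_
    simp only [Pi.zero_apply]
    split_ifs
    · exact HC3_nonneg hM0 hB.cut (hZ0 c hc) (hω0 c hc) (hu c hc) (hb0 y) (pG_nonneg y)
    · exact le_rfl
  have hlev : ∀ c < B.N, ∀ T ∈ Ioo (0 : ℝ) 1, ((t c : ℚ) : ℝ) < T → T ≤ t (c + 1) →
      √(1 - T ^ 2) ^ (m + 1) * E2 μ p n (TK m T (lT T)) ≤ (μ.real univ) ^ 2 * (2 * I c / m) := by
    intro c hc T hT hT1 hT2
    rw [hμ]
    rcases hcell c hc T hT hT1 hT2 with h | ⟨ha, h4, r, hr, h3, h5⟩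
    · rw [E2_TK_eq_zero h2 ⟨hT.1.le, hT.2⟩ h, mul_zero]
      have := hI0 c hc
      positivity
    · have hl' : 0 < r ^ 2 * (1 / (B.u c : ℝ)) := mul_pos (by positivity) (hu c hc)
      have h6 := lev3 h2 hM hM0 (by omega) hz hD hsym hB.cut hb hbz hT h3 h4 hl' h5
      rw [hμ] at h6
      have e : I c = ∫ y, HC3 M B.cut (B.Z c) (B.ω c) (1 / B.u c) (aG z y) (b y)
          (pG m p z y) ∂μ := by
        simp only [hI, ha, if_true]
      have h7 : ∫ y, HC3 M B.cut (r * B.Z c) (B.ω c) (r ^ 2 * (1 / B.u c)) (aG z y) (b y)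
          (pG m p z y) ∂μ ≤ I c := by
        rw [e]
        exact integral_mono (bm_HC3 (bm_aG hz hD) hb (bm_pG h2.toPts hz hD) M B.cut _ _ _).int
          (bm_HC3 (bm_aG hz hD) hb (bm_pG h2.toPts hz hD) M B.cut _ _ _).int
          fun y => HC3_scale hM0 hB.cut hj hi hi' (hZ0 c hc) (hω0 c hc) (hu c hc) (hb0 y)
            (pG_nonneg y) hr
      refine h6.trans ?_
      rw [one_mul, one_pow, one_mul]
      have h8 := mul_le_mul_of_nonneg_left h7 (by positivity : (0 : ℝ) ≤ 2 / m)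
      refine h8.trans (le_of_eq ?_)
      ring
  have hT := g.tail hm (φ := fun c => 2 * I c) (fun c hc => by have := hI0 c hc; positivity) hlev
  refine hT.mono ?_
  have h5 : cM m ≤ (cMQ B.m1 : ℚ) := cM_le (by omega) hm1
  have hint : ∀ c, Integrable (fun y => if B.act c then
      HC3 M B.cut (B.Z c) (B.ω c) (1 / B.u c) (aG z y) (b y) (pG m p z y) else 0) μ := by
    intro c
    cases ha : B.act c with
    | false => simp
    | true =>
      simp only [if_true]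
      exact (bm_HC3 (bm_aG hz hD) hb (bm_pG h2.toPts hz hD) M B.cut _ _ _).int
  have e2 : ∫ y, B.F M (aG z y) (b y) (pG m p z y) ∂μ
      = (cMQ B.m1 : ℚ) * ∑ c ∈ Finset.range B.N, ((B.w c : ℚ) : ℝ) * (2 * I c) := by
    unfold Blk.F
    rw [integral_const_mul, integral_const_mul,
      integral_finsetSum _ (fun c _ => (hint c).const_mul _)]
    congr 1
    rw [Finset.mul_sum]
    refine Finset.sum_congr rfl fun c _ => ?_
    rw [integral_const_mul]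
    ring
  rw [e2]
  refine mul_le_mul_of_nonneg_right h5 (Finset.sum_nonneg fun c hc => mul_nonneg
      (by exact_mod_cast g.w_nonneg c (Finset.mem_range.1 hc)) ?_)
  have := hI0 c (Finset.mem_range.1 hc)
  positivity

end

end Vale.Agent.P224.R2.H484
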