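import Vale.Agent.P224.R2.H484.AbsH

/-!
The absolute tail: checks for the sharper thresholds, grid with 200 cells.
-/

namespace Vale.Agent.P224.R2.H484

/-! sharper thresholds `(17.9, 12.5)`, `(18.7, 13)`, `(19.1, 13.2)`, `(19.3, 13.3)` -/

lemma okB_17_25 : absOKg 200 wR 17 (1 / (25 : ℕ)) (lcG kR (179 / 10) (25 / 2)) (21 / 10000000)
    = true := by decide +kernel
lemma okB_17_35 : absOKg 200 wR 17 (1 / (35 : ℕ)) (lcG kR (179 / 10) (25 / 2)) (92 / 10000000)
    = true := by decide +kernel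
lemma okB_36_60 : absOKg 200 wR 36 (1 / (60 : ℕ)) (lcG kR (187 / 10) 13) (19 / 1000000)
    = true := by decide +kernel
lemma okB_60_100 : absOKg 200 wR 60 (1 / (100 : ℕ)) (lcG kR (187 / 10) 13) (36 / 1000000)
    = true := by decide +kernel
lemma okB_100_150 : absOKg 200 wR 100 (1 / (150 : ℕ)) (lcG kR (191 / 10) (66 / 5)) (40 / 1000000)
    = true := by decide +kernel
lemma okB_150_200 : absOKg 200 wR 150 (1 / (200 : ℕ)) (lcG kR (191 / 10) (66 / 5)) (47 / 1000000)
    = true := by decide +kernel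
lemma okB_200_400 : absOKg 200 wR 200 (1 / (400 : ℕ)) (lcG kR (191 / 10) (66 / 5)) (59 / 1000000)
    = true := by decide +kernel
lemma okB_400_850 : absOKg 200 wR 400 (1 / (850 : ℕ)) (lcG kR (193 / 10) (133 / 10)) (60 / 1000000)
    = true := by decide +kernel
lemma okB_850 : absOKg 200 wR 850 0 (lcG kR (193 / 10) (133 / 10)) (65 / 1000000)
    = true := by decide +kernel

end Vale.Agent.P224.R2.H484
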