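import Vale.Agent.P224.R2.H484.AbsH

/-!
The absolute tail for the thresholds `max c1 (c2 / (1 - T^2))`: values for blocks of dimensions,
grid with 200 cells.
-/

namespace Vale.Agent.P224.R2.H484

open MeasureTheory Set Function Module Vale.Agent.P224 Vale.Agent.P224.SM2
  Vale.Agent.P224.R2.H869 Vale.Agent.P224.R2.H582 Vale.Agent.P224.R2.H820

section

variable {X : Type*} [MeasurableSpace X] {E : Type*} [NormedAddCommGroup E]
  [InnerProductSpace ℝ E] [MeasurableSpace E] [BorelSpace E] [SecondCountableTopology E]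
  {μ : Measure X} [IsFiniteMeasure μ] {m : ℕ} {p n : X → E}

/-- the absolute tail of a block, thresholds at least `max c1 (c2 / (1 - T^2))` -/
theorem tail_max [Nontrivial E] (h2 : Two μ m p n) (h1 : MinRow μ m p n) {m1 : ℕ}
    {x ε c1 c2 : ℚ} (hok : absOKg 200 wR m1 x (lcG kR c1 c2) ε = true) (h17 : 17 ≤ m1)
    (hm1 : m1 ≤ m) (hx : (x : ℝ) ≤ 1 / m) (hc2 : 0 ≤ c2) {l : ℝ → ℝ}
    (l1 : ∀ T ∈ Ioo (0 : ℝ) 1, (c1 : ℝ) ≤ l T)
    (l2 : ∀ T ∈ Ioo (0 : ℝ) 1, (c2 : ℝ) / (1 - T ^ 2) ≤ l T) : Tail μ m p n l ε :=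
  grdR.abs h2 h1 hok h17 hm1 hx fun _ hc T hT hT1 hT2 =>
    grdR.lcG_le hc hc2 hT hT1 hT2 (l1 T hT) (l2 T hT)

lemma inv_blk {m m2 : ℕ} (h0 : 1 ≤ m) (h : m ≤ m2) : (((1 / m2 : ℚ)) : ℝ) ≤ 1 / m := by
  have h1 : (1 : ℝ) ≤ m := by exact_mod_cast h0
  have h2 : (m : ℝ) ≤ m2 := by exact_mod_cast h
  push_cast
  apply div_le_div_of_nonneg_left <;> linarith

/-- the absolute tail of a finite block -/
theorem tail_blk [Nontrivial E] (h2 : Two μ m p n) (h1 : MinRow μ m p n) {m1 m2 : ℕ}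
    {ε c1 c2 : ℚ} (hok : absOKg 200 wR m1 (1 / m2) (lcG kR c1 c2) ε = true) (h17 : 17 ≤ m1)
    (hm1 : m1 ≤ m) (hm2 : m ≤ m2) (hc2 : 0 ≤ c2) {l : ℝ → ℝ}
    (l1 : ∀ T ∈ Ioo (0 : ℝ) 1, (c1 : ℝ) ≤ l T)
    (l2 : ∀ T ∈ Ioo (0 : ℝ) 1, (c2 : ℝ) / (1 - T ^ 2) ≤ l T) : Tail μ m p n l ε :=
  tail_max h2 h1 hok h17 hm1 (inv_blk (by omega) hm2) hc2 l1 l2

end

/-! thresholds `(17.5, 11.5)`, `(18.2, 12.2)`, `(18.6, 12.6)` -/

lemma okA_17_25 : absOKg 200 wR 17 (1 / (25 : ℕ)) (lcG kR (35 / 2) (23 / 2)) (36 / 10000000)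
    = true := by decide +kernel
lemma okA_17_35 : absOKg 200 wR 17 (1 / (35 : ℕ)) (lcG kR (35 / 2) (23 / 2)) (15 / 1000000)
    = true := by decide +kernel
lemma okA_36_60 : absOKg 200 wR 36 (1 / (60 : ℕ)) (lcG kR (91 / 5) (61 / 5)) (28 / 1000000)
    = true := by decide +kernel
lemma okA_60_100 : absOKg 200 wR 60 (1 / (100 : ℕ)) (lcG kR (91 / 5) (61 / 5)) (53 / 1000000)
    = true := by decide +kernel
lemma okA_100_150 : absOKg 200 wR 100 (1 / (150 : ℕ)) (lcG kR (93 / 5) (63 / 5)) (54 / 1000000)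
    = true := by decide +kernel
lemma okA_150_200 : absOKg 200 wR 150 (1 / (200 : ℕ)) (lcG kR (93 / 5) (63 / 5)) (62 / 1000000)
    = true := by decide +kernel
lemma okA_200_300 : absOKg 200 wR 200 (1 / (300 : ℕ)) (lcG kR (93 / 5) (63 / 5)) (71 / 1000000)
    = true := by decide +kernel
lemma okA_300_400 : absOKg 200 wR 300 (1 / (400 : ℕ)) (lcG kR (93 / 5) (63 / 5)) (75 / 1000000)
    = true := by decide +kernel
lemma okA_400_600 : absOKg 200 wR 400 (1 / (600 : ℕ)) (lcG kR (93 / 5) (63 / 5)) (81 / 1000000)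
    = true := by decide +kernel
lemma okA_600 : absOKg 200 wR 600 0 (lcG kR (93 / 5) (63 / 5)) (92 / 1000000)
    = true := by decide +kernel

end Vale.Agent.P224.R2.H484
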