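import Vale.Agent.P224.R2.H484.TintH
import Vale.Agent.P224.R2.H484.AbsT

/-!
The assembly over a general grid: level bounds to the tail function, and the absolute tail.
-/

namespace Vale.Agent.P224.R2.H484

open MeasureTheory Set Function Module Vale.Agent.P224 Vale.Agent.P224.SM2
  Vale.Agent.P224.R2.H869 Vale.Agent.P224.R2.H582 Vale.Agent.P224.R2.H820
open scoped RealInnerProductSpace

set_option linter.unusedSectionVars false

section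

variable {X : Type*} [MeasurableSpace X] {E : Type*} [NormedAddCommGroup E]
  [InnerProductSpace ℝ E] [MeasurableSpace E] [BorelSpace E] [SecondCountableTopology E]
  {μ : Measure X} [IsFiniteMeasure μ] {m : ℕ} {p n : X → E}

/-- the tail function for the thresholds `l`: integral at most `ε` -/
def Tail (μ : Measure X) (m : ℕ) (p n : X → E) (l : ℝ → ℝ) (ε : ℝ) : Prop :=
  ∃ τ : ℝ → ℝ, IntervalIntegrable τ volume 0 1 ∧
      (∀ T ∈ Ioo (0 : ℝ) 1, (m + 1) * (m + 2) * T ^ 2 * rM m T / (1 - T ^ 2) / 2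
        * E2 μ p n (TK m T (l T)) ≤ τ T * (μ.real univ) ^ 2) ∧
      ∫ T in (0 : ℝ)..1, τ T ≤ ε

lemma Tail.mono {l : ℝ → ℝ} {ε ε' : ℝ} (h : Tail μ m p n l ε) (he : ε ≤ ε') :
    Tail μ m p n l ε' := by
  obtain ⟨τ, h1, h2, h3⟩ := h
  exact ⟨τ, h1, h2, h3.trans he⟩

/-- level bounds on the cells of a grid give the tail function -/
theorem Grd.tail {N : ℕ} {t k w : ℕ → ℚ} (g : Grd N t k w) (hm : 17 ≤ m) {l : ℝ → ℝ}
    {φ : ℕ → ℝ} (hφ0 : ∀ c < N, 0 ≤ φ c)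
    (hlev : ∀ c < N, ∀ T ∈ Ioo (0 : ℝ) 1, ((t c : ℚ) : ℝ) < T → T ≤ t (c + 1) →
      √(1 - T ^ 2) ^ (m + 1) * E2 μ p n (TK m T (l T)) ≤ (μ.real univ) ^ 2 * (φ c / m)) :
    Tail μ m p n l (cM m * ∑ c ∈ Finset.range N, w c * φ c) := by
  have hm' : (17 : ℝ) ≤ m := by exact_mod_cast hm
  have hm0 : (0 : ℝ) < m := by linarith
  have hA : 0 ≤ μ.real univ := measureReal_nonneg
  have hw : (0 : ℝ) ≤ ∑ c ∈ Finset.range N, ((w c : ℚ) : ℝ) * φ c :=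
    Finset.sum_nonneg fun c hc => mul_nonneg
      (by exact_mod_cast g.w_nonneg c (Finset.mem_range.1 hc)) (hφ0 c (Finset.mem_range.1 hc))
  rcases hA.eq_or_lt with h0 | h0
  · have hz' : μ = 0 := by
      have := (measureReal_eq_zero_iff (measure_ne_top μ univ)).1 h0.symm
      exact Measure.measure_univ_eq_zero.1 this
    refine ⟨fun _ => 0, by simp, fun T hT => ?_, ?_⟩
    · have e0 : E2 μ p n (TK m T (l T)) = 0 := by
        unfold E2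
        rw [hz']
        simp
      rw [e0, ← h0]
      simp
    · simpa using mul_nonneg (cM_nonneg m) hw
  · have hΦ : ∀ c < N, ∀ T ∈ Ioo (0 : ℝ) 1, ((t c : ℚ) : ℝ) < T → T ≤ t (c + 1) →
        m * (√(1 - T ^ 2) ^ (m + 1) * E2 μ p n (TK m T (l T))) / ((μ.real univ) ^ 2) ≤ φ c := by
      intro c hc T hT hT1 hT2
      have h := hlev c hc T hT hT1 hT2
      rw [div_le_iff₀ (by positivity)]
      have h12 := mul_le_mul_of_nonneg_left h hm0.le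
      have e : (m : ℝ) * ((μ.real univ) ^ 2 * (φ c / m)) = φ c * (μ.real univ) ^ 2 := by
        field_simp
      rw [e] at h12
      exact h12
    obtain ⟨τ, i1, i2, i3⟩ := g.tau hm (φ := φ)
      (Φ := fun T => m * (√(1 - T ^ 2) ^ (m + 1) * E2 μ p n (TK m T (l T))) / ((μ.real univ) ^ 2))
      hφ0 hΦ
    refine ⟨τ, i1, fun T hT => ?_, i3.le⟩
    refine htau_of hm hT (sq_nonneg _) (le_of_eq ?_) (i2 T hT)
    field_simp

/-- the check of a block on a grid -/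
def absOKg (N : ℕ) (w : ℕ → ℚ) (m1 : ℕ) (x : ℚ) (lc : ℕ → ℚ) (ε : ℚ) : Bool :=
  (List.range N).all (fun c => decide (5 / 2 < lc c)) && decide (0 ≤ x)
    && decide (cMQ m1 * sumQ (fun c => w c * phQ x (lc c)) N ≤ ε)

/-- the absolute tail of a block -/
theorem Grd.abs [Nontrivial E] {N : ℕ} {t k w : ℕ → ℚ} (g : Grd N t k w) (h2 : Two μ m p n)
    (h1 : MinRow μ m p n) {m1 : ℕ} {x ε : ℚ} {lc : ℕ → ℚ} (hok : absOKg N w m1 x lc ε = true)
    (h17 : 17 ≤ m1) (hm1 : m1 ≤ m) (hx : (x : ℝ) ≤ 1 / m) {l : ℝ → ℝ}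
    (hl : ∀ c < N, ∀ T ∈ Ioo (0 : ℝ) 1, ((t c : ℚ) : ℝ) < T → T ≤ t (c + 1) →
      ((lc c : ℚ) : ℝ) ≤ l T) :
    Tail μ m p n l ε := by
  have hm : 17 ≤ m := h17.trans hm1
  have hm' : (17 : ℝ) ≤ m := by exact_mod_cast hm
  have hm0 : (0 : ℝ) < m := by linarith
  unfold absOKg at hok
  simp only [Bool.and_eq_true, decide_eq_true_eq, List.all_eq_true, List.mem_range] at hok
  obtain ⟨⟨hlc, hx0⟩, hsum⟩ := hok
  have hx1 : x ≤ 1 := by
    have : (x : ℝ) ≤ 1 := hx.trans (by rw [div_le_one hm0]; linarith)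
    exact_mod_cast this
  have hφ0 : ∀ c < N, (0 : ℝ) ≤ (phQ x (lc c) : ℚ) := fun c hc => phQ_nonneg (hlc c hc) hx0 hx1
  have hlev : ∀ c < N, ∀ T ∈ Ioo (0 : ℝ) 1, ((t c : ℚ) : ℝ) < T → T ≤ t (c + 1) →
      √(1 - T ^ 2) ^ (m + 1) * E2 μ p n (TK m T (l T))
        ≤ (μ.real univ) ^ 2 * (((phQ x (lc c) : ℚ) : ℝ) / m) := by
    intro c hc T hT hT1 hT2
    have hT' : T ∈ Ico (0 : ℝ) 1 := ⟨hT.1.le, hT.2⟩
    have hk : 0 < 1 - T ^ 2 := by nlinarith [hT.1, hT.2]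
    have hs := Real.sqrt_pos.2 hk
    have h3 := E2_TK_anti (m := m) h2 hT' (hl c hc T hT hT1 hT2)
    have h4 := mul_le_mul_of_nonneg_left h3 (pow_pos hs (m + 1)).le
    refine h4.trans ?_
    have hlR : (5 / 2 : ℝ) < ((lc c : ℚ) : ℝ) := by
      have : ((5 / 2 : ℚ) : ℝ) < ((lc c : ℚ) : ℝ) := by exact_mod_cast hlc c hc
      norm_num at this ⊢
      exact this
    rcases lt_or_ge ((lc c : ℚ) : ℝ) (m : ℝ) with h5 | h5
    · have h6 := E2_TK_le h2 h1 (by omega) hT' hlR h5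
      have h7 := At_le_phQ hm (hlc c hc) h5 hx0 hx
      refine h6.trans (mul_le_mul_of_nonneg_left ?_ (sq_nonneg _))
      rw [le_div_iff₀ hm0]
      linarith
    · have h6 := E2_TK_eq_zero h2 hT' h5
      rw [h6, mul_zero]
      have h7 := hφ0 c hc
      positivity
  refine (g.tail hm hφ0 hlev).mono ?_
  have h5 : cM m ≤ (cMQ m1 : ℚ) := cM_le (by omega) hm1
  have h6 : (0 : ℝ) ≤ ∑ c ∈ Finset.range N, ((w c : ℚ) : ℝ) * ((phQ x (lc c) : ℚ) : ℝ) :=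
    Finset.sum_nonneg fun c hc => mul_nonneg
      (by exact_mod_cast g.w_nonneg c (Finset.mem_range.1 hc)) (hφ0 c (Finset.mem_range.1 hc))
  refine (mul_le_mul_of_nonneg_right h5 h6).trans ?_
  have h7 : ((cMQ m1 * sumQ (fun c => w c * phQ x (lc c)) N : ℚ) : ℝ) ≤ (ε : ℝ) := by
    exact_mod_cast hsum
  rw [Rat.cast_mul, sumQ_cast] at h7
  push_cast at h7
  exact h7

/-- rounded thresholds of the cells for `max c1 (c2 / (1 - T^2))` on a grid -/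
def lcG (k : ℕ → ℚ) (c1 c2 : ℚ) (c : ℕ) : ℚ :=
  min 100 ((⌊max c1 (c2 / k c ^ 2) * 20⌋ : ℤ) / 20)

lemma Grd.lcG_le {N : ℕ} {t k w : ℕ → ℚ} (g : Grd N t k w) {c1 c2 : ℚ} {c : ℕ} (hc : c < N)
    (h2 : 0 ≤ c2) {T L : ℝ} (hT : T ∈ Ioo (0 : ℝ) 1)
    (hT1 : ((t c : ℚ) : ℝ) < T) (hT2 : T ≤ t (c + 1)) (l1 : (c1 : ℝ) ≤ L)
    (l2 : (c2 : ℝ) / (1 - T ^ 2) ≤ L) : ((lcG k c1 c2 c : ℚ) : ℝ) ≤ L := by
  have hk := (g.k_cell hc hT.2 hT1 hT2).2
  have hk1 : 0 < 1 - T ^ 2 := by nlinarith [hT.1, hT.2]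
  have h2' : (0 : ℝ) ≤ (c2 : ℝ) := by exact_mod_cast h2
  have h3 : (c2 : ℝ) / ((k c : ℚ) : ℝ) ^ 2 ≤ L :=
    (div_le_div_of_nonneg_left h2' hk1 hk.le).trans l2
  have h4 : (lcG k c1 c2 c : ℚ) ≤ max c1 (c2 / k c ^ 2) := by
    unfold lcG
    refine (min_le_right _ _).trans ?_
    have h5 := Int.floor_le (max c1 (c2 / k c ^ 2) * 20)
    linarith
  have h5 : ((lcG k c1 c2 c : ℚ) : ℝ) ≤ ((max c1 (c2 / k c ^ 2) : ℚ) : ℝ) := by exact_mod_cast h4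
  refine h5.trans ?_
  push_cast
  exact max_le l1 h3

end

end Vale.Agent.P224.R2.H484
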