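import Vale.Agent.P224.R2.H484.AbsH

/-!
The absolute tail for the thresholds `17 (1 - T^10)` on `(0, 1/2]` and `max 35/2 (23/2/(1-T^2))`
on `(1/2, 1)`, dimensions 17 to 36.
-/

namespace Vale.Agent.P224.R2.H484

open MeasureTheory Set Function Module Vale.Agent.P224 Vale.Agent.P224.SM2
  Vale.Agent.P224.R2.H869 Vale.Agent.P224.R2.H582 Vale.Agent.P224.R2.H820

/-- thresholds of the cells -/
def lcD (c : ℕ) : ℚ :=
  if tR (c + 1) ≤ 1 / 2 then (⌊17 * (1 - tR (c + 1) ^ 10) * 1000⌋ : ℤ) / 1000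
  else if tR c < 1 / 2 then 1698 / 100
  else lcG kR (35 / 2) (23 / 2) c

section

variable {X : Type*} [MeasurableSpace X] {E : Type*} [NormedAddCommGroup E]
  [InnerProductSpace ℝ E] [MeasurableSpace E] [BorelSpace E] [SecondCountableTopology E]
  {μ : Measure X} [IsFiniteMeasure μ] {m : ℕ} {p n : X → E}

lemma lcD_le {c : ℕ} (hc : c < 200) {l : ℝ → ℝ}
    (l1 : ∀ T ∈ Ioo (0 : ℝ) 1, T ≤ 1 / 2 → 17 * (1 - T ^ 10) ≤ l T)
    (l2 : ∀ T ∈ Ioo (0 : ℝ) 1, 1 / 2 < T → 35 / 2 ≤ l T ∧ 23 / 2 / (1 - T ^ 2) ≤ l T)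
    {T : ℝ} (hT : T ∈ Ioo (0 : ℝ) 1) (hT1 : ((tR c : ℚ) : ℝ) < T) (hT2 : T ≤ tR (c + 1)) :
    ((lcD c : ℚ) : ℝ) ≤ l T := by
  unfold lcD
  split_ifs with h1 h2
  · have h1' : ((tR (c + 1) : ℚ) : ℝ) ≤ 1 / 2 := by
      have : ((tR (c + 1) : ℚ) : ℝ) ≤ ((1 / 2 : ℚ) : ℝ) := by exact_mod_cast h1
      norm_num at this ⊢
      exact this
    refine le_trans ?_ (l1 T hT (hT2.trans h1'))
    have h3 := Int.floor_le (17 * (1 - tR (c + 1) ^ 10) * 1000)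
    have h4 : ((⌊17 * (1 - tR (c + 1) ^ 10) * 1000⌋ : ℤ) : ℚ) / 1000
        ≤ 17 * (1 - tR (c + 1) ^ 10) := by linarith
    have h5 : ((((⌊17 * (1 - tR (c + 1) ^ 10) * 1000⌋ : ℤ) : ℚ) / 1000 : ℚ) : ℝ)
        ≤ ((17 * (1 - tR (c + 1) ^ 10) : ℚ) : ℝ) := by exact_mod_cast h4
    refine h5.trans ?_
    push_cast
    have h6 : T ^ 10 ≤ ((tR (c + 1) : ℚ) : ℝ) ^ 10 := pow_le_pow_left₀ hT.1.le hT2 10
    linarith
  · rcases le_or_gt T (1 / 2) with h3 | h3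
    · refine le_trans ?_ (l1 T hT h3)
      have h6 : T ^ 10 ≤ (1 / 2 : ℝ) ^ 10 := pow_le_pow_left₀ hT.1.le h3 10
      norm_num at h6 ⊢
      linarith
    · refine le_trans ?_ (l2 T hT h3).1
      norm_num
  · have h3 : (1 / 2 : ℝ) ≤ ((tR c : ℚ) : ℝ) := by
      have : ((1 / 2 : ℚ) : ℝ) ≤ ((tR c : ℚ) : ℝ) := by exact_mod_cast not_lt.1 h2
      norm_num at this ⊢
      exact this
    have h4 := l2 T hT (h3.trans_lt hT1)
    refine grdR.lcG_le hc (by norm_num) hT hT1 hT2 ?_ ?_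
    · norm_num
      exact h4.1
    · push_cast
      exact h4.2

/-- the absolute tail with these thresholds -/
theorem tail_D [Nontrivial E] (h2 : Two μ m p n) (h1 : MinRow μ m p n) {m1 m2 : ℕ} {ε : ℚ}
    (hok : absOKg 200 wR m1 (1 / m2) lcD ε = true) (h17 : 17 ≤ m1) (hm1 : m1 ≤ m) (hm2 : m ≤ m2)
    {l : ℝ → ℝ} (l1 : ∀ T ∈ Ioo (0 : ℝ) 1, T ≤ 1 / 2 → 17 * (1 - T ^ 10) ≤ l T)
    (l2 : ∀ T ∈ Ioo (0 : ℝ) 1, 1 / 2 < T → 35 / 2 ≤ l T ∧ 23 / 2 / (1 - T ^ 2) ≤ l T) :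
    Tail μ m p n l ε := by
  have hx : (((1 / m2 : ℚ)) : ℝ) ≤ 1 / m := by
    have h1 : (17 : ℝ) ≤ m := by exact_mod_cast h17.trans hm1
    have h2 : (m : ℝ) ≤ m2 := by exact_mod_cast hm2
    push_cast
    apply div_le_div_of_nonneg_left <;> linarith
  exact grdR.abs h2 h1 hok h17 hm1 hx fun _ hc T hT hT1 hT2 => lcD_le hc l1 l2 hT hT1 hT2

end

end Vale.Agent.P224.R2.H484
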