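import Vale.Agent.P224.R2.H484.AbsD

/-!
Checks for the absolute tail, dimensions 17 to 36.
-/

namespace Vale.Agent.P224.R2.H484

lemma okD_17_19 : absOKg 200 wR 17 (1 / (19 : ℕ)) lcD (1 / 1000000) = true := by decide +kernel
lemma okD_20_22 : absOKg 200 wR 20 (1 / (22 : ℕ)) lcD (25 / 10000000) = true := by decide +kernel
lemma okD_23_25 : absOKg 200 wR 23 (1 / (25 : ℕ)) lcD (48 / 10000000) = true := by decide +kernel
lemma okD_26_28 : absOKg 200 wR 26 (1 / (28 : ℕ)) lcD (78 / 10000000) = true := by decide +kernel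
lemma okD_29_31 : absOKg 200 wR 29 (1 / (31 : ℕ)) lcD (114 / 10000000) = true := by decide +kernel
lemma okD_32_34 : absOKg 200 wR 32 (1 / (34 : ℕ)) lcD (156 / 10000000) = true := by decide +kernel
lemma okD_35_36 : absOKg 200 wR 35 (1 / (36 : ℕ)) lcD (182 / 10000000) = true := by decide +kernel
lemma okD_17_36 : absOKg 200 wR 17 (1 / (36 : ℕ)) lcD (22 / 1000000) = true := by decide +kernel

end Vale.Agent.P224.R2.H484
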