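import Vale.Agent.P224.R2.H869.Mgf

/-!
The conformal volume bound with a general exponent, in Moebius form at level `T`, and the
domination principle. The exponent `m - 1` absorbs the factor `v / k` of the tail.
-/

namespace Vale.Agent.P224.R2.H484

open MeasureTheory Set Function Module Vale.Agent.P224 Vale.Agent.P224.SM2
  Vale.Agent.P224.R2.H869
open scoped RealInnerProductSpace

set_option linter.unusedSectionVars false

/-- Bernoulli-Young -/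
lemma young_nat (q : ℕ) {y : ℝ} (hy : 0 ≤ y) : (q + 1) * y ^ q ≤ q * y ^ (q + 1) + 1 := by
  induction q with
  | zero => simp
  | succ q ih =>
    have h1 : 0 ≤ (y - 1) * (y ^ (q + 1) - 1) := by
      rcases le_total y 1 with h | h
      · exact mul_nonneg_of_nonpos_of_nonpos (by linarith)
          (by linarith [pow_le_one₀ (n := q + 1) hy h])
      · exact mul_nonneg (by linarith) (by linarith [one_le_pow₀ (n := q + 1) h])
    have h2 := mul_le_mul_of_nonneg_left ih hy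
    push_cast
    have e : ((q : ℝ) + 1) * y ^ (q + 1 + 1) + 1 - ((q : ℝ) + 1 + 1) * y ^ (q + 1)
        = (y * (q * y ^ (q + 1) + 1) - y * ((q + 1) * y ^ q)) + (y - 1) * (y ^ (q + 1) - 1) := by
      ring
    linarith

variable {X : Type*} [MeasurableSpace X] {E : Type*} [NormedAddCommGroup E]
  [InnerProductSpace ℝ E] [MeasurableSpace E] [BorelSpace E] [SecondCountableTopology E]
  {μ : Measure X} [IsFiniteMeasure μ] {m q : ℕ} {p n : X → E}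

/-- the conformal volume bound with exponent `q` -/
structure CV (μ : Measure X) (q : ℕ) (p : X → E) : Prop where
  mp : Measurable p
  np : ∀ x, ‖p x‖ = 1
  int : ∀ z : E, ‖z‖ < 1 → Integrable (fun x => ((1 - ⟪p x, z⟫) ^ q)⁻¹) μ
  cv : ∀ z : E, ‖z‖ < 1 →
    √(1 - ‖z‖ ^ 2) ^ q * ∫ x, ((1 - ⟪p x, z⟫) ^ q)⁻¹ ∂μ ≤ μ.real univ

lemma one_sub_norm_sq_pos {z : E} (hz : ‖z‖ < 1) : 0 < 1 - ‖z‖ ^ 2 := by
  nlinarith [norm_nonneg z]

lemma one_sub_inner_pos {x z : E} (hx : ‖x‖ = 1) (hz : ‖z‖ < 1) : 0 < 1 - ⟪x, z⟫ := by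
  have h := real_inner_le_norm x z
  rw [hx, one_mul] at h
  linarith

lemma rpow_half_eq {K : ℝ} (hK : 0 ≤ K) (q : ℕ) : K ^ ((q : ℝ) / 2) = √K ^ q := by
  rw [Real.sqrt_eq_rpow, ← Real.rpow_natCast, ← Real.rpow_mul hK]
  congr 1
  ring

/-- minimal laws have the bound with exponent `m` -/
theorem cv_of_min [Nontrivial E] (h : MinRow μ m p n) : CV μ m p where
  mp := h.mp
  np := h.np
  int := fun z hz => h.int_cv hz m
  cv := fun z hz => by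
    have h1 := h.cv hz
    have hK := one_sub_norm_sq_pos hz
    have hs := Real.sqrt_pos.2 hK
    rw [Real.rpow_neg hK.le, rpow_half_eq hK.le, ← div_eq_mul_inv, le_div_iff₀ (pow_pos hs m)] at h1
    linarith

/-- lowering the exponent -/
theorem CV.pred [Nontrivial E] (h : CV μ (q + 1) p) : CV μ q p := by
  have hint : ∀ z : E, ‖z‖ < 1 → Integrable (fun x => ((1 - ⟪p x, z⟫) ^ q)⁻¹) μ := by
    intro z hz
    refine Integrable.mono' (((h.int z hz).const_mul 2)) ?_ (Filter.Eventually.of_forall fun x => ?_)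
    · exact (((measurable_const.sub (h.mp.inner measurable_const)).pow_const q).inv).aestronglyMeasurable
    · have hp := one_sub_inner_pos (h.np x) hz
      have hp2 : 1 - ⟪p x, z⟫ ≤ 2 := by
        have := abs_le.1 (abs_real_inner_le_norm (p x) z)
        rw [h.np x, one_mul] at this
        linarith [this.1]
      rw [Real.norm_eq_abs, abs_of_pos (inv_pos.2 (pow_pos hp q)), pow_succ, mul_inv]
      have h3 : (1 : ℝ) ≤ 2 * (1 - ⟪p x, z⟫)⁻¹ := by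
        rw [← div_eq_mul_inv, le_div_iff₀ hp]
        linarith
      have h4 := inv_pos.2 (pow_pos hp q)
      nlinarith
  refine ⟨h.mp, h.np, hint, fun z hz => ?_⟩
  have hK := one_sub_norm_sq_pos hz
  have hs := Real.sqrt_pos.2 hK
  set s := √(1 - ‖z‖ ^ 2) with hsdef
  have hy : ∀ x, ((q : ℝ) + 1) * (s ^ q * ((1 - ⟪p x, z⟫) ^ q)⁻¹)
      ≤ q * (s ^ (q + 1) * ((1 - ⟪p x, z⟫) ^ (q + 1))⁻¹) + 1 := by
    intro x
    have hp := one_sub_inner_pos (h.np x) hz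
    have := young_nat q (y := s * (1 - ⟪p x, z⟫)⁻¹) (by positivity)
    rwa [mul_pow, mul_pow, inv_pow, inv_pow] at this
  have i1 := hint z hz
  have i2 := h.int z hz
  have h1 : ∫ x, ((q : ℝ) + 1) * (s ^ q * ((1 - ⟪p x, z⟫) ^ q)⁻¹) ∂μ
      ≤ ∫ x, (q * (s ^ (q + 1) * ((1 - ⟪p x, z⟫) ^ (q + 1))⁻¹) + 1) ∂μ :=
    integral_mono ((i1.const_mul _).const_mul _)
      (((i2.const_mul _).const_mul _).add (integrable_const _)) hy
  rw [integral_const_mul, integral_const_mul,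
    integral_add ((i2.const_mul _).const_mul _) (integrable_const _), integral_const_mul,
    integral_const_mul, integral_const, smul_eq_mul, mul_one] at h1
  have h2 := h.cv z hz
  rw [← hsdef] at h2
  have hq : (0 : ℝ) < (q : ℝ) + 1 := by positivity
  have h3 : ((q : ℝ) + 1) * (s ^ q * ∫ x, ((1 - ⟪p x, z⟫) ^ q)⁻¹ ∂μ)
      ≤ ((q : ℝ) + 1) * μ.real univ := by
    have := mul_le_mul_of_nonneg_left h2 (Nat.cast_nonneg (α := ℝ) q)
    linarith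
  exact le_of_mul_le_mul_left h3 hq

/-- minimal laws have the bound with exponent `m - 1` -/
theorem cv_pred_of_min [Nontrivial E] (h : MinRow μ (q + 1) p n) : CV μ q p :=
  (cv_of_min h).pred

/-- the level `T` moment generating bound -/
theorem CV.mgf (h : CV μ q p) {T : ℝ} (hT : T ∈ Ico (0 : ℝ) 1) {y b : E}
    (hy : ‖y‖ = 1) (hb : ‖b‖ < 1) :
    √(1 - T ^ 2) ^ q * √(1 - ‖b‖ ^ 2) ^ q *
      ∫ x, ((1 - T * ⟪p x, y⟫) ^ q)⁻¹ * ((1 - ⟪b, mob T y (p x)⟫) ^ q)⁻¹ ∂μ ≤ μ.real univ := by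
  have hu := u_pos hT hy hb
  have hk := k_pos hT
  have h2 := one_sub_norm_sq_pos hb
  have h3 : ∀ x, ((1 - T * ⟪p x, y⟫) ^ q)⁻¹ * ((1 - ⟪b, mob T y (p x)⟫) ^ q)⁻¹
      = ((1 + T * ⟪b, y⟫) ^ q)⁻¹ * ((1 - ⟪p x, zc T y b⟫) ^ q)⁻¹ := fun x => by
    rw [← mul_inv, ← mul_inv, ← mul_pow, ← mul_pow, tilt hT (h.np x) hy hb]
  simp_rw [h3]
  rw [integral_const_mul]
  have h4 := h.cv _ (norm_zc_lt hT hy hb)
  have e : √(1 - ‖zc T y b‖ ^ 2) = √(1 - T ^ 2) * √(1 - ‖b‖ ^ 2) * (1 + T * ⟪b, y⟫)⁻¹ := by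
    rw [one_sub_zc hT hy hb, Real.sqrt_div (mul_pos hk h2).le, Real.sqrt_mul hk.le,
      Real.sqrt_sq hu.le, div_eq_mul_inv]
  rw [e, mul_pow, mul_pow, inv_pow] at h4
  calc _ = √(1 - T ^ 2) ^ q * √(1 - ‖b‖ ^ 2) ^ q * ((1 + T * ⟪b, y⟫) ^ q)⁻¹ *
        ∫ x, ((1 - ⟪p x, zc T y b⟫) ^ q)⁻¹ ∂μ := by ring
    _ ≤ _ := h4

lemma CV.int_mgf (h : CV μ q p) {T : ℝ} (hT : T ∈ Ico (0 : ℝ) 1) {y b : E}
    (hy : ‖y‖ = 1) (hb : ‖b‖ < 1) :
    Integrable (fun x => ((1 - T * ⟪p x, y⟫) ^ q)⁻¹ * ((1 - ⟪b, mob T y (p x)⟫) ^ q)⁻¹) μ := by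
  have h3 : ∀ x, ((1 - T * ⟪p x, y⟫) ^ q)⁻¹ * ((1 - ⟪b, mob T y (p x)⟫) ^ q)⁻¹
      = ((1 + T * ⟪b, y⟫) ^ q)⁻¹ * ((1 - ⟪p x, zc T y b⟫) ^ q)⁻¹ := fun x => by
    rw [← mul_inv, ← mul_inv, ← mul_pow, ← mul_pow, tilt hT (h.np x) hy hb]
  simp_rw [h3]
  exact (h.int _ (norm_zc_lt hT hy hb)).const_mul _

/-- domination by a combination of tilted kernels -/
theorem CV.dom (h : CV μ q p) {T : ℝ} (hT : T ∈ Ico (0 : ℝ) 1) {y : E}
    (hy : ‖y‖ = 1) {ι : Type*} (s : Finset ι) (C : ι → ℝ) (b : ι → E) (hC : ∀ i ∈ s, 0 ≤ C i)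
    (hb : ∀ i ∈ s, ‖b i‖ < 1) {G : X → ℝ} (hG0 : ∀ x, 0 ≤ G x)
    (hG : ∀ x, G x ≤ ∑ i ∈ s, C i * ((1 - ⟪b i, mob T y (p x)⟫) ^ q)⁻¹) :
    √(1 - T ^ 2) ^ q * ∫ x, ((1 - T * ⟪p x, y⟫) ^ q)⁻¹ * G x ∂μ
      ≤ μ.real univ * ∑ i ∈ s, C i * (√(1 - ‖b i‖ ^ 2) ^ q)⁻¹ := by
  have hk := k_pos hT
  have hsk := pow_pos (Real.sqrt_pos.2 hk) q
  have hv : ∀ x, 0 < ((1 - T * ⟪p x, y⟫) ^ q)⁻¹ := fun x =>
    inv_pos.2 (pow_pos (v_pos hT (h.np x) hy) q)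
  have h1 : ∀ i ∈ s, Integrable (fun x => C i *
      (((1 - T * ⟪p x, y⟫) ^ q)⁻¹ * ((1 - ⟪b i, mob T y (p x)⟫) ^ q)⁻¹)) μ :=
    fun i hi => (h.int_mgf hT hy (hb i hi)).const_mul _
  have h2 : ∫ x, ((1 - T * ⟪p x, y⟫) ^ q)⁻¹ * G x ∂μ ≤
      ∫ x, ∑ i ∈ s, C i *
        (((1 - T * ⟪p x, y⟫) ^ q)⁻¹ * ((1 - ⟪b i, mob T y (p x)⟫) ^ q)⁻¹) ∂μ := by
    refine integral_mono_of_nonneg (Filter.Eventually.of_forall fun x => ?_)
      (integrable_finsetSum _ h1) (Filter.Eventually.of_forall fun x => ?_)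
    · exact mul_nonneg (hv x).le (hG0 x)
    · refine (mul_le_mul_of_nonneg_left (hG x) (hv x).le).trans (le_of_eq ?_)
      rw [Finset.mul_sum]
      exact Finset.sum_congr rfl fun i _ => by ring
  refine (mul_le_mul_of_nonneg_left h2 hsk.le).trans ?_
  rw [integral_finsetSum _ h1, Finset.mul_sum, Finset.mul_sum]
  refine Finset.sum_le_sum fun i hi => ?_
  rw [integral_const_mul]
  have h4 := h.mgf hT hy (hb i hi)
  have h5 := pow_pos (Real.sqrt_pos.2 (one_sub_norm_sq_pos (hb i hi))) q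
  have h6 : √(1 - T ^ 2) ^ q *
      ∫ x, ((1 - T * ⟪p x, y⟫) ^ q)⁻¹ * ((1 - ⟪b i, mob T y (p x)⟫) ^ q)⁻¹ ∂μ
      ≤ μ.real univ * (√(1 - ‖b i‖ ^ 2) ^ q)⁻¹ := by
    rw [← div_eq_mul_inv, le_div_iff₀ h5]
    linarith
  have := mul_le_mul_of_nonneg_left h6 (hC i hi)
  linarith

/-- `√k ⟪w, x⟫ / v` for `w` orthogonal to `y` -/
lemma inner_mob_perp {T : ℝ} (hT : T ∈ Ico (0 : ℝ) 1) {x y : E} (hx : ‖x‖ = 1) (hy : ‖y‖ = 1)
    {w : E} (hw : ⟪w, y⟫ = 0) :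
    ⟪w, mob T y x⟫ = √(1 - T ^ 2) * ⟪w, x⟫ / (1 - T * ⟪x, y⟫) := by
  rw [inner_affine hT hx hy w, hw]
  simp

end Vale.Agent.P224.R2.H484
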