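import Vale.Agent.P224.R2.H869.TlBlk2
import Vale.Agent.P224.R2.H533.PtFin

/-!
A certificate of the relative tail of a block from the integer check.
-/

namespace Vale.Agent.P224.R2.H484

open Vale.Agent.P224.R2.H582 Vale.Agent.P224.R2.H533 Vale.Agent.P224.R2.H869

/-- the multipliers of the data of the rows -/
def muD (eta : ℚ) (M : RowD) : Mult := ⟨M.lam, eta, M.th, M.c1, M.wP, M.wX, M.wF, [], [], M.wR⟩

/-- the small conditions of a certificate -/
def smOK (Bl : BlkS) (M : RowD) (B : TabD) (eta kap c ab : ℚ) (th : List ℚ) (thz : ℚ) : Bool :=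
  (muD eta M).ok && decide (max (2 * M.lam ^ 2) (M.lam ^ 2 + eta) = M.K) && decide (M.th ≤ 1) &&
    decide (B.j = Bl.jj) && fitR Bl.m1 M.lam eta kap c ab &&
    thOK B.j Bl.X2 Bl.X1 Bl.X0 Bl.z2 Bl.z1 Bl.z0 th thz (fun i k => (B.al.getD i []).getD k 0)
      (fun i k => (B.be.getD i []).getD k 0) B.ra B.rb

theorem smOK_spec {Bl : BlkS} {M : RowD} {B : TabD} {eta kap c ab : ℚ} {th : List ℚ} {thz : ℚ}
    (hs : smOK Bl M B eta kap c ab th thz = true) :
    (muD eta M).ok = true ∧ max (2 * M.lam ^ 2) (M.lam ^ 2 + eta) = M.K ∧ M.th ≤ 1 ∧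
      B.j = Bl.jj ∧ fitR Bl.m1 M.lam eta kap c ab = true ∧
      thOK B.j Bl.X2 Bl.X1 Bl.X0 Bl.z2 Bl.z1 Bl.z0 th thz (fun i k => (B.al.getD i []).getD k 0)
        (fun i k => (B.be.getD i []).getD k 0) B.ra B.rb = true := by
  unfold smOK at hs
  simp only [Bool.and_eq_true, decide_eq_true_eq] at hs
  obtain ⟨⟨⟨⟨⟨h1, h2⟩, h3⟩, h4⟩, h5⟩, h6⟩ := hs
  exact ⟨h1, h2, h3, h4, h5, h6⟩

theorem rowD_muD {eta : ℚ} {M : RowD} (h : max (2 * M.lam ^ 2) (M.lam ^ 2 + eta) = M.K) :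
    rowD (muD eta M) = M := by
  unfold rowD muD
  simp only [h]

/-- **a certificate from the integer check** -/
def ofCheck {Bl : BlkS} (M : RowD) (B : TabD) (eta kap c ab : ℚ) (th : List ℚ) (thz : ℚ)
    (hs : smOK Bl M B eta kap c ab th thz = true) {H : HD} {Ct : HD.Cert} {C : ℚ}
    (hc : cmpOK H M B c C = true) (hH : H.check Ct = true) : CertM Bl :=
  CertM.ofPL (B := Bl) (muD eta M) kap c ab (smOK_spec hs).1 (smOK_spec hs).2.2.2.2.1
    (th := th) (thz := thz) (al := fun i k => (B.al.getD i []).getD k 0)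
    (be := fun i k => (B.be.getD i []).getD k 0) (ra := B.ra) (rb := B.rb)
    (by
      have h := (smOK_spec hs).2.2.2.2.2
      rw [(smOK_spec hs).2.2.2.1] at h
      exact h)
    fun m => by
      have h1 := ptIneq_of_check (M := muD eta M) (B := B) (H := H) (Ct := Ct) (c := c) (C := C) m
        (smOK_spec hs).1 rfl rfl (smOK_spec hs).2.2.1
        (by rw [rowD_muD (smOK_spec hs).2.1]; exact hc) hH
      rw [(smOK_spec hs).2.2.2.1] at h1
      exact h1

end Vale.Agent.P224.R2.H484
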