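import Vale.Agent.P224.R2.H627.ShR

/-!
The T-integrals of the tail terms: cells.
-/

namespace Vale.Agent.P224.R2.H484

open MeasureTheory Set Filter Function Real Vale.Agent.P224.SM2 Vale.Agent.P224.R2.H820
  Vale.Agent.P224.R2.H627
open scoped Topology

variable {m : ℕ} {T : ℝ}

lemma gp0 {s : ℝ} (h0 : 0 ≤ s) (h1 : s ≤ 1) :
    0 ≤ 1 / 20 + s + 39 / 20 * s ^ 2 + 7 / 20 * s ^ 3 - 5 / 4 * s ^ 4 - 5 / 8 * s ^ 5 := by
  have h := chk_sound 0 [2, 40, 78, 14, -50, -25]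
    (by decide +kernel) s h0 (by norm_num; linarith)
  simp only [ev] at h
  push_cast at h
  linarith

lemma gp1 {s : ℝ} (h0 : 0 ≤ s) (h1 : s ≤ 1) :
    0 ≤ 192289 / 5890500 + 1830377 / 1472625 * s + 4816909 / 1963500 * s ^ 2
      - 3588659 / 5890500 * s ^ 3 - 4325609 / 1178100 * s ^ 4 - 130807 / 785400 * s ^ 5
      + 8263 / 2475 * s ^ 6 + 36859 / 42075 * s ^ 7 - 7417 / 4675 * s ^ 8
      - 7417 / 9350 * s ^ 9 := by
  have h := chk_sound 1 [49225984, 937153024, 924846528, -114837088, -346048720, -7848420,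
      78663760, 10320520, -9345420, -2336355]
    (by decide +kernel) (2 * s) (by linarith) (by norm_num; linarith)
  have e : ev [49225984, 937153024, 924846528, -114837088, -346048720, -7848420,
      78663760, 10320520, -9345420, -2336355] (2 * s)
      = 1507968000 * (192289 / 5890500 + 1830377 / 1472625 * s + 4816909 / 1963500 * s ^ 2
      - 3588659 / 5890500 * s ^ 3 - 4325609 / 1178100 * s ^ 4 - 130807 / 785400 * s ^ 5
      + 8263 / 2475 * s ^ 6 + 36859 / 42075 * s ^ 7 - 7417 / 4675 * s ^ 8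
      - 7417 / 9350 * s ^ 9) := by
    simp only [ev]
    push_cast
    ring
  rw [e] at h
  exact nonneg_of_mul_nonneg_right h (by norm_num)

/-- simple upper bound of the sharp bound of R -/
lemma GSp_le {t s : ℝ} (ht : 0 ≤ t) (ht1 : t ≤ 2 / 17) (h0 : 0 ≤ s) (h1 : s ≤ 1) :
    GSp t s ≤ (1 + 3 / 5 * t) * J1 s := by
  have k0 := gp0 h0 h1
  have k1 := gp1 h0 h1
  have k2 : 0 ≤ (1 - 17 / 2 * t) * (1 / 20 + s + 39 / 20 * s ^ 2 + 7 / 20 * s ^ 3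
      - 5 / 4 * s ^ 4 - 5 / 8 * s ^ 5)
      + 17 / 2 * t * (192289 / 5890500 + 1830377 / 1472625 * s + 4816909 / 1963500 * s ^ 2
      - 3588659 / 5890500 * s ^ 3 - 4325609 / 1178100 * s ^ 4 - 130807 / 785400 * s ^ 5
      + 8263 / 2475 * s ^ 6 + 36859 / 42075 * s ^ 7 - 7417 / 4675 * s ^ 8
      - 7417 / 9350 * s ^ 9) :=
    add_nonneg (mul_nonneg (by linarith) k0) (mul_nonneg (by linarith) k1)
  have k3 := mul_nonneg (mul_nonneg ht (sq_nonneg (1 - s))) k2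
  have e : (1 + 3 / 5 * t) * J1 s - GSp t s = t * (1 - s) ^ 2 *
      ((1 - 17 / 2 * t) * (1 / 20 + s + 39 / 20 * s ^ 2 + 7 / 20 * s ^ 3
      - 5 / 4 * s ^ 4 - 5 / 8 * s ^ 5)
      + 17 / 2 * t * (192289 / 5890500 + 1830377 / 1472625 * s + 4816909 / 1963500 * s ^ 2
      - 3588659 / 5890500 * s ^ 3 - 4325609 / 1178100 * s ^ 4 - 130807 / 785400 * s ^ 5
      + 8263 / 2475 * s ^ 6 + 36859 / 42075 * s ^ 7 - 7417 / 4675 * s ^ 8
      - 7417 / 9350 * s ^ 9)) := by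
    simp only [GSp, H627.J1, H627.J2, H627.J3, H627.J4, H627.J5]
    ring
  linarith

lemma sv_le_one' (hT : T ∈ Ioo (0 : ℝ) 1) : sv T ≤ 1 := (sv_lt_one hT).le

/-- `R ≤ (1 + 6 / (5 m)) (1 - s)^2 (2 + s) / (3 √2)` -/
lemma Rf_le_J (hm : 17 ≤ m) (hT : T ∈ Ioo (0 : ℝ) 1) :
    √2 * Rf (m / 2) (cn m) T ≤ (1 + 6 / (5 * m)) * J1 (sv T) := by
  have hm' : (17 : ℝ) ≤ m := by exact_mod_cast hm
  have ha : (17 : ℝ) / 2 ≤ m / 2 := by linarith
  have h1 := sh_Rp ha (nrm_cn (by omega)) hT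
  have h2 : (1 : ℝ) / (m / 2) = 2 / m := by field_simp
  rw [h2] at h1
  have h3 : (2 : ℝ) / m ≤ 2 / 17 := by
    apply div_le_div_of_nonneg_left <;> linarith
  have h4 := GSp_le (by positivity : (0 : ℝ) ≤ 2 / m) h3 (sv_pos hT).le (sv_lt_one hT).le
  refine h1.trans (h4.trans (le_of_eq ?_))
  congr 2
  field_simp
  norm_num

/-- the weight of the tail at level `T` -/
noncomputable def cf (m : ℕ) (T : ℝ) : ℝ :=
  (m + 1) * (m + 2) * T ^ 2 * rM m T / (1 - T ^ 2) / 2 / √(1 - T ^ 2) ^ (m + 1) / m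

/-- the limit weight -/
noncomputable def cg (T : ℝ) : ℝ :=
  T / (1 + T ^ 2) ^ 2 * ((2 + sv T) / (1 + sv T) ^ 2) * (1 / (3 * √2)) * (T / √(1 - T ^ 2))

/-- the factor of the dimension -/
noncomputable def cM (m : ℕ) : ℝ := (1 + 6 / (5 * m)) * ((m + 1) * (m + 2)) / (2 * m ^ 2)

lemma cM_nonneg (m : ℕ) : 0 ≤ cM m := by unfold cM; positivity

lemma cf_eq (hm : 1 ≤ m) (hT : T ∈ Ioo (0 : ℝ) 1) :
    cf m T = (m + 1) * (m + 2) / (2 * m ^ 2) * (T ^ 2 * Rf (m / 2) (cn m) T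
      / ((1 - T ^ 2) ^ 2 * √(1 - T ^ 2))) := by
  have hk : 0 < 1 - T ^ 2 := by nlinarith [hT.1, hT.2]
  have hm0 : (0 : ℝ) < m := by exact_mod_cast hm
  have h := rM_eq (m := m) T
  unfold rh at h
  have e1 : (1 - T ^ 2) ^ ((m : ℝ) / 2 - 1) * ((1 - T ^ 2) ^ 2 * √(1 - T ^ 2))
      = (1 - T ^ 2) * √(1 - T ^ 2) ^ (m + 1) := by
    rw [Real.sqrt_eq_rpow, ← Real.rpow_natCast ((1 - T ^ 2) ^ ((1 : ℝ) / 2)),
      ← Real.rpow_mul hk.le, ← Real.rpow_natCast (1 - T ^ 2) 2, ← Real.rpow_add hk,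
      ← Real.rpow_add hk]
    nth_rewrite 2 [← Real.rpow_one (1 - T ^ 2)]
    rw [← Real.rpow_add hk]
    congr 1
    push_cast
    ring
  have hs := Real.sqrt_pos.2 hk
  have hp : 0 < √(1 - T ^ 2) ^ (m + 1) := pow_pos hs _
  have e2 : rM m T = (1 - T ^ 2) ^ ((m : ℝ) / 2 - 1) * Rf (m / 2) (cn m) T / m := by
    rw [← h]
    field_simp
  have e3 : (1 - T ^ 2) ^ ((m : ℝ) / 2 - 1) = (1 - T ^ 2) * √(1 - T ^ 2) ^ (m + 1)
      / ((1 - T ^ 2) ^ 2 * √(1 - T ^ 2)) := by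
    rw [← e1]
    field_simp
  unfold cf
  rw [e2, e3]
  field_simp

lemma cf_le (hm : 17 ≤ m) (hT : T ∈ Ioo (0 : ℝ) 1) : cf m T ≤ cM m * cg T := by
  have hk : 0 < 1 - T ^ 2 := by nlinarith [hT.1, hT.2]
  have hm0 : (0 : ℝ) < m := by exact_mod_cast (by omega : 0 < m)
  have hs := Real.sqrt_pos.2 hk
  have h2 : 0 < √(2 : ℝ) := by positivity
  have hsv := sv_pos hT
  have h := Rf_le_J hm hT
  have e1 : H627.J1 (sv T) = (1 - T ^ 2) ^ 2 / (1 + T ^ 2) ^ 2 * ((2 + sv T) / (1 + sv T) ^ 2) / 3 := by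
    have e2 := sv_sq T
    unfold hv at e2
    have e3 : (1 - T ^ 2) / (1 + T ^ 2) = (1 - sv T) * (1 + sv T) := by
      have : (1 - sv T) * (1 + sv T) = 1 - sv T ^ 2 := by ring
      rw [this, e2]
      ring
    rw [← div_pow, e3]
    unfold H627.J1
    field_simp
    ring
  have h3 : Rf (m / 2) (cn m) T ≤ (1 + 6 / (5 * m)) * H627.J1 (sv T) / √2 := by
    rw [le_div_iff₀ h2]
    linarith
  rw [cf_eq (by omega) hT]
  have h4 : T ^ 2 * Rf (m / 2) (cn m) T / ((1 - T ^ 2) ^ 2 * √(1 - T ^ 2))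
      ≤ T ^ 2 * ((1 + 6 / (5 * m)) * H627.J1 (sv T) / √2) / ((1 - T ^ 2) ^ 2 * √(1 - T ^ 2)) := by
    gcongr
  refine (mul_le_mul_of_nonneg_left h4 (by positivity)).trans (le_of_eq ?_)
  rw [e1]
  unfold cM cg
  field_simp

end Vale.Agent.P224.R2.H484
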