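import Vale.Agent.P224.R2.H484.TintC

/-!
The rational grid with 80 cells: `T = 2 q / (1 + q^2)`, `q = c / 80`.
-/

namespace Vale.Agent.P224.R2.H484

open MeasureTheory Set Filter Function Real Vale.Agent.P224.SM2 Vale.Agent.P224.R2.H820
  Vale.Agent.P224.R2.H627
open scoped Topology

/-- nodes in `T` -/
def tQ (c : ℕ) : ℚ := 160 * c / (6400 + c ^ 2)

/-- nodes in `√(1 - T^2)` -/
def kQ (c : ℕ) : ℚ := (6400 - c ^ 2) / (6400 + c ^ 2)

/-- lower bounds of `√2 T / √(1 + T^2)` at the nodes -/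
def sL : List ℕ := [
    0, 3533, 7057, 10562, 14037, 17473, 20863, 24198, 27470, 30674, 33802, 36850, 39814, 42690,
    45475, 48168, 50767, 53271, 55680, 57995, 60216, 62345, 64384, 66334, 68197, 69976, 71673,
    73291, 74833, 76300, 77697, 79026, 80289, 81489, 82629, 83712, 84739, 85714, 86638, 87514,
    88345, 89131, 89876, 90581, 91247, 91878, 92473, 93036, 93567, 94068, 94540, 94985, 95403,
    95797, 96167, 96513, 96838, 97142, 97427, 97692, 97938, 98168, 98380, 98576, 98757, 98924,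
    99076, 99214, 99340, 99453, 99554, 99644, 99722, 99790, 99848, 99895, 99934, 99963, 99983,
    99996]

/-- the weights of the cells, times `10^9` -/
def wL : List ℕ := [
    3678, 20846, 49177, 86517, 130898, 180530, 233809, 289318, 345823, 402256, 457735, 511517,
    563013, 611765, 657439, 699794, 738691, 774070, 805928, 834316, 859337, 881115, 899800,
    915571, 928612, 940034, 948703, 955877, 960913, 964009, 965327, 965044, 963327, 960324,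
    956176, 951011, 944960, 938125, 930617, 922524, 913925, 904910, 895536, 885871, 875976,
    865886, 855662, 845329, 834932, 824498, 814056, 803627, 793237, 782895, 772624, 762441,
    752349, 742361, 732481, 722725, 713097, 703592, 694226, 684996, 675901, 666943, 658129,
    649456, 640919, 632524, 624268, 616147, 608166, 600317, 592599, 585017, 577558, 570229,
    563026, 555939]

def sQ (c : ℕ) : ℚ := (sL.getD c 0 : ℚ) / 100000

/-- the weight of a cell -/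
def wQ (c : ℕ) : ℚ := (wL.getD c 0 : ℚ) / 1000000000

def fQ (x : ℚ) : ℚ := x / (1 + x ^ 2) ^ 2
def gQ (s : ℚ) : ℚ := (2 + s) / (1 + s) ^ 2

/-- the check of the weight of a cell -/
def cellOK (c : ℕ) : Bool :=
  let a := tQ c
  let b := tQ (c + 1)
  let s := sQ c
  let d := kQ c - kQ (c + 1)
  decide (0 ≤ a) && decide (a ≤ b) && decide (0 < d) && decide (0 ≤ s)
  && decide (s ^ 2 * (1 + a ^ 2) ≤ 2 * a ^ 2)
  && ((decide (b ^ 2 * (2 + 3 * b ^ 2) ≤ 1) &&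
        decide (fQ b * gQ s * (2357023 / 10000000) ≤ wQ c / d))
    || (decide (1 ≤ a ^ 2 * (2 + 3 * a ^ 2)) &&
        decide (fQ a * gQ s * (2357023 / 10000000) ≤ wQ c / d))
    || decide (13 / 40 * gQ s * (2357023 / 10000000) ≤ wQ c / d))

def gridOK : Bool := (List.range 80).all cellOK

lemma gridOK_true : gridOK = true := by decide +kernel

lemma cellOK_true {c : ℕ} (hc : c < 80) : cellOK c = true := by
  have h := gridOK_true
  unfold gridOK at h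
  rw [List.all_eq_true] at h
  exact h c (List.mem_range.2 hc)

lemma fx_cast (x : ℚ) : ((fQ x : ℚ) : ℝ) = fx x := by
  unfold fQ fx
  push_cast
  ring

lemma gx_cast (s : ℚ) : ((gQ s : ℚ) : ℝ) = gx s := by
  unfold gQ gx
  push_cast
  ring

lemma sqrt_tQ {c : ℕ} (hc : c ≤ 80) : √(1 - ((tQ c : ℚ) : ℝ) ^ 2) = ((kQ c : ℚ) : ℝ) := by
  have h0 : (0 : ℝ) ≤ ((kQ c : ℚ) : ℝ) := by
    unfold kQ
    push_cast
    have h : (c : ℝ) ≤ 80 := by exact_mod_cast hc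
    apply div_nonneg
    · have : (0 : ℝ) ≤ c := by positivity
      nlinarith
    · positivity
  rw [show 1 - ((tQ c : ℚ) : ℝ) ^ 2 = ((kQ c : ℚ) : ℝ) ^ 2 by
    unfold tQ kQ
    push_cast
    have : (6400 + (c : ℝ) ^ 2) ≠ 0 := by positivity
    field_simp
    ring, Real.sqrt_sq h0]

lemma cell_facts {c : ℕ} (hc : c < 80) :
    (0 : ℝ) ≤ tQ c ∧ ((tQ c : ℚ) : ℝ) ≤ tQ (c + 1) ∧ (0 : ℝ) < kQ c - kQ (c + 1) ∧
    ∀ T : ℝ, ((tQ c : ℚ) : ℝ) < T → T ≤ tQ (c + 1) → gT T ≤ wQ c / (kQ c - kQ (c + 1)) := by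
  have h := cellOK_true hc
  unfold cellOK at h
  simp only [Bool.and_eq_true, Bool.or_eq_true, decide_eq_true_eq] at h
  obtain ⟨⟨⟨⟨⟨h1, h2⟩, h3⟩, h4⟩, h5⟩, h6⟩ := h
  have r1 : (0 : ℝ) ≤ ((tQ c : ℚ) : ℝ) := by exact_mod_cast h1
  have r2 : ((tQ c : ℚ) : ℝ) ≤ ((tQ (c + 1) : ℚ) : ℝ) := by exact_mod_cast h2
  have r3 : (0 : ℝ) < ((kQ c : ℚ) : ℝ) - ((kQ (c + 1) : ℚ) : ℝ) := by exact_mod_cast h3
  have r4 : (0 : ℝ) ≤ ((sQ c : ℚ) : ℝ) := by exact_mod_cast h4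
  have r5 : ((sQ c : ℚ) : ℝ) ^ 2 * (1 + ((tQ c : ℚ) : ℝ) ^ 2) ≤ 2 * ((tQ c : ℚ) : ℝ) ^ 2 := by
    exact_mod_cast h5
  refine ⟨r1, r2, r3, fun T hT1 hT2 => ?_⟩
  rcases h6 with (h6 | h6) | h6
  · obtain ⟨h7, h8⟩ := h6
    have r7 : ((tQ (c + 1) : ℚ) : ℝ) ^ 2 * (2 + 3 * ((tQ (c + 1) : ℚ) : ℝ) ^ 2) ≤ 1 := by
      exact_mod_cast h7
    refine gT_le r1 r4 r5 hT1.le (fx_mono (r1.trans hT1.le) hT2 r7) ?_
    rw [← fx_cast, ← gx_cast]
    have : ((fQ (tQ (c + 1)) * gQ (sQ c) * (2357023 / 10000000) : ℚ) : ℝ)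
        ≤ ((wQ c / (kQ c - kQ (c + 1)) : ℚ) : ℝ) := by exact_mod_cast h8
    push_cast at this
    exact this
  · obtain ⟨h7, h8⟩ := h6
    have r7 : 1 ≤ ((tQ c : ℚ) : ℝ) ^ 2 * (2 + 3 * ((tQ c : ℚ) : ℝ) ^ 2) := by
      exact_mod_cast h7
    refine gT_le r1 r4 r5 hT1.le (fx_anti r1 hT1.le r7) ?_
    rw [← fx_cast, ← gx_cast]
    have : ((fQ (tQ c) * gQ (sQ c) * (2357023 / 10000000) : ℚ) : ℝ)
        ≤ ((wQ c / (kQ c - kQ (c + 1)) : ℚ) : ℝ) := by exact_mod_cast h8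
    push_cast at this
    exact this
  · refine gT_le r1 r4 r5 hT1.le fx_le_max ?_
    rw [← gx_cast]
    have : ((13 / 40 * gQ (sQ c) * (2357023 / 10000000) : ℚ) : ℝ)
        ≤ ((wQ c / (kQ c - kQ (c + 1)) : ℚ) : ℝ) := by exact_mod_cast h6
    push_cast at this
    exact this

variable {m : ℕ}

/-- the T-integral over the grid: `φ c` bounds `Φ` on the cell `c` -/
theorem tau_grid (hm : 17 ≤ m) {φ : ℕ → ℝ} (hφ0 : ∀ c < 80, 0 ≤ φ c) {Φ : ℝ → ℝ}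
    (hΦ : ∀ c < 80, ∀ T ∈ Ioo (0 : ℝ) 1, ((tQ c : ℚ) : ℝ) < T → T ≤ tQ (c + 1) → Φ T ≤ φ c) :
    ∃ τ : ℝ → ℝ, IntervalIntegrable τ volume 0 1 ∧
      (∀ T ∈ Ioo (0 : ℝ) 1, cf m T * Φ T ≤ τ T) ∧
      ∫ T in (0 : ℝ)..1, τ T = cM m * ∑ c ∈ Finset.range 80, wQ c * φ c := by
  have hG0 : ∀ c < 80, (0 : ℝ) ≤ wQ c / (kQ c - kQ (c + 1)) := by
    intro c hc
    have h1 := (cell_facts hc).2.2.1
    have h2 : (0 : ℝ) ≤ ((wQ c : ℚ) : ℝ) := by
      unfold wQ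
      push_cast
      positivity
    positivity
  obtain ⟨τ, h1, h2, h3⟩ := tau_cells hm (n := 80) (t := fun c => ((tQ c : ℚ) : ℝ))
    (κ := fun c => ((kQ c : ℚ) : ℝ)) (G := fun c => wQ c / (kQ c - kQ (c + 1))) (φ := φ)
    (by unfold tQ; norm_num) (by unfold tQ; norm_num) (fun c hc => (cell_facts hc).2.1)
    (fun c hc => sqrt_tQ hc) hG0 hφ0 (fun c hc T _ => (cell_facts hc).2.2.2 T) hΦ
  refine ⟨τ, h1, h2, h3.trans ?_⟩
  congr 1
  refine Finset.sum_congr rfl fun c hc => ?_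
  have h4 := (cell_facts (Finset.mem_range.1 hc)).2.2.1
  rw [div_mul_cancel₀ _ h4.ne']

/-- bounds of `1 - T^2` on a cell -/
lemma k_cell {c : ℕ} (hc : c < 80) {T : ℝ} (h1 : ((tQ c : ℚ) : ℝ) < T) (h2 : T ≤ tQ (c + 1)) :
    ((kQ (c + 1) : ℚ) : ℝ) ^ 2 ≤ 1 - T ^ 2 ∧ 1 - T ^ 2 < ((kQ c : ℚ) : ℝ) ^ 2 := by
  have h3 := (cell_facts hc).1
  have e : ∀ c : ℕ, ((kQ c : ℚ) : ℝ) ^ 2 = 1 - ((tQ c : ℚ) : ℝ) ^ 2 := by
    intro c
    unfold tQ kQ
    push_cast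
    have : (6400 + (c : ℝ) ^ 2) ≠ 0 := by positivity
    field_simp
    ring
  rw [e, e]
  constructor <;> nlinarith

end Vale.Agent.P224.R2.H484
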