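import Vale.Agent.P224.R2.H484.TintG

/-!
General rational grids for the T-integral, and the grid with 200 cells.
-/

namespace Vale.Agent.P224.R2.H484

open MeasureTheory Set Filter Function Real Vale.Agent.P224.SM2 Vale.Agent.P224.R2.H820
  Vale.Agent.P224.R2.H627
open scoped Topology

/-- a rational grid: nodes `t`, `k = √(1 - t^2)`, weights `w` -/
structure Grd (n : ℕ) (t k w : ℕ → ℚ) : Prop where
  zero : t 0 = 0
  one : t n = 1
  sqrt_t : ∀ c ≤ n, √(1 - ((t c : ℚ) : ℝ) ^ 2) = ((k c : ℚ) : ℝ)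
  t_nonneg : ∀ c < n, 0 ≤ t c
  mono : ∀ c < n, t c ≤ t (c + 1)
  kpos : ∀ c < n, 0 < k c - k (c + 1)
  w_nonneg : ∀ c < n, 0 ≤ w c
  cell : ∀ c < n, ∀ T : ℝ, ((t c : ℚ) : ℝ) < T → T ≤ t (c + 1) → gT T ≤ w c / (k c - k (c + 1))

namespace Grd

variable {n m : ℕ} {t k w : ℕ → ℚ}

/-- the T-integral over a grid -/
theorem tau (g : Grd n t k w) (hm : 17 ≤ m) {φ : ℕ → ℝ} (hφ0 : ∀ c < n, 0 ≤ φ c) {Φ : ℝ → ℝ}
    (hΦ : ∀ c < n, ∀ T ∈ Ioo (0 : ℝ) 1, ((t c : ℚ) : ℝ) < T → T ≤ t (c + 1) → Φ T ≤ φ c) :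
    ∃ τ : ℝ → ℝ, IntervalIntegrable τ volume 0 1 ∧
      (∀ T ∈ Ioo (0 : ℝ) 1, cf m T * Φ T ≤ τ T) ∧
      ∫ T in (0 : ℝ)..1, τ T = cM m * ∑ c ∈ Finset.range n, w c * φ c := by
  have hk : ∀ c < n, (0 : ℝ) < ((k c : ℚ) : ℝ) - ((k (c + 1) : ℚ) : ℝ) := fun c hc => by
    exact_mod_cast g.kpos c hc
  have hG0 : ∀ c < n, (0 : ℝ) ≤ w c / (k c - k (c + 1)) := by
    intro c hc
    have h1 := hk c hc
    have h2 : (0 : ℝ) ≤ ((w c : ℚ) : ℝ) := by exact_mod_cast g.w_nonneg c hc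
    positivity
  obtain ⟨τ, h1, h2, h3⟩ := tau_cells hm (n := n) (t := fun c => ((t c : ℚ) : ℝ))
    (κ := fun c => ((k c : ℚ) : ℝ)) (G := fun c => w c / (k c - k (c + 1))) (φ := φ)
    (by rw [g.zero]; simp) (by rw [g.one]; simp)
    (fun c hc => by exact_mod_cast g.mono c hc)
    g.sqrt_t hG0 hφ0 (fun c hc T _ => g.cell c hc T) hΦ
  refine ⟨τ, h1, h2, h3.trans ?_⟩
  congr 1
  refine Finset.sum_congr rfl fun c hc => ?_
  have h4 := hk c (Finset.mem_range.1 hc)
  rw [div_mul_cancel₀ _ h4.ne']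

/-- bounds of `1 - T^2` on a cell -/
lemma k_cell (g : Grd n t k w) {c : ℕ} (hc : c < n) {T : ℝ} (hT : T < 1)
    (h1 : ((t c : ℚ) : ℝ) < T) (h2 : T ≤ t (c + 1)) :
    ((k (c + 1) : ℚ) : ℝ) ^ 2 ≤ 1 - T ^ 2 ∧ 1 - T ^ 2 < ((k c : ℚ) : ℝ) ^ 2 := by
  have h0 : (0 : ℝ) ≤ ((t c : ℚ) : ℝ) := by exact_mod_cast g.t_nonneg c hc
  have hT0 : 0 < T := h0.trans_lt h1
  rw [← g.sqrt_t c hc.le, ← g.sqrt_t (c + 1) (by omega)]
  have h3 : 0 ≤ 1 - ((t c : ℚ) : ℝ) ^ 2 := by nlinarith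
  rw [Real.sq_sqrt h3]
  constructor
  · rcases le_total (((t (c + 1) : ℚ) : ℝ) ^ 2) 1 with h4 | h4
    · rw [Real.sq_sqrt (by linarith)]
      nlinarith
    · rw [Real.sqrt_eq_zero_of_nonpos (by linarith)]
      nlinarith
  · nlinarith

end Grd

/-- nodes in `T`, 200 cells -/
def tR (c : ℕ) : ℚ := 400 * c / (40000 + c ^ 2)

/-- nodes in `√(1 - T^2)`, 200 cells -/
def kR (c : ℕ) : ℚ := (40000 - c ^ 2) / (40000 + c ^ 2)

def sLR : List ℕ := [
    0, 1414, 2827, 4239, 5650, 7057, 8462, 9863, 11259, 12651, 14037, 15416, 16790, 18155,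
    19513, 20863, 22204, 23536, 24858, 26169, 27470, 28760, 30039, 31305, 32560, 33802, 35031,
    36247, 37450, 38639, 39814, 40975, 42122, 43254, 44372, 45475, 46564, 47637, 48695, 49739,
    50767, 51780, 52778, 53760, 54728, 55680, 56617, 57540, 58447, 59339, 60216, 61079, 61927,
    62760, 63579, 64384, 65174, 65951, 66713, 67462, 68197, 68918, 69626, 70322, 71004, 71673,
    72329, 72974, 73605, 74225, 74833, 75428, 76013, 76585, 77147, 77697, 78237, 78766, 79284,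
    79792, 80289, 80777, 81254, 81722, 82180, 82629, 83069, 83500, 83922, 84335, 84739, 85135,
    85523, 85903, 86274, 86638, 86994, 87343, 87684, 88018, 88345, 88664, 88977, 89283, 89583,
    89876, 90162, 90443, 90717, 90985, 91247, 91504, 91754, 91999, 92239, 92473, 92702, 92926,
    93145, 93358, 93567, 93771, 93970, 94165, 94355, 94540, 94721, 94898, 95071, 95239, 95403,
    95564, 95720, 95873, 96022, 96167, 96308, 96446, 96580, 96711, 96838, 96962, 97083, 97201,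
    97315, 97427, 97535, 97640, 97742, 97842, 97938, 98032, 98123, 98211, 98297, 98380, 98460,
    98538, 98614, 98687, 98757, 98826, 98892, 98955, 99017, 99076, 99133, 99188, 99241, 99291,
    99340, 99387, 99431, 99474, 99515, 99554, 99591, 99627, 99660, 99692, 99722, 99751, 99777,
    99802, 99826, 99848, 99868, 99887, 99904, 99920, 99934, 99947, 99958, 99968, 99976, 99983,
    99989, 99994, 99997, 99999]

/-- the weights of the cells, times `10^9` -/
def wLR : List ℕ := [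
    236, 1384, 3384, 6177, 9707, 13918, 18757, 24172, 30113, 36529, 43377, 50609, 58182, 66057,
    74190, 82546, 91088, 99780, 108591, 117491, 126448, 135436, 144429, 153403, 162334, 171202,
    179989, 188674, 197242, 205679, 213970, 222103, 230066, 237851, 245447, 252848, 260044,
    267034, 273813, 280371, 286713, 292832, 298728, 304402, 309849, 315074, 320077, 324855,
    329416, 333761, 337892, 341809, 345519, 349027, 352332, 355440, 358358, 361085, 363631,
    365997, 368190, 370214, 372074, 374055, 375398, 376879, 378212, 379396, 380445, 381356,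
    382137, 382796, 383329, 383750, 384056, 384256, 384351, 384347, 384249, 384060, 383785,
    383424, 382986, 382471, 381884, 381227, 380503, 379717, 378871, 377969, 377015, 376008,
    374953, 373852, 372710, 371525, 370302, 369042, 367750, 366424, 365069, 363688, 362278,
    360845, 359387, 357909, 356414, 354897, 353366, 351819, 350258, 348683, 347099, 345504,
    343898, 342285, 340664, 339036, 337403, 335768, 334126, 332482, 330836, 329188, 327539,
    325891, 324243, 322595, 320948, 319304, 317663, 316023, 314388, 312756, 311127, 309504,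
    307887, 306273, 304665, 303063, 301468, 299878, 298294, 296716, 295147, 293583, 292028,
    290480, 288940, 287406, 285882, 284365, 282856, 281355, 279862, 278378, 276903, 275435,
    273975, 272525, 271084, 269650, 268225, 266811, 265403, 264005, 262615, 261234, 259862,
    258500, 257145, 255798, 254462, 253134, 251814, 250503, 249200, 247905, 246621, 245344,
    244076, 242815, 241564, 240321, 239085, 237859, 236641, 235430, 234228, 233034, 231848,
    230670, 229501, 228338, 227185, 226039, 224900, 223768, 222644, 221528]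

def sR (c : ℕ) : ℚ := (sLR.getD c 0 : ℚ) / 100000

/-- the weight of a cell -/
def wR (c : ℕ) : ℚ := (wLR.getD c 0 : ℚ) / 1000000000

def cellOKR (c : ℕ) : Bool :=
  let a := tR c
  let b := tR (c + 1)
  let s := sR c
  let d := kR c - kR (c + 1)
  decide (0 ≤ a) && decide (a ≤ b) && decide (0 < d) && decide (0 ≤ s)
  && decide (s ^ 2 * (1 + a ^ 2) ≤ 2 * a ^ 2)
  && ((decide (b ^ 2 * (2 + 3 * b ^ 2) ≤ 1) &&
        decide (fQ b * gQ s * (2357023 / 10000000) ≤ wR c / d))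
    || (decide (1 ≤ a ^ 2 * (2 + 3 * a ^ 2)) &&
        decide (fQ a * gQ s * (2357023 / 10000000) ≤ wR c / d))
    || decide (13 / 40 * gQ s * (2357023 / 10000000) ≤ wR c / d))

lemma gridOKR : (List.range 200).all cellOKR = true := by decide +kernel

lemma cellOKR_true {c : ℕ} (hc : c < 200) : cellOKR c = true := by
  have h := gridOKR
  rw [List.all_eq_true] at h
  exact h c (List.mem_range.2 hc)

lemma sqrt_tR {c : ℕ} (hc : c ≤ 200) : √(1 - ((tR c : ℚ) : ℝ) ^ 2) = ((kR c : ℚ) : ℝ) := by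
  have h0 : (0 : ℝ) ≤ ((kR c : ℚ) : ℝ) := by
    unfold kR
    push_cast
    have h : (c : ℝ) ≤ 200 := by exact_mod_cast hc
    apply div_nonneg
    · have : (0 : ℝ) ≤ c := by positivity
      nlinarith
    · positivity
  rw [show 1 - ((tR c : ℚ) : ℝ) ^ 2 = ((kR c : ℚ) : ℝ) ^ 2 by
    unfold tR kR
    push_cast
    have : (40000 + (c : ℝ) ^ 2) ≠ 0 := by positivity
    field_simp
    ring, Real.sqrt_sq h0]

lemma cell_factsR {c : ℕ} (hc : c < 200) :
    0 ≤ tR c ∧ tR c ≤ tR (c + 1) ∧ 0 < kR c - kR (c + 1) ∧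
    ∀ T : ℝ, ((tR c : ℚ) : ℝ) < T → T ≤ tR (c + 1) → gT T ≤ wR c / (kR c - kR (c + 1)) := by
  have h := cellOKR_true hc
  unfold cellOKR at h
  simp only [Bool.and_eq_true, Bool.or_eq_true, decide_eq_true_eq] at h
  obtain ⟨⟨⟨⟨⟨h1, h2⟩, h3⟩, h4⟩, h5⟩, h6⟩ := h
  have r1 : (0 : ℝ) ≤ ((tR c : ℚ) : ℝ) := by exact_mod_cast h1
  have r4 : (0 : ℝ) ≤ ((sR c : ℚ) : ℝ) := by exact_mod_cast h4
  have r5 : ((sR c : ℚ) : ℝ) ^ 2 * (1 + ((tR c : ℚ) : ℝ) ^ 2) ≤ 2 * ((tR c : ℚ) : ℝ) ^ 2 := by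
    exact_mod_cast h5
  refine ⟨h1, h2, h3, fun T hT1 hT2 => ?_⟩
  rcases h6 with (h6 | h6) | h6
  · obtain ⟨h7, h8⟩ := h6
    have r7 : ((tR (c + 1) : ℚ) : ℝ) ^ 2 * (2 + 3 * ((tR (c + 1) : ℚ) : ℝ) ^ 2) ≤ 1 := by
      exact_mod_cast h7
    refine gT_le r1 r4 r5 hT1.le (fx_mono (r1.trans hT1.le) hT2 r7) ?_
    rw [← fx_cast, ← gx_cast]
    have : ((fQ (tR (c + 1)) * gQ (sR c) * (2357023 / 10000000) : ℚ) : ℝ)
        ≤ ((wR c / (kR c - kR (c + 1)) : ℚ) : ℝ) := by exact_mod_cast h8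
    push_cast at this
    exact this
  · obtain ⟨h7, h8⟩ := h6
    have r7 : 1 ≤ ((tR c : ℚ) : ℝ) ^ 2 * (2 + 3 * ((tR c : ℚ) : ℝ) ^ 2) := by
      exact_mod_cast h7
    refine gT_le r1 r4 r5 hT1.le (fx_anti r1 hT1.le r7) ?_
    rw [← fx_cast, ← gx_cast]
    have : ((fQ (tR c) * gQ (sR c) * (2357023 / 10000000) : ℚ) : ℝ)
        ≤ ((wR c / (kR c - kR (c + 1)) : ℚ) : ℝ) := by exact_mod_cast h8
    push_cast at this
    exact this
  · refine gT_le r1 r4 r5 hT1.le fx_le_max ?_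
    rw [← gx_cast]
    have : ((13 / 40 * gQ (sR c) * (2357023 / 10000000) : ℚ) : ℝ)
        ≤ ((wR c / (kR c - kR (c + 1)) : ℚ) : ℝ) := by exact_mod_cast h6
    push_cast at this
    exact this

/-- the grid with 200 cells -/
theorem grdR : Grd 200 tR kR wR where
  zero := by unfold tR; norm_num
  one := by unfold tR; norm_num
  sqrt_t _ hc := sqrt_tR hc
  t_nonneg _ hc := (cell_factsR hc).1
  mono _ hc := (cell_factsR hc).2.1
  kpos _ hc := (cell_factsR hc).2.2.1
  w_nonneg c _ := by unfold wR; positivity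
  cell _ hc := (cell_factsR hc).2.2.2

end Vale.Agent.P224.R2.H484
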