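import Vale.Agent.P224.R2.H484.AbsT
import Vale.Agent.P224.R2.H876.Tl

/-!
The relative tail bound, integrated over the levels: assembly of the level bound over the grid.
-/

namespace Vale.Agent.P224.R2.H484

open MeasureTheory Set Function Module Vale.Agent.P224 Vale.Agent.P224.SM2
  Vale.Agent.P224.R2.H869 Vale.Agent.P224.R2.H582 Vale.Agent.P224.R2.H820
  Vale.Agent.P224.R2.H876 Vale.Agent.P224.R2.H728
open scoped RealInnerProductSpace

set_option linter.unusedSectionVars false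

section

variable {X : Type*} [MeasurableSpace X] {E : Type*} [NormedAddCommGroup E]
  [InnerProductSpace ℝ E] [MeasurableSpace E] [BorelSpace E] [SecondCountableTopology E]
  {μ : Measure X} [IsFiniteMeasure μ] {m : ℕ} {p n z : X → E}

/-- the data of the level bound at one level -/
def LevOK (m : ℕ) (M : ℕ → ℝ) (p n z : X → E) (T lT : ℝ) (H : X → ℝ) : Prop :=
  (m : ℝ) ≤ lT ∨ ∃ (l u η : ℝ) (i j : ℕ) (C lam : X → ℝ), 0 < l ∧ l ≤ lT ∧ 0 < u ∧ 0 ≤ η ∧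
    u ≤ η * (2 * √l - u) ∧ (∀ y, 0 < C y) ∧
    (∀ y, C y ^ 2 - 2 * (1 - ⟪n y, z y⟫) + (1 - 2 * ⟪n y, z y⟫ + dz T p z y ^ 2) / C y ^ 2
      ≤ 4 * lam y) ∧
    ∀ y, XV M i l u (sh m T p z y) (dz T p z y)
      + YV M j l u η (sh m T p z y) (dz T p z y) (lam y) ≤ H y

/-- the assembly over the grid, from level bounds on the cells -/
theorem lev_cells (hm : 17 ≤ m) {l : ℝ → ℝ} {I : ℕ → ℝ} (hI0 : ∀ c < 80, 0 ≤ I c)
    (hlev : ∀ c < 80, ∀ T ∈ Ioo (0 : ℝ) 1, ((tQ c : ℚ) : ℝ) < T → T ≤ tQ (c + 1) →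
      √(1 - T ^ 2) ^ (m + 1) * E2 μ p n (TK m T (l T)) ≤ μ.real univ * (2 / m * I c)) :
    ∃ τ : ℝ → ℝ, IntervalIntegrable τ volume 0 1 ∧
      (∀ T ∈ Ioo (0 : ℝ) 1, (m + 1) * (m + 2) * T ^ 2 * rM m T / (1 - T ^ 2) / 2
        * E2 μ p n (TK m T (l T)) ≤ τ T * (μ.real univ) ^ 2) ∧
      (0 < μ.real univ → (∫ T in (0 : ℝ)..1, τ T) * μ.real univ
        = cM m * (2 * ∑ c ∈ Finset.range 80, wQ c * I c)) := by
  have hm' : (17 : ℝ) ≤ m := by exact_mod_cast hm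
  have hm0 : (0 : ℝ) < m := by linarith
  have hA : 0 ≤ μ.real univ := measureReal_nonneg
  rcases hA.eq_or_lt with h0 | h0
  · have hz' : μ = 0 := by
      have := (measureReal_eq_zero_iff (measure_ne_top μ univ)).1 h0.symm
      exact Measure.measure_univ_eq_zero.1 this
    refine ⟨fun _ => 0, by simp, fun T hT => ?_, fun h => absurd h0.symm h.ne'⟩
    have e0 : E2 μ p n (TK m T (l T)) = 0 := by
      unfold E2
      rw [hz']
      simp
    rw [e0, ← h0]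
    simp
  · have hΦ : ∀ c < 80, ∀ T ∈ Ioo (0 : ℝ) 1, ((tQ c : ℚ) : ℝ) < T → T ≤ tQ (c + 1) →
        m * (√(1 - T ^ 2) ^ (m + 1) * E2 μ p n (TK m T (l T))) / ((μ.real univ) ^ 2)
          ≤ 2 * I c / μ.real univ := by
      intro c hc T hT hT1 hT2
      have h := hlev c hc T hT hT1 hT2
      rw [div_le_div_iff₀ (by positivity) h0]
      have h12 := mul_le_mul_of_nonneg_left h hm0.le
      have e : (m : ℝ) * (μ.real univ * (2 / m * I c)) = μ.real univ * (2 * I c) := by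
        field_simp
      rw [e] at h12
      have h13 := mul_le_mul_of_nonneg_right h12 h0.le
      nlinarith
    have hφ0 : ∀ c < 80, 0 ≤ 2 * I c / μ.real univ := fun c hc => by
      have := hI0 c hc
      positivity
    obtain ⟨τ, i1, i2, i3⟩ := tau_grid hm (φ := fun c => 2 * I c / μ.real univ)
      (Φ := fun T => m * (√(1 - T ^ 2) ^ (m + 1) * E2 μ p n (TK m T (l T))) / ((μ.real univ) ^ 2))
      hφ0 hΦ
    refine ⟨τ, i1, fun T hT => ?_, fun _ => ?_⟩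
    · refine htau_of hm hT (sq_nonneg _) (le_of_eq ?_) (i2 T hT)
      field_simp
    · rw [i3, mul_assoc]
      congr 1
      rw [Finset.sum_mul, Finset.mul_sum]
      refine Finset.sum_congr rfl fun c hc => ?_
      field_simp

/-- the assembly over the grid -/
theorem tl_cells (h2 : Two μ m p n) {M : ℕ → ℝ} (hM : MomB μ m p M) (hM0 : ∀ q, 0 ≤ M q)
    (hm : 17 ≤ m) (hz : Measurable z) {B : ℝ} (hB : ∀ x, ‖z x‖ ≤ B)
    (hsym : ∀ x y, ⟪n x, p y⟫ - ⟪p x, n y⟫ = ⟪z x, p y⟫ - ⟪p x, z y⟫)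
    {l : ℝ → ℝ} {H : ℕ → X → ℝ} (hHi : ∀ c < 80, Integrable (H c) μ)
    (hH0 : ∀ c < 80, 0 ≤ ∫ y, H c y ∂μ)
    (hcell : ∀ c < 80, ∀ T ∈ Ioo (0 : ℝ) 1, ((tQ c : ℚ) : ℝ) < T → T ≤ tQ (c + 1) →
      LevOK m M p n z T (l T) (H c)) :
    ∃ τ : ℝ → ℝ, IntervalIntegrable τ volume 0 1 ∧
      (∀ T ∈ Ioo (0 : ℝ) 1, (m + 1) * (m + 2) * T ^ 2 * rM m T / (1 - T ^ 2) / 2
        * E2 μ p n (TK m T (l T)) ≤ τ T * (μ.real univ) ^ 2) ∧
      (0 < μ.real univ → (∫ T in (0 : ℝ)..1, τ T) * μ.real univ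
        = cM m * (2 * ∑ c ∈ Finset.range 80, wQ c * ∫ y, H c y ∂μ)) := by
  refine lev_cells hm hH0 fun c hc T hT hT1 hT2 => ?_
  have hT' : T ∈ Ico (0 : ℝ) 1 := ⟨hT.1.le, hT.2⟩
  rcases hcell c hc T hT hT1 hT2 with h | ⟨l', u, η, i, j, C, lam, h1, h3, h4, h5, h6, h7, h8, h9⟩
  · rw [E2_TK_eq_zero h2 hT' h, mul_zero]
    have := hH0 c hc
    positivity
  · have h10 := tl_level h2 hM hM0 (by omega) hz hB hsym hT' h1 h4 h5 h6 i j h7 h8 (hHi c hc) h9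
    have h11 := E2_TK_anti (m := m) h2 hT' h3
    have hk : 0 < 1 - T ^ 2 := by nlinarith [hT.1, hT.2]
    have hs := Real.sqrt_pos.2 hk
    exact (mul_le_mul_of_nonneg_left h11 (pow_pos hs (m + 1)).le).trans h10

end

end Vale.Agent.P224.R2.H484
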