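import Vale.Agent.P224.R2.H484.TlA

/-!
The one point function of the relative tail bound: variables `a = |z|^2`, `q = |J p|^2 - 1` with
`J p = n - z`, `φ = √m |<z, p>|`, and `Z ≥ T / √(1 - T^2)` on the cell.
-/

namespace Vale.Agent.P224.R2.H484

open MeasureTheory Set Function Module Vale.Agent.P224 Vale.Agent.P224.SM2
  Vale.Agent.P224.R2.H869 Vale.Agent.P224.R2.H582 Vale.Agent.P224.R2.H820
  Vale.Agent.P224.R2.H876 Vale.Agent.P224.R2.H728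
open scoped RealInnerProductSpace

set_option linter.unusedSectionVars false

section mono

variable {M : ℕ → ℝ}

lemma mp2_mono (hM0 : ∀ q, 0 ≤ M q) (q : ℕ) {s s' d d' : ℝ} (hs : 0 ≤ s) (hss : s ≤ s')
    (hd : 0 ≤ d) (hdd : d ≤ d') : mp2 M q s d ≤ mp2 M q s' d' := by
  unfold mp2
  have h0 := hM0 q
  have h1 := hM0 (q + 1)
  have h2 := hM0 (q + 2)
  have hs' := hs.trans hss
  have hd' := hd.trans hdd
  gcongr

lemma mp2_nonneg (hM0 : ∀ q, 0 ≤ M q) (q : ℕ) {s d : ℝ} (hs : 0 ≤ s) (hd : 0 ≤ d) :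
    0 ≤ mp2 M q s d := by
  unfold mp2
  have h0 := hM0 q
  have h1 := hM0 (q + 1)
  have h2 := hM0 (q + 2)
  positivity

lemma cc_nonneg (j : ℕ) : 0 ≤ cc j := by
  unfold cc
  positivity

lemma XV_mono (hM0 : ∀ q, 0 ≤ M q) (j : ℕ) {l u s s' d d' : ℝ} (hl : 0 < l) (hs : 0 ≤ s)
    (hss : s ≤ s') (hd : 0 ≤ d) (hdd : d ≤ d') : XV M j l u s d ≤ XV M j l u s' d' := by
  unfold XV
  have h1 := cc_nonneg j
  exact mul_le_mul_of_nonneg_left (mp2_mono hM0 _ hs hss hd hdd) (by positivity)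

lemma YV_mono (hM0 : ∀ q, 0 ≤ M q) (j : ℕ) {l u η s s' d d' lam : ℝ} (hl : 0 < l) (hu : 0 ≤ u)
    (hs : 0 ≤ s) (hss : s ≤ s') (hd : 0 ≤ d) (hdd : d ≤ d') (hlam : 0 ≤ lam) :
    YV M j l u η s d lam ≤ YV M j l u η s' d' lam := by
  unfold YV
  have h1 := cc_nonneg j
  refine mul_le_mul_of_nonneg_left (Finset.sum_le_sum fun i _ => ?_) (by positivity)
  have h2 := mp2_mono hM0 (j + 1 + i) hs hss hd hdd
  have h3 := mp2_nonneg hM0 (j + 1 + i) hs hd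
  have h4 : (s + u) ^ (j + 1 - i) ≤ (s' + u) ^ (j + 1 - i) :=
    pow_le_pow_left₀ (by linarith) (by linarith) _
  have h5 : 0 ≤ (s + u) ^ (j + 1 - i) := pow_nonneg (by linarith) _
  have h6 : 0 ≤ (s' + u) ^ (j + 1 - i) := h5.trans h4
  refine mul_le_mul (mul_le_mul_of_nonneg_left (mul_le_mul_of_nonneg_left h4 (by positivity))
    (by positivity)) h2 h3 (mul_nonneg (by positivity) (mul_nonneg (by positivity) h6))

end mono

/-- `lam` as a function of `a`, `q` and `w = (Z φ)^2 / m` -/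
noncomputable def lamF (a q w : ℝ) : ℝ := (a - q ^ 2 / (4 + 2 * q) + w / (1 + q / 2)) / 4

/-- the one point function of a cell -/
noncomputable def HC (M : ℕ → ℝ) (m : ℕ) (Z l u η : ℝ) (i j : ℕ) (a q φ : ℝ) : ℝ :=
  XV M i l u (Z * φ) (√(a + (Z * φ) ^ 2 / m))
    + YV M j l u η (Z * φ) (√(a + (Z * φ) ^ 2 / m)) (lamF a q ((Z * φ) ^ 2 / m))

section

variable {X : Type*} {E : Type*} [NormedAddCommGroup E] [InnerProductSpace ℝ E]
  {m : ℕ} {p n z : X → E}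

/-- the square of the residual -/
noncomputable def aF (z : X → E) (y : X) : ℝ := ‖z y‖ ^ 2

/-- `|J p|^2 - 1` -/
noncomputable def qF (n z : X → E) (y : X) : ℝ := ‖z y‖ ^ 2 - 2 * ⟪n y, z y⟫

/-- `√m |<z, p>|` -/
noncomputable def phF (m : ℕ) (p z : X → E) (y : X) : ℝ := √m * |⟪z y, p y⟫|

lemma qF_facts (hn : ∀ y, ‖n y‖ = 1) (y : X) :
    0 ≤ 1 + qF n z y ∧ (aF z y - qF n z y) ^ 2 ≤ 4 * aF z y ∧ 0 ≤ aF z y := by
  have h1 : 1 + qF n z y = ‖n y - z y‖ ^ 2 := by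
    unfold qF
    rw [norm_sub_sq_real, hn y]
    ring
  have h2 : |⟪n y, z y⟫| ≤ ‖z y‖ := by
    have := abs_real_inner_le_norm (n y) (z y)
    rwa [hn y, one_mul] at this
  have h3 : ⟪n y, z y⟫ ^ 2 ≤ ‖z y‖ ^ 2 := by
    rw [← sq_abs]
    exact pow_le_pow_left₀ (abs_nonneg _) h2 2
  refine ⟨by rw [h1]; positivity, ?_, by unfold aF; positivity⟩
  unfold aF qF
  nlinarith

lemma lam0_nonneg {a q : ℝ} (h1 : 0 ≤ 1 + q) (h2 : (a - q) ^ 2 ≤ 4 * a) :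
    0 ≤ a - q ^ 2 / (4 + 2 * q) := by
  rw [sub_nonneg, div_le_iff₀ (by linarith)]
  nlinarith [sq_nonneg a]

lemma lam_id {a q w : ℝ} (h : 0 < 1 + q / 2) :
    1 + q / 2 - 2 * (1 - (a - q) / 2) + (1 - 2 * ((a - q) / 2) + (a + w)) / (1 + q / 2)
      = a - q ^ 2 / (4 + 2 * q) + w / (1 + q / 2) := by
  obtain ⟨D, rfl⟩ : ∃ D, q = 2 * (D - 1) := ⟨1 + q / 2, by ring⟩
  have e : 1 + 2 * (D - 1) / 2 = D := by ring
  rw [e] at h ⊢
  rw [show 4 + 2 * (2 * (D - 1)) = 4 * D by ring]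
  have := h.ne'
  field_simp
  ring

/-- the level condition on a cell -/
theorem levOK_of_cell {M : ℕ → ℝ} (hM0 : ∀ q, 0 ≤ M q) (hm : 1 ≤ m) (hn : ∀ y, ‖n y‖ = 1)
    {T lT Z l u η : ℝ} {i j : ℕ} (hT : T ∈ Ioo (0 : ℝ) 1) (hZ : T / √(1 - T ^ 2) ≤ Z)
    (hl : 0 < l) (hlT : l ≤ lT) (hu : 0 < u) (hη : 0 ≤ η) (hηu : u ≤ η * (2 * √l - u))
    {H : X → ℝ} (hH : ∀ y, HC M m Z l u η i j (aF z y) (qF n z y) (phF m p z y) ≤ H y) :
    LevOK m M p n z T lT H := by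
  have hm0 : (0 : ℝ) < m := by exact_mod_cast hm
  have hk : 0 < 1 - T ^ 2 := by nlinarith [hT.1, hT.2]
  have hsk := Real.sqrt_pos.2 hk
  have hZ0 : 0 ≤ T / √(1 - T ^ 2) := div_nonneg hT.1.le hsk.le
  refine Or.inr ⟨l, u, η, i, j, fun y => √(1 + qF n z y / 2),
    fun y => lamF (aF z y) (qF n z y) ((Z * phF m p z y) ^ 2 / m), hl, hlT, hu, hη, hηu,
    fun y => ?_, fun y => ?_, fun y => ?_⟩
  · have h := (qF_facts (z := z) hn y).1
    exact Real.sqrt_pos.2 (by linarith)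
  · obtain ⟨h1, h2, h3⟩ := qF_facts (z := z) hn y
    have hC : 0 < 1 + qF n z y / 2 := by linarith
    rw [Real.sq_sqrt hC.le]
    have hd : dz T p z y ^ 2 = aF z y + (T / √(1 - T ^ 2)) ^ 2 * ⟪z y, p y⟫ ^ 2 := by
      unfold dz aF
      rw [Real.sq_sqrt (by
        have : 0 ≤ T ^ 2 / (1 - T ^ 2) := div_nonneg (sq_nonneg T) hk.le
        positivity), div_pow, Real.sq_sqrt hk.le]
    have hw : (T / √(1 - T ^ 2)) ^ 2 * ⟪z y, p y⟫ ^ 2 ≤ (Z * phF m p z y) ^ 2 / m := by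
      unfold phF
      rw [mul_pow Z, mul_pow √(m : ℝ), Real.sq_sqrt hm0.le, sq_abs]
      have e : Z ^ 2 * (m * ⟪z y, p y⟫ ^ 2) / m = Z ^ 2 * ⟪z y, p y⟫ ^ 2 := by field_simp
      rw [e]
      gcongr
    rw [hd]
    set a := aF z y
    set q := qF n z y with hq
    set w := (Z * phF m p z y) ^ 2 / m
    set w' := (T / √(1 - T ^ 2)) ^ 2 * ⟪z y, p y⟫ ^ 2
    have hc : ⟪n y, z y⟫ = (a - q) / 2 := by
      rw [hq]
      unfold qF
      simp only [a, aF]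
      ring
    rw [hc]
    have e1 : 4 * lamF a q w = a - q ^ 2 / (4 + 2 * q) + w / (1 + q / 2) := by unfold lamF; ring
    rw [e1]
    have e2 : 1 + q / 2 - 2 * (1 - (a - q) / 2) + (1 - 2 * ((a - q) / 2) + (a + w')) / (1 + q / 2)
        = a - q ^ 2 / (4 + 2 * q) + w' / (1 + q / 2) := lam_id hC
    rw [e2]
    have h7 : w' / (1 + q / 2) ≤ w / (1 + q / 2) := div_le_div_of_nonneg_right hw hC.le
    linarith
  · obtain ⟨h1, h2, h3⟩ := qF_facts (z := z) hn y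
    refine le_trans ?_ (hH y)
    have hT0 : 0 < T := hT.1
    have hs0 : 0 ≤ sh m T p z y := by unfold sh; positivity
    have hs : sh m T p z y ≤ Z * phF m p z y := by
      unfold sh phF
      have e : √(m : ℝ) * (T * |⟪z y, p y⟫| / √(1 - T ^ 2))
          = T / √(1 - T ^ 2) * (√m * |⟪z y, p y⟫|) := by ring
      rw [e]
      exact mul_le_mul_of_nonneg_right hZ (by positivity)
    have hd0 : 0 ≤ dz T p z y := Real.sqrt_nonneg _
    have hd : dz T p z y ≤ √(aF z y + (Z * phF m p z y) ^ 2 / m) := by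
      unfold dz
      apply Real.sqrt_le_sqrt
      unfold aF phF
      rw [mul_pow Z, mul_pow √(m : ℝ), Real.sq_sqrt hm0.le, sq_abs]
      have e : Z ^ 2 * (m * ⟪z y, p y⟫ ^ 2) / m = Z ^ 2 * ⟪z y, p y⟫ ^ 2 := by field_simp
      rw [e]
      have h4 : T ^ 2 / (1 - T ^ 2) ≤ Z ^ 2 := by
        have := pow_le_pow_left₀ hZ0 hZ 2
        rwa [div_pow, Real.sq_sqrt hk.le] at this
      have := mul_le_mul_of_nonneg_right h4 (sq_nonneg ⟪z y, p y⟫)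
      linarith
    have hlam : 0 ≤ lamF (aF z y) (qF n z y) ((Z * phF m p z y) ^ 2 / m) := by
      unfold lamF
      have h5 := lam0_nonneg h1 h2
      have h6 : 0 ≤ (Z * phF m p z y) ^ 2 / m / (1 + qF n z y / 2) :=
        div_nonneg (by positivity) (by linarith)
      linarith
    unfold HC
    exact add_le_add (XV_mono hM0 i hl hs0 hs hd0 hd) (YV_mono hM0 j hl hu.le hs0 hs hd0 hd hlam)

/-- the value of `Z` on a cell -/
def zQ (c : ℕ) : ℚ := tQ (c + 1) / kQ (c + 1)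

lemma zQ_ge {c : ℕ} (hc : c < 79) {T : ℝ} (hT : T ∈ Ioo (0 : ℝ) 1)
    (hT1 : ((tQ c : ℚ) : ℝ) < T) (hT2 : T ≤ tQ (c + 1)) :
    T / √(1 - T ^ 2) ≤ ((zQ c : ℚ) : ℝ) := by
  have h1 := (k_cell (by omega : c < 80) hT1 hT2).1
  have hk : (0 : ℝ) < ((kQ (c + 1) : ℚ) : ℝ) := by
    unfold kQ
    push_cast
    have h : (c : ℝ) < 79 := by exact_mod_cast hc
    have h0 : (0 : ℝ) ≤ c := by positivity
    apply div_pos
    · nlinarith
    · positivity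
  have h2 : ((kQ (c + 1) : ℚ) : ℝ) ≤ √(1 - T ^ 2) := Real.le_sqrt_of_sq_le h1
  unfold zQ
  push_cast
  have h3 : (0 : ℝ) ≤ ((tQ (c + 1) : ℚ) : ℝ) := hT.1.le.trans hT2
  exact div_le_div₀ h3 hT2 hk h2

end

end Vale.Agent.P224.R2.H484
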