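import Vale.Agent.P224.R2.H484.AbsH
import Vale.Agent.P224.R2.H876.Tl2
import Vale.Agent.P224.R2.H582.Conv

/-!
The relative tail bound, integrated over the levels of a grid: the one point function of `tl_level2`.
-/

namespace Vale.Agent.P224.R2.H484

open MeasureTheory Set Function Module Vale.Agent.P224 Vale.Agent.P224.SM2
  Vale.Agent.P224.R2.H869 Vale.Agent.P224.R2.H582 Vale.Agent.P224.R2.H820
  Vale.Agent.P224.R2.H876 Vale.Agent.P224.R2.H728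
open scoped RealInnerProductSpace

set_option linter.unusedSectionVars false

section mono

variable {M : ℕ → ℝ}

lemma mp2_mono' (hM0 : ∀ q, 0 ≤ M q) (q : ℕ) {s s' d d' : ℝ} (hs : 0 ≤ s) (hss : s ≤ s')
    (hd : 0 ≤ d) (hdd : d ≤ d') : mp2 M q s d ≤ mp2 M q s' d' := by
  unfold mp2
  have h0 := hM0 q
  have h1 := hM0 (q + 1)
  have h2 := hM0 (q + 2)
  have hs' := hs.trans hss
  have hd' := hd.trans hdd
  gcongr

lemma mp2_nonneg' (hM0 : ∀ q, 0 ≤ M q) (q : ℕ) {s d : ℝ} (hs : 0 ≤ s) (hd : 0 ≤ d) :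
    0 ≤ mp2 M q s d := by
  unfold mp2
  have h0 := hM0 q
  have h1 := hM0 (q + 1)
  have h2 := hM0 (q + 2)
  positivity

lemma cc_nonneg' (j : ℕ) : 0 ≤ cc j := by
  unfold cc
  positivity

lemma YV2_mono (hM0 : ∀ q, 0 ≤ M q) (j : ℕ) {l K s s' d d' : ℝ} (hl : 0 < l) (hK : 0 ≤ K)
    (hs : 0 ≤ s) (hss : s ≤ s') (hd : 0 ≤ d) (hdd : d ≤ d') :
    YV2 M j l K s d ≤ YV2 M j l K s' d' := by
  unfold YV2
  have h1 := cc_nonneg' j
  refine mul_le_mul_of_nonneg_left (Finset.sum_le_sum fun i _ => ?_) (by positivity)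
  have h2 := mp2_mono' hM0 (j + 1 + i) hs hss hd hdd
  have h3 := mp2_nonneg' hM0 (j + 1 + i) hs hd
  have h4 : s ^ (j + 1 - i) ≤ s' ^ (j + 1 - i) := pow_le_pow_left₀ hs hss _
  have h5 : (d ^ 2 / 4) ^ i ≤ (d' ^ 2 / 4) ^ i := by
    refine pow_le_pow_left₀ (by positivity) ?_ _
    have := pow_le_pow_left₀ hd hdd 2
    linarith
  have h6 : 0 ≤ s' := hs.trans hss
  have h7 : 0 ≤ d' := hd.trans hdd
  gcongr

lemma YV2_nonneg (hM0 : ∀ q, 0 ≤ M q) (j : ℕ) {l K s d : ℝ} (hl : 0 < l) (hK : 0 ≤ K)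
    (hs : 0 ≤ s) (hd : 0 ≤ d) : 0 ≤ YV2 M j l K s d := by
  unfold YV2
  have h1 := cc_nonneg' j
  refine mul_nonneg (by positivity) (Finset.sum_nonneg fun i _ => ?_)
  have h3 := mp2_nonneg' hM0 (j + 1 + i) hs hd
  positivity

lemma ZV_mono (hM0 : ∀ q, 0 ≤ M q) (i i' : ℕ) {l η β s s' d d' : ℝ} (hl : 0 < l) (hβ : 0 < β)
    (hs : 0 ≤ s) (hss : s ≤ s') (hd : 0 ≤ d) (hdd : d ≤ d') :
    ZV M i i' l η β s d ≤ ZV M i i' l η β s' d' := by
  unfold ZV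
  have h1 := cc_nonneg' i
  have h1' := cc_nonneg' i'
  exact add_le_add
    (mul_le_mul_of_nonneg_left (mp2_mono' hM0 _ hs hss hd hdd) (by positivity))
    (mul_le_mul_of_nonneg_left (mp2_mono' hM0 _ hs hss hd hdd) (by positivity))

lemma ZV_nonneg (hM0 : ∀ q, 0 ≤ M q) (i i' : ℕ) {l η β s d : ℝ} (hl : 0 < l) (hβ : 0 < β)
    (hs : 0 ≤ s) (hd : 0 ≤ d) : 0 ≤ ZV M i i' l η β s d := by
  unfold ZV
  have h1 := cc_nonneg' i
  have h1' := cc_nonneg' i'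
  exact add_nonneg (mul_nonneg (by positivity) (mp2_nonneg' hM0 _ hs hd))
    (mul_nonneg (by positivity) (mp2_nonneg' hM0 _ hs hd))

end mono

/-- the parameters of the smooth cut -/
structure Cut where
  η : ℝ
  β : ℝ
  K : ℝ
  j : ℕ
  i : ℕ
  i' : ℕ

/-- admissible parameters -/
structure Cut.Ok (C : Cut) : Prop where
  η0 : 0 < C.η
  η1 : C.η < 1
  β0 : 0 < C.β
  K0 : 0 ≤ C.K
  K1 : ∀ ρ, 0 ≤ ρ → ρ ≤ C.η → 1 - ρ ^ 2 / C.η ^ 2 ≤ C.K * (1 - ρ) ^ (2 * C.j + 4)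

/-- the one point function at a level: `Z` bounds `T / √(1 - T^2)`, `ω` bounds its square over `m` -/
noncomputable def HC2 (M : ℕ → ℝ) (C : Cut) (Z ω l a φ : ℝ) : ℝ :=
  YV2 M C.j l C.K (Z * φ) (√(a + ω * φ ^ 2)) + ZV M C.i C.i' l C.η C.β (Z * φ) (√(a + ω * φ ^ 2))

lemma HC2_nonneg {M : ℕ → ℝ} (hM0 : ∀ q, 0 ≤ M q) {C : Cut} (hC : C.Ok) {Z ω l a φ : ℝ}
    (hZ : 0 ≤ Z) (hl : 0 < l) (hφ : 0 ≤ φ) : 0 ≤ HC2 M C Z ω l a φ :=
  add_nonneg (YV2_nonneg hM0 _ hl hC.K0 (mul_nonneg hZ hφ) (Real.sqrt_nonneg _))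
    (ZV_nonneg hM0 _ _ hl hC.β0 (mul_nonneg hZ hφ) (Real.sqrt_nonneg _))

lemma mp2_scale {M : ℕ → ℝ} (hM0 : ∀ q, 0 ≤ M q) (q : ℕ) {r s d : ℝ} (hr : 1 ≤ r) (hs : 0 ≤ s)
    (hd : 0 ≤ d) : mp2 M q (r * s) d ≤ r ^ 2 * mp2 M q s d := by
  unfold mp2
  have h0 := hM0 q
  have h1 := hM0 (q + 1)
  have h2 := hM0 (q + 2)
  have hr0 : 0 ≤ r := by linarith
  have e1 : M (q + 2) * d ^ 2 ≤ r ^ 2 * (M (q + 2) * d ^ 2) := by
    have h3 : 0 ≤ M (q + 2) * d ^ 2 := by positivity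
    nlinarith [one_le_pow₀ hr (n := 2)]
  have e2 : 2 * (r * s) * (M (q + 1) * d) ≤ r ^ 2 * (2 * s * (M (q + 1) * d)) := by
    have h3 : 0 ≤ 2 * s * (M (q + 1) * d) := by positivity
    have h4 : r ≤ r ^ 2 := by nlinarith
    calc 2 * (r * s) * (M (q + 1) * d) = r * (2 * s * (M (q + 1) * d)) := by ring
      _ ≤ _ := mul_le_mul_of_nonneg_right h4 h3
  have e3 : (r * s) ^ 2 * M q = r ^ 2 * (s ^ 2 * M q) := by ring
  rw [e3]
  linarith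

lemma YV2_scale {M : ℕ → ℝ} (hM0 : ∀ q, 0 ≤ M q) {j : ℕ} (hj : 3 ≤ j) {l K r s d : ℝ}
    (hl : 0 < l) (hK : 0 ≤ K) (hr : 1 ≤ r) (hs : 0 ≤ s) (hd : 0 ≤ d) :
    YV2 M j (r ^ 2 * l) K (r * s) d ≤ YV2 M j l K s d := by
  have hr0 : 0 < r := by linarith
  unfold YV2
  have h1 := cc_nonneg' j
  rw [mul_pow, ← pow_mul]
  have e : K * (cc j / (r ^ (2 * j) * l ^ j)) * ∑ i ∈ Finset.range (j + 2),
      ((j + 1).choose i : ℝ) * ((d ^ 2 / 4) ^ i * (r * s) ^ (j + 1 - i)) * mp2 M (j + 1 + i) (r * s) d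
      = K * (cc j / l ^ j) * ∑ i ∈ Finset.range (j + 2), (((j + 1).choose i : ℝ)
        * ((d ^ 2 / 4) ^ i * (r * s) ^ (j + 1 - i)) * mp2 M (j + 1 + i) (r * s) d) / r ^ (2 * j) := by
    rw [← Finset.sum_div]
    field_simp
  rw [e]
  refine mul_le_mul_of_nonneg_left (Finset.sum_le_sum fun i hi => ?_) (by positivity)
  rw [div_le_iff₀ (by positivity), mul_pow]
  have h2 := mp2_scale hM0 (j + 1 + i) hr hs hd
  have h3 := mp2_nonneg' hM0 (j + 1 + i) hs hd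
  have h4 : r ^ (j + 1 - i) * r ^ 2 ≤ r ^ (2 * j) := by
    rw [← pow_add]
    exact pow_le_pow_right₀ hr (by omega)
  calc ((j + 1).choose i : ℝ) * ((d ^ 2 / 4) ^ i * (r ^ (j + 1 - i) * s ^ (j + 1 - i)))
        * mp2 M (j + 1 + i) (r * s) d
      ≤ ((j + 1).choose i : ℝ) * ((d ^ 2 / 4) ^ i * (r ^ (j + 1 - i) * s ^ (j + 1 - i)))
        * (r ^ 2 * mp2 M (j + 1 + i) s d) := mul_le_mul_of_nonneg_left h2 (by positivity)
    _ = ((j + 1).choose i : ℝ) * ((d ^ 2 / 4) ^ i * s ^ (j + 1 - i)) * mp2 M (j + 1 + i) s d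
        * (r ^ (j + 1 - i) * r ^ 2) := by ring
    _ ≤ _ := mul_le_mul_of_nonneg_left h4 (by positivity)

lemma ZV_scale {M : ℕ → ℝ} (hM0 : ∀ q, 0 ≤ M q) {i i' : ℕ} (hi : 1 ≤ i) (hi' : 1 ≤ i')
    {l η β r s d : ℝ} (hl : 0 < l) (hβ : 0 < β) (hr : 1 ≤ r) (hs : 0 ≤ s) (hd : 0 ≤ d) :
    ZV M i i' (r ^ 2 * l) η β (r * s) d ≤ ZV M i i' l η β s d := by
  have hr0 : 0 < r := by linarith
  have key : ∀ (a : ℝ) (i q : ℕ), 0 ≤ a → 1 ≤ i →
      a * (cc i / (r ^ 2 * l) ^ i) * mp2 M q (r * s) d ≤ a * (cc i / l ^ i) * mp2 M q s d := by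
    intro a i q ha hi
    have h1 := cc_nonneg' i
    have h2 := mp2_scale hM0 q hr hs hd
    have h3 := mp2_nonneg' hM0 q hs hd
    have h4 : r ^ 2 ≤ r ^ (2 * i) := pow_le_pow_right₀ hr (by omega)
    have h5 : mp2 M q (r * s) d ≤ r ^ (2 * i) * mp2 M q s d :=
      h2.trans (mul_le_mul_of_nonneg_right h4 h3)
    rw [mul_pow, ← pow_mul]
    calc a * (cc i / (r ^ (2 * i) * l ^ i)) * mp2 M q (r * s) d
        ≤ a * (cc i / (r ^ (2 * i) * l ^ i)) * (r ^ (2 * i) * mp2 M q s d) :=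
          mul_le_mul_of_nonneg_left h5 (by positivity)
      _ = _ := by field_simp
  unfold ZV
  exact add_le_add (key _ i _ (by positivity) hi) (key _ i' _ (by positivity) hi')

lemma HC2_scale {M : ℕ → ℝ} (hM0 : ∀ q, 0 ≤ M q) {C : Cut} (hC : C.Ok) (hj : 3 ≤ C.j)
    (hi : 1 ≤ C.i) (hi' : 1 ≤ C.i') {Z ω l a φ r : ℝ} (hZ : 0 ≤ Z) (hl : 0 < l) (hφ : 0 ≤ φ)
    (hr : 1 ≤ r) : HC2 M C (r * Z) ω (r ^ 2 * l) a φ ≤ HC2 M C Z ω l a φ := by
  unfold HC2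
  rw [mul_assoc r]
  exact add_le_add (YV2_scale hM0 hj hl hC.K0 hr (mul_nonneg hZ hφ) (Real.sqrt_nonneg _))
    (ZV_scale hM0 hi hi' hl hC.β0 hr (mul_nonneg hZ hφ) (Real.sqrt_nonneg _))

section bm

variable {Ω : Type*} [MeasurableSpace Ω] {f g : Ω → ℝ}

lemma bm_sqrt (hf : BM f) : BM (fun ω => √(f ω)) := by
  obtain ⟨h1, C, h2⟩ := hf
  refine ⟨h1.sqrt, √C, fun ω => ?_⟩
  rw [abs_of_nonneg (Real.sqrt_nonneg _)]
  exact Real.sqrt_le_sqrt ((le_abs_self _).trans (h2 ω))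

lemma bm_mp2 (hf : BM f) (hg : BM g) (M : ℕ → ℝ) (q : ℕ) : BM (fun ω => mp2 M q (f ω) (g ω)) := by
  unfold mp2
  have h1 := ((hg.pow 2).const_mul (M (q + 2)))
  have h2 := (hf.const_mul 2).mul (hg.const_mul (M (q + 1)))
  have h3 := (hf.pow 2).mul (BM.const (M q))
  exact (h1.add h2).add h3

lemma bm_HC2 (hf : BM f) (hg : BM g) (M : ℕ → ℝ) (C : Cut) (Z ω l : ℝ) :
    BM (fun x => HC2 M C Z ω l (f x) (g x)) := by
  have hs : BM (fun x => Z * g x) := hg.const_mul Z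
  have hd : BM (fun x => √(f x + ω * g x ^ 2)) := bm_sqrt (hf.add ((hg.pow 2).const_mul ω))
  unfold HC2 YV2 ZV
  refine BM.add (BM.const_mul (BM.sum _ fun i _ => ?_) _) (BM.add ?_ ?_)
  · have h1 : BM (fun x => (√(f x + ω * g x ^ 2) ^ 2 / 4) ^ i) := (bm_div (hd.pow 2) 4).pow i
    have h2 := hs.pow (C.j + 1 - i)
    have h3 := bm_mp2 hs hd M (C.j + 1 + i)
    exact ((h1.mul h2).const_mul _).mul h3
  · exact (bm_mp2 hs hd M (2 * C.i + 2)).const_mul _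
  · exact (bm_mp2 hs hd M (2 * C.i' + 2)).const_mul _

end bm

section

variable {X : Type*} [MeasurableSpace X] {E : Type*} [NormedAddCommGroup E]
  [InnerProductSpace ℝ E] [MeasurableSpace E] [BorelSpace E] [SecondCountableTopology E]
  {μ : Measure X} [IsFiniteMeasure μ] {m : ℕ} {p n z : X → E}

/-- the square of the residual -/
noncomputable def aG (z : X → E) (y : X) : ℝ := ‖z y‖ ^ 2

/-- `√m |<z, p>|` -/
noncomputable def pG (m : ℕ) (p z : X → E) (y : X) : ℝ := √m * |⟪z y, p y⟫|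

lemma pG_nonneg (y : X) : 0 ≤ pG m p z y := by unfold pG; positivity

lemma bm_aG (hz : Measurable z) {B : ℝ} (hB : ∀ x, ‖z x‖ ≤ B) : BM (aG z) := by
  refine ⟨hz.norm.pow_const 2, B ^ 2, fun x => ?_⟩
  unfold aG
  rw [abs_of_nonneg (by positivity)]
  exact pow_le_pow_left₀ (norm_nonneg _) (hB x) 2

lemma bm_pG (hp : FV.Pts p n) (hz : Measurable z) {B : ℝ} (hB : ∀ x, ‖z x‖ ≤ B) :
    BM (pG m p z) := by
  have h := bm_inner hz hp.mp hB (fun q => (hp.np q).le)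
  exact (bm_abs h).const_mul √m

/-- the level bound with the one point function -/
theorem lev2 (h2 : Two μ m p n) {M : ℕ → ℝ} (hM : MomB μ m p M) (hM0 : ∀ q, 0 ≤ M q)
    (hm : 1 ≤ m) (hz : Measurable z) {B : ℝ} (hB : ∀ x, ‖z x‖ ≤ B)
    (hsym : ∀ x y, ⟪n x, p y⟫ - ⟪p x, n y⟫ = ⟪z x, p y⟫ - ⟪p x, z y⟫) {C : Cut} (hC : C.Ok)
    {T lT Z ω l : ℝ} (hT : T ∈ Ioo (0 : ℝ) 1) (hZ : T / √(1 - T ^ 2) ≤ Z)
    (hω : T ^ 2 / (1 - T ^ 2) / m ≤ ω) (hl : 0 < l) (hlT : l ≤ lT) :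
    √(1 - T ^ 2) ^ (m + 1) * E2 μ p n (TK m T lT)
      ≤ μ.real univ * (2 / m * ∫ y, HC2 M C Z ω l (aG z y) (pG m p z y) ∂μ) := by
  have hT' : T ∈ Ico (0 : ℝ) 1 := ⟨hT.1.le, hT.2⟩
  have hm0 : (0 : ℝ) < m := by exact_mod_cast hm
  have hk : 0 < 1 - T ^ 2 := by nlinarith [hT.1, hT.2]
  have hsk := Real.sqrt_pos.2 hk
  have hT0 : 0 < T := hT.1
  have hH : ∀ y, YV2 M C.j l C.K (sh m T p z y) (dz T p z y)
      + ZV M C.i C.i' l C.η C.β (sh m T p z y) (dz T p z y)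
        ≤ HC2 M C Z ω l (aG z y) (pG m p z y) := by
    intro y
    have hs0 : 0 ≤ sh m T p z y := by unfold sh; positivity
    have hs : sh m T p z y ≤ Z * pG m p z y := by
      unfold sh pG
      have e : √(m : ℝ) * (T * |⟪z y, p y⟫| / √(1 - T ^ 2))
          = T / √(1 - T ^ 2) * (√m * |⟪z y, p y⟫|) := by ring
      rw [e]
      exact mul_le_mul_of_nonneg_right hZ (by positivity)
    have hd0 : 0 ≤ dz T p z y := Real.sqrt_nonneg _
    have hd : dz T p z y ≤ √(aG z y + ω * pG m p z y ^ 2) := by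
      unfold dz
      apply Real.sqrt_le_sqrt
      unfold aG pG
      rw [mul_pow √(m : ℝ), Real.sq_sqrt hm0.le, sq_abs]
      have h3 : T ^ 2 / (1 - T ^ 2) ≤ ω * m := by
        rwa [div_le_iff₀ hm0] at hω
      have h4 := mul_le_mul_of_nonneg_right h3 (sq_nonneg ⟪z y, p y⟫)
      linarith
    exact add_le_add (YV2_mono hM0 _ hl hC.K0 hs0 hs hd0 hd)
      (ZV_mono hM0 _ _ hl hC.β0 hs0 hs hd0 hd)
  have hHi : Integrable (fun y => HC2 M C Z ω l (aG z y) (pG m p z y)) μ :=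
    (bm_HC2 (bm_aG hz hB) (bm_pG h2.toPts hz hB) M C Z ω l).int
  have h10 := tl_level2 h2 hM hm hz hB hsym hT' hl hC.η0 hC.η1 hC.β0 C.i C.i' (fun _ => C.j)
    (K := fun _ => C.K) (fun _ => hC.K0) (fun _ => hC.K1) hHi hH
  have h11 := E2_TK_anti (m := m) h2 hT' hlT
  exact (mul_le_mul_of_nonneg_left h11 (pow_pos hsk (m + 1)).le).trans h10

/-- the total one point function on a grid -/
noncomputable def Ftot (N : ℕ) (w : ℕ → ℚ) (M : ℕ → ℝ) (C : Cut) (m1 : ℕ) (Z ω l : ℕ → ℝ)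
    (act : ℕ → Bool) (a φ : ℝ) : ℝ :=
  cMQ m1 * (2 * ∑ c ∈ Finset.range N, w c * (if act c then HC2 M C (Z c) (ω c) (l c) a φ else 0))

/-- the relative tail: probability measures -/
theorem Grd.rel {N : ℕ} {t k w : ℕ → ℚ} (g : Grd N t k w) (h2 : Two μ m p n)
    (hμ : μ.real univ = 1) {M : ℕ → ℝ} (hM : MomB μ m p M) (hM0 : ∀ q, 0 ≤ M q) {m1 : ℕ}
    (h17 : 17 ≤ m1) (hm1 : m1 ≤ m) (hz : Measurable z) {B : ℝ} (hB : ∀ x, ‖z x‖ ≤ B)
    (hsym : ∀ x y, ⟪n x, p y⟫ - ⟪p x, n y⟫ = ⟪z x, p y⟫ - ⟪p x, z y⟫) {C : Cut} (hC : C.Ok)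
    (hj : 3 ≤ C.j) (hi : 1 ≤ C.i) (hi' : 1 ≤ C.i')
    {lT : ℝ → ℝ} {Z ω l : ℕ → ℝ} {act : ℕ → Bool} (hZ0 : ∀ c < N, 0 ≤ Z c)
    (hl0 : ∀ c < N, 0 < l c)
    (hcell : ∀ c < N, ∀ T ∈ Ioo (0 : ℝ) 1, ((t c : ℚ) : ℝ) < T → T ≤ t (c + 1) →
      (m : ℝ) ≤ lT T ∨ (act c = true ∧ T ^ 2 / (1 - T ^ 2) / m ≤ ω c ∧
        ∃ r, 1 ≤ r ∧ T / √(1 - T ^ 2) ≤ r * Z c ∧ r ^ 2 * l c ≤ lT T)) :
    Tail μ m p n lT (∫ y, Ftot N w M C m1 Z ω l act (aG z y) (pG m p z y) ∂μ) := by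
  have hm : 17 ≤ m := h17.trans hm1
  have hm' : (17 : ℝ) ≤ m := by exact_mod_cast hm
  have hm0 : (0 : ℝ) < m := by linarith
  set I : ℕ → ℝ := fun c => ∫ y, (if act c then HC2 M C (Z c) (ω c) (l c) (aG z y) (pG m p z y)
    else 0) ∂μ with hI
  have hI0 : ∀ c < N, 0 ≤ I c := by
    intro c hc
    refine integral_nonneg fun y => ?_
    simp only [Pi.zero_apply]
    split_ifs
    · exact HC2_nonneg hM0 hC (hZ0 c hc) (hl0 c hc) (pG_nonneg y)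
    · exact le_rfl
  have hlev : ∀ c < N, ∀ T ∈ Ioo (0 : ℝ) 1, ((t c : ℚ) : ℝ) < T → T ≤ t (c + 1) →
      √(1 - T ^ 2) ^ (m + 1) * E2 μ p n (TK m T (lT T)) ≤ (μ.real univ) ^ 2 * (2 * I c / m) := by
    intro c hc T hT hT1 hT2
    rw [hμ]
    rcases hcell c hc T hT hT1 hT2 with h | ⟨ha, h4, r, hr, h3, h5⟩
    · rw [E2_TK_eq_zero h2 ⟨hT.1.le, hT.2⟩ h, mul_zero]
      have := hI0 c hc
      positivity
    · have hl' : 0 < r ^ 2 * l c := mul_pos (by positivity) (hl0 c hc)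
      have h6 := lev2 h2 hM hM0 (by omega) hz hB hsym hC hT h3 h4 hl' h5
      rw [hμ] at h6
      have e : I c = ∫ y, HC2 M C (Z c) (ω c) (l c) (aG z y) (pG m p z y) ∂μ := by
        simp only [hI, ha, if_true]
      have h7 : ∫ y, HC2 M C (r * Z c) (ω c) (r ^ 2 * l c) (aG z y) (pG m p z y) ∂μ ≤ I c := by
        rw [e]
        exact integral_mono (bm_HC2 (bm_aG hz hB) (bm_pG h2.toPts hz hB) M C _ _ _).int
          (bm_HC2 (bm_aG hz hB) (bm_pG h2.toPts hz hB) M C _ _ _).int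
          fun y => HC2_scale hM0 hC hj hi hi' (hZ0 c hc) (hl0 c hc) (pG_nonneg y) hr
      refine h6.trans ?_
      rw [one_mul, one_pow, one_mul]
      have h8 := mul_le_mul_of_nonneg_left h7 (by positivity : (0 : ℝ) ≤ 2 / m)
      refine h8.trans (le_of_eq ?_)
      ring
  have hT := g.tail hm (φ := fun c => 2 * I c) (fun c hc => by have := hI0 c hc; positivity) hlev
  refine hT.mono ?_
  have h5 : cM m ≤ (cMQ m1 : ℚ) := cM_le (by omega) hm1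
  have hint : ∀ c, Integrable (fun y => if act c then
      HC2 M C (Z c) (ω c) (l c) (aG z y) (pG m p z y) else 0) μ := by
    intro c
    cases ha : act c with
    | false => simp
    | true =>
      simp only [if_true]
      exact (bm_HC2 (bm_aG hz hB) (bm_pG h2.toPts hz hB) M C _ _ _).int
  have e2 : ∫ y, Ftot N w M C m1 Z ω l act (aG z y) (pG m p z y) ∂μ
      = (cMQ m1 : ℚ) * ∑ c ∈ Finset.range N, ((w c : ℚ) : ℝ) * (2 * I c) := by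
    unfold Ftot
    rw [integral_const_mul, integral_const_mul,
      integral_finsetSum _ (fun c _ => (hint c).const_mul _)]
    congr 1
    rw [Finset.mul_sum]
    refine Finset.sum_congr rfl fun c _ => ?_
    rw [integral_const_mul]
    ring
  rw [e2]
  refine mul_le_mul_of_nonneg_right h5 (Finset.sum_nonneg fun c hc => mul_nonneg
      (by exact_mod_cast g.w_nonneg c (Finset.mem_range.1 hc)) ?_)
  have := hI0 c (Finset.mem_range.1 hc)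
  positivity

/-- from the normalised measure to the measure -/
theorem Tail.of_nrm [NeZero μ] {l : ℝ → ℝ} {ε : ℝ} (h : Tail (nrm μ) m p n l ε) :
    Tail μ m p n l ε := by
  obtain ⟨τ, h1, h2, h3⟩ := h
  refine ⟨τ, h1, fun T hT => ?_, h3⟩
  have h4 := h2 T hT
  have h0 : μ univ ≠ 0 := by simpa using (NeZero.ne μ)
  have ht : μ univ ≠ ⊤ := measure_ne_top _ _
  have e1 : (nrm μ).real univ = 1 := by
    unfold nrm Measure.real
    rw [Measure.smul_apply, smul_eq_mul, ENNReal.inv_mul_cancel h0 ht]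
    rfl
  rw [e1, one_pow, mul_one] at h4
  rw [E2_nrm]
  have e2 : E2 (nrm μ) p n (TK m T (l T))
      = ∫ q, TK m T (l T) (SM2.pr p n q) ∂((nrm μ).prod (nrm μ)) := rfl
  rw [← e2]
  have h5 := mul_le_mul_of_nonneg_right h4 (sq_nonneg (μ.real univ))
  refine le_trans (le_of_eq ?_) h5
  ring

end

end Vale.Agent.P224.R2.H484
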