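import Vale.Agent.P224.R2.H484.TintH

/-!
Cells of the grid with 200 cells for the thresholds `max c1 (c2 / (1 - T^2))`: representatives of
`Z = T / √(1 - T^2)`, of `Z^2 / m` and of the threshold.
-/

namespace Vale.Agent.P224.R2.H484

open Set Real

/-- rounding up and down -/
def rU (x : ℚ) : ℚ := (⌈x * 10000⌉ : ℤ) / 10000
def rD (x : ℚ) : ℚ := (⌊x * 100⌋ : ℤ) / 100

lemma le_rU (x : ℚ) : x ≤ rU x := by
  unfold rU
  have := Int.le_ceil (x * 10000)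
  linarith

lemma rD_le (x : ℚ) : rD x ≤ x := by
  unfold rD
  have := Int.floor_le (x * 100)
  linarith

/-- the threshold of the cell -/
def lB (c1 c2 : ℚ) (c : ℕ) : ℚ := rD (max c1 (c2 / kR c ^ 2))

/-- the representative of `Z` -/
def zB (c1 c2 : ℚ) (c : ℕ) : ℚ :=
  if c1 ≤ c2 / kR c ^ 2 then rU (tR (c + 1) / kR c) else rU (tR (c + 1) / kR (c + 1))

/-- the representative of `Z^2 / m` -/
def wB (m1 : ℕ) (c2 : ℚ) (c : ℕ) : ℚ :=
  if c < 199 then rU (min ((tR (c + 1) / kR (c + 1)) ^ 2 / m1) (1 / c2)) else rU (1 / c2)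

lemma kR_pos {c : ℕ} (hc : c < 200) : (0 : ℚ) < kR c := by
  unfold kR
  have h : (c : ℚ) < 200 := by exact_mod_cast hc
  have h0 : (0 : ℚ) ≤ c := by positivity
  apply div_pos
  · nlinarith
  · positivity

lemma tR_nonneg (c : ℕ) : (0 : ℚ) ≤ tR c := by unfold tR; positivity

lemma tR_le_one {c : ℕ} (hc : c ≤ 200) : tR c ≤ 1 := by
  unfold tR
  rw [div_le_one (by positivity)]
  have h : (c : ℚ) ≤ 200 := by exact_mod_cast hc
  nlinarith [sq_nonneg ((c : ℚ) - 200)]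

lemma wB_nonneg {m1 : ℕ} {c2 : ℚ} (h2 : 0 < c2) (c : ℕ) : 0 ≤ wB m1 c2 c := by
  unfold wB
  split_ifs
  · refine le_trans ?_ (le_rU _)
    positivity
  · refine le_trans ?_ (le_rU _)
    positivity

lemma zB_nonneg {c1 c2 : ℚ} {c : ℕ} (hc : c < 200) : 0 ≤ zB c1 c2 c := by
  have h1 := tR_nonneg (c + 1)
  have h2 := kR_pos hc
  unfold zB
  split_ifs
  · refine le_trans ?_ (le_rU _)
    positivity
  · refine le_trans ?_ (le_rU _)
    have h3 : 0 ≤ kR (c + 1) := by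
      rcases Nat.lt_or_ge (c + 1) 200 with h | h
      · exact (kR_pos h).le
      · have : c + 1 = 200 := by omega
        rw [this]
        unfold kR
        norm_num
    positivity

/-- the facts of a cell: `c1 * kR 199 ^ 2 ≤ c2` -/
theorem cellB {m m1 : ℕ} (hm1 : 1 ≤ m1) (hm : m1 ≤ m) {c1 c2 : ℚ} (h2 : 0 < c2)
    (h199 : c1 * kR 199 ^ 2 ≤ c2) {c : ℕ} (hc : c < 200) {T L : ℝ} (hT : T ∈ Ioo (0 : ℝ) 1)
    (hT1 : ((tR c : ℚ) : ℝ) < T) (hT2 : T ≤ tR (c + 1)) (l1 : (c1 : ℝ) ≤ L)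
    (l2 : (c2 : ℝ) / (1 - T ^ 2) ≤ L) :
    (m : ℝ) ≤ L ∨ (((lB c1 c2 c : ℚ) : ℝ) ≤ L ∧ ((lB c1 c2 c : ℚ) : ℝ) < m ∧
      T ^ 2 / (1 - T ^ 2) / m ≤ ((wB m1 c2 c : ℚ) : ℝ) ∧
      ∃ r : ℝ, 1 ≤ r ∧ T / √(1 - T ^ 2) ≤ r * ((zB c1 c2 c : ℚ) : ℝ) ∧
        r ^ 2 * ((lB c1 c2 c : ℚ) : ℝ) ≤ L) := by
  rcases le_or_gt (m : ℝ) L with h | hLm
  · exact Or.inl h
  right
  have hk := grdR.k_cell hc hT.2 hT1 hT2
  have hk0 : 0 < 1 - T ^ 2 := by nlinarith [hT.1, hT.2]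
  have hsk := Real.sqrt_pos.2 hk0
  have hsq : √(1 - T ^ 2) ^ 2 = 1 - T ^ 2 := Real.sq_sqrt hk0.le
  have hκ : (0 : ℝ) < ((kR c : ℚ) : ℝ) := by exact_mod_cast kR_pos hc
  have h2' : (0 : ℝ) < (c2 : ℝ) := by exact_mod_cast h2
  have hm0 : (0 : ℝ) < m := by exact_mod_cast (by omega : 0 < m)
  have hm1' : (0 : ℝ) < m1 := by exact_mod_cast (by omega : 0 < m1)
  have hmm : (m1 : ℝ) ≤ m := by exact_mod_cast hm
  have hlb : (lB c1 c2 c : ℚ) ≤ max c1 (c2 / kR c ^ 2) := rD_le _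
  have hlbR : ((lB c1 c2 c : ℚ) : ℝ) ≤ max (c1 : ℝ) ((c2 : ℝ) / ((kR c : ℚ) : ℝ) ^ 2) := by
    have : ((lB c1 c2 c : ℚ) : ℝ) ≤ ((max c1 (c2 / kR c ^ 2) : ℚ) : ℝ) := by exact_mod_cast hlb
    push_cast at this
    exact this
  have h3 : (c2 : ℝ) / ((kR c : ℚ) : ℝ) ^ 2 ≤ c2 / (1 - T ^ 2) :=
    div_le_div_of_nonneg_left h2'.le hk0 hk.2.le
  have hlbL : ((lB c1 c2 c : ℚ) : ℝ) ≤ L := hlbR.trans (max_le l1 (h3.trans l2))
  refine ⟨hlbL, hlbL.trans_lt hLm, ?_, ?_⟩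
  · -- the bound of `Z^2 / m`
    have hc2m : T ^ 2 / (1 - T ^ 2) / m ≤ 1 / c2 := by
      have h4 : (c2 : ℝ) / (1 - T ^ 2) < m := l2.trans_lt hLm
      rw [div_lt_iff₀ hk0] at h4
      rw [div_div, div_le_div_iff₀ (by positivity) h2']
      have h5 : T ^ 2 ≤ 1 := by nlinarith [hT.1, hT.2]
      nlinarith
    unfold wB
    split_ifs with hc9
    · have hκ1 : (0 : ℝ) < ((kR (c + 1) : ℚ) : ℝ) := by
        exact_mod_cast kR_pos (by omega : c + 1 < 200)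
      have h6 : T ^ 2 / (1 - T ^ 2) / m
          ≤ (((tR (c + 1) : ℚ) : ℝ) / ((kR (c + 1) : ℚ) : ℝ)) ^ 2 / m1 := by
        rw [div_pow]
        have h7 : T ^ 2 ≤ ((tR (c + 1) : ℚ) : ℝ) ^ 2 := pow_le_pow_left₀ hT.1.le hT2 2
        have h8 : T ^ 2 / (1 - T ^ 2)
            ≤ ((tR (c + 1) : ℚ) : ℝ) ^ 2 / ((kR (c + 1) : ℚ) : ℝ) ^ 2 :=
          div_le_div₀ (by positivity) h7 (by positivity) hk.1
        exact div_le_div₀ (by positivity) h8 hm1' hmm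
      have h9 := le_rU (min ((tR (c + 1) / kR (c + 1)) ^ 2 / m1) (1 / c2))
      have h10 : ((min ((tR (c + 1) / kR (c + 1)) ^ 2 / m1) (1 / c2) : ℚ) : ℝ)
          ≤ ((rU (min ((tR (c + 1) / kR (c + 1)) ^ 2 / m1) (1 / c2)) : ℚ) : ℝ) := by
        exact_mod_cast h9
      refine le_trans ?_ h10
      push_cast
      exact le_min h6 hc2m
    · have h9 := le_rU (1 / c2)
      have h10 : ((1 / c2 : ℚ) : ℝ) ≤ ((rU (1 / c2) : ℚ) : ℝ) := by exact_mod_cast h9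
      refine le_trans ?_ h10
      push_cast
      exact hc2m
  · unfold zB
    split_ifs with hcase
    · -- scaling region
      refine ⟨((kR c : ℚ) : ℝ) / √(1 - T ^ 2), ?_, ?_, ?_⟩
      · rw [one_le_div hsk]
        exact Real.sqrt_le_iff.2 ⟨hκ.le, hk.2.le⟩
      · have h9 : ((tR (c + 1) / kR c : ℚ) : ℝ) ≤ ((rU (tR (c + 1) / kR c) : ℚ) : ℝ) := by
          exact_mod_cast le_rU (tR (c + 1) / kR c)
        push_cast at h9
        have h10 : T / √(1 - T ^ 2) ≤ ((kR c : ℚ) : ℝ) / √(1 - T ^ 2)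
            * (((tR (c + 1) : ℚ) : ℝ) / ((kR c : ℚ) : ℝ)) := by
          have e : ((kR c : ℚ) : ℝ) / √(1 - T ^ 2) * (((tR (c + 1) : ℚ) : ℝ) / ((kR c : ℚ) : ℝ))
              = ((tR (c + 1) : ℚ) : ℝ) / √(1 - T ^ 2) := by field_simp
          rw [e]
          exact div_le_div_of_nonneg_right hT2 hsk.le
        exact h10.trans (mul_le_mul_of_nonneg_left h9 (by positivity))
      · rw [div_pow, hsq]
        have hm2 : ((lB c1 c2 c : ℚ) : ℝ) ≤ (c2 : ℝ) / ((kR c : ℚ) : ℝ) ^ 2 := by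
          have h11 : ((c1 : ℚ) : ℝ) ≤ (c2 : ℝ) / ((kR c : ℚ) : ℝ) ^ 2 := by
            have : ((c1 : ℚ) : ℝ) ≤ ((c2 / kR c ^ 2 : ℚ) : ℝ) := by exact_mod_cast hcase
            push_cast at this
            exact this
          rwa [max_eq_right h11] at hlbR
        refine le_trans ?_ l2
        have h12 := mul_le_mul_of_nonneg_left hm2
          (by positivity : (0 : ℝ) ≤ ((kR c : ℚ) : ℝ) ^ 2 / (1 - T ^ 2))
        refine h12.trans (le_of_eq ?_)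
        field_simp
    · refine ⟨1, le_rfl, ?_, ?_⟩
      · have hc9 : c < 199 := by
          by_contra hcc
          have hc' : c = 199 := by omega
          apply hcase
          rw [hc', le_div_iff₀ (pow_pos (kR_pos (by norm_num)) 2)]
          exact h199
        have hκ1 : (0 : ℝ) < ((kR (c + 1) : ℚ) : ℝ) := by
          exact_mod_cast kR_pos (by omega : c + 1 < 200)
        have h9 : ((tR (c + 1) / kR (c + 1) : ℚ) : ℝ)
            ≤ ((rU (tR (c + 1) / kR (c + 1)) : ℚ) : ℝ) := by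
          exact_mod_cast le_rU (tR (c + 1) / kR (c + 1))
        push_cast at h9
        rw [one_mul]
        refine le_trans ?_ h9
        have h13 : ((kR (c + 1) : ℚ) : ℝ) ≤ √(1 - T ^ 2) := Real.le_sqrt_of_sq_le hk.1
        exact div_le_div₀ (hT.1.le.trans hT2) hT2 hκ1 h13
      · rw [one_pow, one_mul]
        exact hlbL

end Vale.Agent.P224.R2.H484
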