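import Vale.Agent.P224.R2.H484.TlC

/-!
The one point function with the parameter `lam`, and its polynomial form on a grid.
-/

namespace Vale.Agent.P224.R2.H484

open MeasureTheory Set Function Module Vale.Agent.P224 Vale.Agent.P224.SM2
  Vale.Agent.P224.R2.H869 Vale.Agent.P224.R2.H582 Vale.Agent.P224.R2.H820
  Vale.Agent.P224.R2.H876 Vale.Agent.P224.R2.H728
open scoped RealInnerProductSpace

/-- the `y` view with the parameter `lam` -/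
noncomputable def YVp (M : ℕ → ℝ) (j : ℕ) (l K s d lam : ℝ) : ℝ :=
  K * (cc j / l ^ j) * ∑ i ∈ Finset.range (j + 2),
    ((j + 1).choose i : ℝ) * (lam ^ i * s ^ (j + 1 - i)) * mp2 M (j + 1 + i) s d

/-- the one point function at a level: `a = |z|^2`, `(b + ω φ^2) / 4` is the parameter `lam` -/
noncomputable def HC3 (M : ℕ → ℝ) (C : Cut) (Z ω l a b φ : ℝ) : ℝ :=
  YVp M C.j l C.K (Z * φ) (√(a + ω * φ ^ 2)) ((b + ω * φ ^ 2) / 4)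
    + ZV M C.i C.i' l C.η C.β (Z * φ) (√(a + ω * φ ^ 2))

section scalar

variable {M : ℕ → ℝ}

lemma YVp_mono (hM0 : ∀ q, 0 ≤ M q) (j : ℕ) {l K s s' d d' lam lam' : ℝ} (hl : 0 < l)
    (hK : 0 ≤ K) (hs : 0 ≤ s) (hss : s ≤ s') (hd : 0 ≤ d) (hdd : d ≤ d') (h0 : 0 ≤ lam)
    (h : lam ≤ lam') : YVp M j l K s d lam ≤ YVp M j l K s' d' lam' := by
  unfold YVp
  have h1 := cc_nonneg' j
  refine mul_le_mul_of_nonneg_left (Finset.sum_le_sum fun i _ => ?_) (by positivity)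
  have h2 := mp2_mono' hM0 (j + 1 + i) hs hss hd hdd
  have h3 := mp2_nonneg' hM0 (j + 1 + i) hs hd
  have h4 : s ^ (j + 1 - i) ≤ s' ^ (j + 1 - i) := pow_le_pow_left₀ hs hss _
  have h5 : lam ^ i ≤ lam' ^ i := pow_le_pow_left₀ h0 h _
  have h6 : 0 ≤ s' := hs.trans hss
  have h7 : 0 ≤ lam' := h0.trans h
  gcongr

lemma YVp_nonneg (hM0 : ∀ q, 0 ≤ M q) (j : ℕ) {l K s d lam : ℝ} (hl : 0 < l) (hK : 0 ≤ K)
    (hs : 0 ≤ s) (hd : 0 ≤ d) (h0 : 0 ≤ lam) : 0 ≤ YVp M j l K s d lam := by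
  unfold YVp
  have h1 := cc_nonneg' j
  refine mul_nonneg (by positivity) (Finset.sum_nonneg fun i _ => ?_)
  have h3 := mp2_nonneg' hM0 (j + 1 + i) hs hd
  positivity

lemma HC3_nonneg (hM0 : ∀ q, 0 ≤ M q) {C : Cut} (hC : C.Ok) {Z ω l a b φ : ℝ}
    (hZ : 0 ≤ Z) (hω : 0 ≤ ω) (hl : 0 < l) (hb : 0 ≤ b) (hφ : 0 ≤ φ) :
    0 ≤ HC3 M C Z ω l a b φ :=
  add_nonneg (YVp_nonneg hM0 _ hl hC.K0 (mul_nonneg hZ hφ) (Real.sqrt_nonneg _) (by positivity))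
    (ZV_nonneg hM0 _ _ hl hC.β0 (mul_nonneg hZ hφ) (Real.sqrt_nonneg _))

lemma YVp_scale (hM0 : ∀ q, 0 ≤ M q) {j : ℕ} (hj : 3 ≤ j) {l K r s d lam : ℝ}
    (hl : 0 < l) (hK : 0 ≤ K) (hr : 1 ≤ r) (hs : 0 ≤ s) (hd : 0 ≤ d) (h0 : 0 ≤ lam) :
    YVp M j (r ^ 2 * l) K (r * s) d lam ≤ YVp M j l K s d lam := by
  have hr0 : 0 < r := by linarith
  unfold YVp
  have h1 := cc_nonneg' j
  rw [mul_pow, ← pow_mul]
  have e : K * (cc j / (r ^ (2 * j) * l ^ j)) * ∑ i ∈ Finset.range (j + 2),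
      ((j + 1).choose i : ℝ) * (lam ^ i * (r * s) ^ (j + 1 - i)) * mp2 M (j + 1 + i) (r * s) d
      = K * (cc j / l ^ j) * ∑ i ∈ Finset.range (j + 2), (((j + 1).choose i : ℝ)
        * (lam ^ i * (r * s) ^ (j + 1 - i)) * mp2 M (j + 1 + i) (r * s) d) / r ^ (2 * j) := by
    rw [← Finset.sum_div]
    field_simp
  rw [e]
  refine mul_le_mul_of_nonneg_left (Finset.sum_le_sum fun i hi => ?_) (by positivity)
  rw [div_le_iff₀ (by positivity), mul_pow]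
  have h2 := mp2_scale hM0 (j + 1 + i) hr hs hd
  have h3 := mp2_nonneg' hM0 (j + 1 + i) hs hd
  have h4 : r ^ (j + 1 - i) * r ^ 2 ≤ r ^ (2 * j) := by
    rw [← pow_add]
    exact pow_le_pow_right₀ hr (by omega)
  calc ((j + 1).choose i : ℝ) * (lam ^ i * (r ^ (j + 1 - i) * s ^ (j + 1 - i)))
        * mp2 M (j + 1 + i) (r * s) d
      ≤ ((j + 1).choose i : ℝ) * (lam ^ i * (r ^ (j + 1 - i) * s ^ (j + 1 - i)))
        * (r ^ 2 * mp2 M (j + 1 + i) s d) := mul_le_mul_of_nonneg_left h2 (by positivity)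
    _ = ((j + 1).choose i : ℝ) * (lam ^ i * s ^ (j + 1 - i)) * mp2 M (j + 1 + i) s d
        * (r ^ (j + 1 - i) * r ^ 2) := by ring
    _ ≤ _ := mul_le_mul_of_nonneg_left h4 (by positivity)

lemma HC3_scale (hM0 : ∀ q, 0 ≤ M q) {C : Cut} (hC : C.Ok) (hj : 3 ≤ C.j)
    (hi : 1 ≤ C.i) (hi' : 1 ≤ C.i') {Z ω l a b φ r : ℝ} (hZ : 0 ≤ Z) (hω : 0 ≤ ω) (hl : 0 < l)
    (hb : 0 ≤ b) (hφ : 0 ≤ φ) (hr : 1 ≤ r) :
    HC3 M C (r * Z) ω (r ^ 2 * l) a b φ ≤ HC3 M C Z ω l a b φ := by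
  unfold HC3
  rw [mul_assoc r]
  exact add_le_add
    (YVp_scale hM0 hj hl hC.K0 hr (mul_nonneg hZ hφ) (Real.sqrt_nonneg _) (by positivity))
    (ZV_scale hM0 hi hi' hl hC.β0 hr (mul_nonneg hZ hφ) (Real.sqrt_nonneg _))

/-- the polynomial bound of `mp2` -/
lemma mp2_le (hM0 : ∀ q, 0 ≤ M q) (q : ℕ) {Z a ω θ φ : ℝ} (hZ : 0 ≤ Z) (ha : 0 ≤ a)
    (hω0 : 0 ≤ ω) (hθ : 0 < θ) (hφ : 0 ≤ φ) :
    mp2 M q (Z * φ) (√(a + ω * φ ^ 2)) ≤ (M (q + 2) + Z * M (q + 1) / θ) * a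
      + (ω * M (q + 2) + Z * M (q + 1) * (θ + ω / θ) + Z ^ 2 * M q) * φ ^ 2 := by
  unfold mp2
  set d := √(a + ω * φ ^ 2) with hd
  have hd2 : d ^ 2 = a + ω * φ ^ 2 := Real.sq_sqrt (by positivity)
  have hd0 : 0 ≤ d := Real.sqrt_nonneg _
  have h1 : 2 * φ * d ≤ θ * φ ^ 2 + d ^ 2 / θ := by
    have h2 : 0 ≤ (θ * φ - d) ^ 2 / θ := by positivity
    have e : (θ * φ - d) ^ 2 / θ = θ * φ ^ 2 + d ^ 2 / θ - 2 * φ * d := by
      field_simp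
      ring
    rw [e] at h2
    linarith
  have h3 : 0 ≤ Z * M (q + 1) := mul_nonneg hZ (hM0 _)
  have h4 := mul_le_mul_of_nonneg_left h1 h3
  rw [hd2] at h4 ⊢
  have e : (M (q + 2) + Z * M (q + 1) / θ) * a
      + (ω * M (q + 2) + Z * M (q + 1) * (θ + ω / θ) + Z ^ 2 * M q) * φ ^ 2
      = M (q + 2) * (a + ω * φ ^ 2) + Z * M (q + 1) * (θ * φ ^ 2 + (a + ω * φ ^ 2) / θ)
        + (Z * φ) ^ 2 * M q := by ring
  rw [e]
  have e2 : 2 * (Z * φ) * (M (q + 1) * d) = Z * M (q + 1) * (2 * φ * d) := by ring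
  rw [e2]
  linarith

/-- the polynomial bound of the one point function -/
lemma HC3_le (hM0 : ∀ q, 0 ≤ M q) {C : Cut} (hC : C.Ok) {Z ω l a b φ : ℝ} {θ : ℕ → ℝ}
    {θ₁ θ₂ : ℝ} (hZ : 0 ≤ Z) (ha : 0 ≤ a) (hω0 : 0 ≤ ω) (hθ : ∀ i, 0 < θ i) (hθ₁ : 0 < θ₁)
    (hθ₂ : 0 < θ₂) (hl : 0 < l) (hb : 0 ≤ b) (hφ : 0 ≤ φ) :
    HC3 M C Z ω l a b φ ≤ (∑ i ∈ Finset.range (C.j + 2), ∑ k ∈ Finset.range (i + 1),
      (C.K * (cc C.j / l ^ C.j) * (((C.j + 1).choose i : ℝ) * (i.choose k : ℝ) / 4 ^ i)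
        * (Z ^ (C.j + 1 - i) * ω ^ (i - k))) *
      ((M (C.j + 1 + i + 2) + Z * M (C.j + 1 + i + 1) / θ i) * a
        + (ω * M (C.j + 1 + i + 2) + Z * M (C.j + 1 + i + 1) * (θ i + ω / θ i)
          + Z ^ 2 * M (C.j + 1 + i)) * φ ^ 2) * (b ^ k * φ ^ (C.j + 1 - i + 2 * (i - k))))
      + (C.β ^ (C.i + 1) / (2 * C.η ^ 2) * (cc C.i / l ^ C.i) *
          ((M (2 * C.i + 2 + 2) + Z * M (2 * C.i + 2 + 1) / θ₁) * a
            + (ω * M (2 * C.i + 2 + 2) + Z * M (2 * C.i + 2 + 1) * (θ₁ + ω / θ₁)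
              + Z ^ 2 * M (2 * C.i + 2)) * φ ^ 2)
        + 2 / C.β ^ (C.i' + 1) * (cc C.i' / l ^ C.i') *
          ((M (2 * C.i' + 2 + 2) + Z * M (2 * C.i' + 2 + 1) / θ₂) * a
            + (ω * M (2 * C.i' + 2 + 2) + Z * M (2 * C.i' + 2 + 1) * (θ₂ + ω / θ₂)
              + Z ^ 2 * M (2 * C.i' + 2)) * φ ^ 2)) := by
  have hβ := hC.β0
  have hK := hC.K0
  unfold HC3
  refine add_le_add ?_ ?_
  · unfold YVp
    rw [Finset.mul_sum]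
    refine Finset.sum_le_sum fun i _ => ?_
    have h1 := cc_nonneg' C.j
    have h2 := mp2_le hM0 (C.j + 1 + i) hZ ha hω0 (hθ i) hφ
    have h3 : 0 ≤ ((C.j + 1).choose i : ℝ) * (((b + ω * φ ^ 2) / 4) ^ i
        * (Z * φ) ^ (C.j + 1 - i)) := by positivity
    have h4 := mul_le_mul_of_nonneg_left (mul_le_mul_of_nonneg_left h2 h3)
      (by positivity : 0 ≤ C.K * (cc C.j / l ^ C.j))
    refine h4.trans (le_of_eq ?_)
    rw [div_pow, add_pow, Finset.sum_div, Finset.sum_mul, Finset.mul_sum, Finset.sum_mul,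
      Finset.mul_sum]
    refine Finset.sum_congr rfl fun k _ => ?_
    rw [mul_pow, mul_pow, ← pow_mul, pow_add φ]
    ring
  · unfold ZV
    have h1 := cc_nonneg' C.i
    have h1' := cc_nonneg' C.i'
    exact add_le_add
      (mul_le_mul_of_nonneg_left (mp2_le hM0 _ hZ ha hω0 hθ₁ hφ) (by positivity))
      (mul_le_mul_of_nonneg_left (mp2_le hM0 _ hZ ha hω0 hθ₂ hφ) (by positivity))

end scalar

end Vale.Agent.P224.R2.H484
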