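import Vale.Agent.P224.R2.H484.TlE

/-!
The polynomial form of the one point function integrated over a grid: rational coefficients.
-/

namespace Vale.Agent.P224.R2.H484

open MeasureTheory Set Function Module Vale.Agent.P224 Vale.Agent.P224.SM2
  Vale.Agent.P224.R2.H869 Vale.Agent.P224.R2.H582 Vale.Agent.P224.R2.H820
  Vale.Agent.P224.R2.H876 Vale.Agent.P224.R2.H728
open scoped RealInnerProductSpace

/-- the data of a block: grid, representatives of the cells (`u` bounds the inverse of the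
threshold), moments, parameters of the cut and of the mixed terms -/
structure Blk where
  N : ℕ
  w : ℕ → ℚ
  Z : ℕ → ℚ
  ω : ℕ → ℚ
  u : ℕ → ℚ
  act : ℕ → Bool
  m1 : ℕ
  Mq : ℕ → ℚ
  η : ℚ
  β : ℚ
  K : ℚ
  j : ℕ
  i1 : ℕ
  i2 : ℕ
  θ : ℕ → ℚ
  θ1 : ℚ
  θ2 : ℚ

namespace Blk

variable (B : Blk)

/-- the cut of the block -/
noncomputable def cut : Cut := ⟨B.η, B.β, B.K, B.j, B.i1, B.i2⟩

/-- the moments of the grid -/
def S (p r s : ℕ) : ℚ :=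
  sumQ (fun c => if B.act c then B.w c * (B.Z c ^ p * B.ω c ^ r * B.u c ^ s) else 0) B.N

def ccQ (j : ℕ) : ℚ := (j : ℚ) ^ j / ((j : ℚ) + 1) ^ (j + 1)

/-- the common factor of the main part -/
def pre (i k : ℕ) : ℚ :=
  2 * cMQ B.m1 * (B.K * ccQ B.j * (((B.j + 1).choose i : ℚ) * (i.choose k : ℚ) / 4 ^ i))

/-- the coefficient of `a b^k φ^(j + 1 - i + 2 (i - k))` -/
def A (i k : ℕ) : ℚ := B.pre i k *
  (B.Mq (B.j + 1 + i + 2) * B.S (B.j + 1 - i) (i - k) B.j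
    + B.Mq (B.j + 1 + i + 1) / B.θ i * B.S (B.j + 1 - i + 1) (i - k) B.j)

/-- the coefficient of `φ^2 b^k φ^(j + 1 - i + 2 (i - k))` -/
def A' (i k : ℕ) : ℚ := B.pre i k *
  (B.Mq (B.j + 1 + i + 2) * B.S (B.j + 1 - i) (i - k + 1) B.j
    + B.Mq (B.j + 1 + i + 1) * (B.θ i * B.S (B.j + 1 - i + 1) (i - k) B.j
      + B.S (B.j + 1 - i + 1) (i - k + 1) B.j / B.θ i)
    + B.Mq (B.j + 1 + i) * B.S (B.j + 1 - i + 2) (i - k) B.j)

/-- a remainder term with factor `f`, power `i`: the coefficient of `a` -/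
def Rm (f θ : ℚ) (i : ℕ) : ℚ := 2 * cMQ B.m1 * (f * ccQ i) *
  (B.Mq (2 * i + 2 + 2) * B.S 0 0 i + B.Mq (2 * i + 2 + 1) / θ * B.S 1 0 i)

/-- the coefficient of `φ^2` -/
def Rm' (f θ : ℚ) (i : ℕ) : ℚ := 2 * cMQ B.m1 * (f * ccQ i) *
  (B.Mq (2 * i + 2 + 2) * B.S 0 1 i
    + B.Mq (2 * i + 2 + 1) * (θ * B.S 1 0 i + B.S 1 1 i / θ) + B.Mq (2 * i + 2) * B.S 2 0 i)

def f1 : ℚ := B.β ^ (B.i1 + 1) / (2 * B.η ^ 2)
def f2 : ℚ := 2 / B.β ^ (B.i2 + 1)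

/-- the coefficient of `a` -/
def R : ℚ := B.Rm B.f1 B.θ1 B.i1 + B.Rm B.f2 B.θ2 B.i2

/-- the coefficient of `φ^2` -/
def R' : ℚ := B.Rm' B.f1 B.θ1 B.i1 + B.Rm' B.f2 B.θ2 B.i2

/-- the total one point function on the grid -/
noncomputable def F (M : ℕ → ℝ) (a b φ : ℝ) : ℝ :=
  cMQ B.m1 * (2 * ∑ c ∈ Finset.range B.N,
    B.w c * (if B.act c then HC3 M B.cut (B.Z c) (B.ω c) (1 / B.u c) a b φ else 0))

/-- the conditions on the data -/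
structure Ok : Prop where
  cut : B.cut.Ok
  w0 : ∀ c < B.N, 0 ≤ B.w c
  Z0 : ∀ c < B.N, 0 ≤ B.Z c
  ω0 : ∀ c < B.N, 0 ≤ B.ω c
  u0 : ∀ c < B.N, 0 < B.u c
  θ : ∀ i, 0 < B.θ i
  θ1 : 0 < B.θ1
  θ2 : 0 < B.θ2
  j3 : 3 ≤ B.j
  j14 : B.j ≤ 14
  i1 : 1 ≤ B.i1
  i14 : B.i1 ≤ 14
  i2 : 1 ≤ B.i2
  i24 : B.i2 ≤ 14

variable {B}

lemma S_cast (p r s : ℕ) : ((B.S p r s : ℚ) : ℝ)
    = ∑ c ∈ Finset.range B.N, ((if B.act c then B.w c else 0 : ℚ) : ℝ) *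
      (((B.Z c : ℚ) : ℝ) ^ p * ((B.ω c : ℚ) : ℝ) ^ r * ((B.u c : ℚ) : ℝ) ^ s) := by
  unfold S
  rw [sumQ_cast]
  refine Finset.sum_congr rfl fun c _ => ?_
  cases B.act c <;> simp

lemma ccQ_cast (j : ℕ) : ((ccQ j : ℚ) : ℝ) = cc j := by
  unfold ccQ cc
  push_cast
  ring

lemma cMQ_nonneg (m : ℕ) : 0 ≤ cMQ m := by
  unfold cMQ
  positivity

/-- the main terms -/
lemma main_eq {M : ℕ → ℝ} (hM : ∀ q, 3 ≤ q → q < 33 → M q = (B.Mq q : ℝ)) (hj : 3 ≤ B.j)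
    (hj14 : B.j ≤ 14) {i : ℕ} (hi : i < B.j + 2) (k : ℕ) (a φ mo : ℝ) :
    ∑ c ∈ Finset.range B.N, ((if B.act c then B.w c else 0 : ℚ) : ℝ) *
      (((B.K : ℝ) * (cc B.j / (1 / (B.u c : ℝ)) ^ B.j)
          * (((B.j + 1).choose i : ℝ) * (i.choose k : ℝ) / 4 ^ i)
        * ((B.Z c : ℝ) ^ (B.j + 1 - i) * (B.ω c : ℝ) ^ (i - k))) *
      ((M (B.j + 1 + i + 2) + (B.Z c : ℝ) * M (B.j + 1 + i + 1) / (B.θ i : ℝ)) * a
        + ((B.ω c : ℝ) * M (B.j + 1 + i + 2)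
          + (B.Z c : ℝ) * M (B.j + 1 + i + 1) * ((B.θ i : ℝ) + (B.ω c : ℝ) / (B.θ i : ℝ))
          + (B.Z c : ℝ) ^ 2 * M (B.j + 1 + i)) * φ ^ 2) * mo) * (2 * (cMQ B.m1 : ℝ))
      = ((B.A i k : ℝ) * a + (B.A' i k : ℝ) * φ ^ 2) * mo := by
  have h1 := hM (B.j + 1 + i + 2) (by omega) (by omega)
  have h2 := hM (B.j + 1 + i + 1) (by omega) (by omega)
  have h3 := hM (B.j + 1 + i) (by omega) (by omega)
  unfold A A' pre
  simp only [Rat.cast_mul, Rat.cast_add, Rat.cast_div, S_cast, ccQ_cast]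
  rw [h1, h2, h3]
  simp only [Finset.mul_sum, Finset.sum_mul, Finset.sum_div, ← Finset.sum_add_distrib]
  refine Finset.sum_congr rfl fun c _ => ?_
  push_cast
  rw [one_div, inv_pow, div_inv_eq_mul]
  ring

/-- the remainder terms -/
lemma rem_eq {M : ℕ → ℝ} (hM : ∀ q, 3 ≤ q → q < 33 → M q = (B.Mq q : ℝ)) {i : ℕ} (hi : 1 ≤ i)
    (hi14 : i ≤ 14) (f θ : ℚ) (a φ : ℝ) :
    ∑ c ∈ Finset.range B.N, ((if B.act c then B.w c else 0 : ℚ) : ℝ) *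
      ((f : ℝ) * (cc i / (1 / (B.u c : ℝ)) ^ i) *
        ((M (2 * i + 2 + 2) + (B.Z c : ℝ) * M (2 * i + 2 + 1) / (θ : ℝ)) * a
          + ((B.ω c : ℝ) * M (2 * i + 2 + 2)
            + (B.Z c : ℝ) * M (2 * i + 2 + 1) * ((θ : ℝ) + (B.ω c : ℝ) / (θ : ℝ))
          + (B.Z c : ℝ) ^ 2 * M (2 * i + 2)) * φ ^ 2)) * (2 * (cMQ B.m1 : ℝ))
      = (B.Rm f θ i : ℝ) * a + (B.Rm' f θ i : ℝ) * φ ^ 2 := by
  have h1 := hM (2 * i + 2 + 2) (by omega) (by omega)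
  have h2 := hM (2 * i + 2 + 1) (by omega) (by omega)
  have h3 := hM (2 * i + 2) (by omega) (by omega)
  unfold Rm Rm'
  simp only [Rat.cast_mul, Rat.cast_add, Rat.cast_div, S_cast, ccQ_cast]
  rw [h1, h2, h3]
  simp only [Finset.mul_sum, Finset.sum_mul, Finset.sum_div, ← Finset.sum_add_distrib]
  refine Finset.sum_congr rfl fun c _ => ?_
  push_cast
  rw [one_div, inv_pow, div_inv_eq_mul]
  ring

end Blk

/-- the polynomial in `a`, `b`, `φ` -/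
noncomputable def PL (j : ℕ) (A A' : ℕ → ℕ → ℚ) (R R' : ℚ) (a b φ : ℝ) : ℝ :=
  (∑ i ∈ Finset.range (j + 2), ∑ k ∈ Finset.range (i + 1),
    ((A i k : ℝ) * a + (A' i k : ℝ) * φ ^ 2) * (b ^ k * φ ^ (j + 1 - i + 2 * (i - k))))
    + ((R : ℝ) * a + (R' : ℝ) * φ ^ 2)

namespace Blk

variable {B : Blk}

lemma swap {N J : ℕ} (v : ℕ → ℝ) (X : ℕ → ℕ → ℕ → ℝ) (Y1 Y2 : ℕ → ℝ) (g : ℝ) :
    (∑ c ∈ Finset.range N, v c * ((∑ i ∈ Finset.range J, ∑ k ∈ Finset.range (i + 1), X c i k)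
      + (Y1 c + Y2 c))) * g
      = (∑ i ∈ Finset.range J, ∑ k ∈ Finset.range (i + 1),
        ∑ c ∈ Finset.range N, v c * X c i k * g)
        + (∑ c ∈ Finset.range N, v c * Y1 c * g + ∑ c ∈ Finset.range N, v c * Y2 c * g) := by
  simp only [mul_add, Finset.mul_sum, Finset.sum_add_distrib, add_mul, Finset.sum_mul]
  congr 1
  rw [Finset.sum_comm]
  refine Finset.sum_congr rfl fun i _ => ?_
  rw [Finset.sum_comm]

/-- the total one point function is at most the polynomial -/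
theorem F_le {M : ℕ → ℝ} (hB : B.Ok) (hM0 : ∀ q, 0 ≤ M q)
    (hM : ∀ q, 3 ≤ q → q < 33 → M q = (B.Mq q : ℝ)) {a b φ : ℝ} (ha : 0 ≤ a) (hb : 0 ≤ b)
    (hφ : 0 ≤ φ) : B.F M a b φ ≤ PL B.j B.A B.A' B.R B.R' a b φ := by
  have hc0 : (0 : ℝ) ≤ (cMQ B.m1 : ℝ) := by exact_mod_cast cMQ_nonneg _
  unfold F
  have h1 : ∀ c ∈ Finset.range B.N, ((B.w c : ℚ) : ℝ) *
      (if B.act c then HC3 M B.cut (B.Z c) (B.ω c) (1 / B.u c) a b φ else 0)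
      ≤ ((if B.act c then B.w c else 0 : ℚ) : ℝ) * ((∑ i ∈ Finset.range (B.j + 2),
        ∑ k ∈ Finset.range (i + 1),
        ((B.K : ℝ) * (cc B.j / (1 / (B.u c : ℝ)) ^ B.j)
          * (((B.j + 1).choose i : ℝ) * (i.choose k : ℝ) / 4 ^ i)
        * ((B.Z c : ℝ) ^ (B.j + 1 - i) * (B.ω c : ℝ) ^ (i - k))) *
      ((M (B.j + 1 + i + 2) + (B.Z c : ℝ) * M (B.j + 1 + i + 1) / (B.θ i : ℝ)) * a
        + ((B.ω c : ℝ) * M (B.j + 1 + i + 2)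
          + (B.Z c : ℝ) * M (B.j + 1 + i + 1) * ((B.θ i : ℝ) + (B.ω c : ℝ) / (B.θ i : ℝ))
          + (B.Z c : ℝ) ^ 2 * M (B.j + 1 + i)) * φ ^ 2)
            * (b ^ k * φ ^ (B.j + 1 - i + 2 * (i - k))))
      + (((B.f1 : ℚ) : ℝ) * (cc B.i1 / (1 / (B.u c : ℝ)) ^ B.i1) *
        ((M (2 * B.i1 + 2 + 2) + (B.Z c : ℝ) * M (2 * B.i1 + 2 + 1) / (B.θ1 : ℝ)) * a
          + ((B.ω c : ℝ) * M (2 * B.i1 + 2 + 2)
            + (B.Z c : ℝ) * M (2 * B.i1 + 2 + 1) * ((B.θ1 : ℝ) + (B.ω c : ℝ) / (B.θ1 : ℝ))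
          + (B.Z c : ℝ) ^ 2 * M (2 * B.i1 + 2)) * φ ^ 2)
      + ((B.f2 : ℚ) : ℝ) * (cc B.i2 / (1 / (B.u c : ℝ)) ^ B.i2) *
        ((M (2 * B.i2 + 2 + 2) + (B.Z c : ℝ) * M (2 * B.i2 + 2 + 1) / (B.θ2 : ℝ)) * a
          + ((B.ω c : ℝ) * M (2 * B.i2 + 2 + 2)
            + (B.Z c : ℝ) * M (2 * B.i2 + 2 + 1) * ((B.θ2 : ℝ) + (B.ω c : ℝ) / (B.θ2 : ℝ))
          + (B.Z c : ℝ) ^ 2 * M (2 * B.i2 + 2)) * φ ^ 2))) := by
    intro c hc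
    have hc' := Finset.mem_range.1 hc
    cases hac : B.act c with
    | false => simp
    | true =>
      simp only [if_true]
      have hu : (0 : ℝ) < (B.u c : ℝ) := by exact_mod_cast hB.u0 c hc'
      refine mul_le_mul_of_nonneg_left ?_ (by exact_mod_cast hB.w0 c hc')
      have h := HC3_le (C := B.cut) hM0 hB.cut (Z := B.Z c) (ω := B.ω c) (l := 1 / B.u c)
        (a := a) (b := b) (φ := φ) (θ := fun i => (B.θ i : ℝ)) (θ₁ := B.θ1) (θ₂ := B.θ2)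
        (by exact_mod_cast hB.Z0 c hc') ha (by exact_mod_cast hB.ω0 c hc')
        (fun i => by exact_mod_cast hB.θ i) (by exact_mod_cast hB.θ1)
        (by exact_mod_cast hB.θ2) (by positivity) hb hφ
      have e1 : ((B.f1 : ℚ) : ℝ) = (B.β : ℝ) ^ (B.i1 + 1) / (2 * (B.η : ℝ) ^ 2) := by
        unfold f1
        push_cast
        rfl
      have e2 : ((B.f2 : ℚ) : ℝ) = 2 / (B.β : ℝ) ^ (B.i2 + 1) := by
        unfold f2
        push_cast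
        rfl
      rw [e1, e2]
      exact h
  have h2 := mul_le_mul_of_nonneg_left (mul_le_mul_of_nonneg_left (Finset.sum_le_sum h1)
    (by norm_num : (0 : ℝ) ≤ 2)) hc0
  refine h2.trans (le_of_eq ?_)
  rw [← mul_assoc, mul_comm _ (2 : ℝ), mul_comm (2 * (cMQ B.m1 : ℝ)), swap]
  unfold PL R R'
  rw [rem_eq hM hB.i1 hB.i14, rem_eq hM hB.i2 hB.i24]
  congr 1
  · refine Finset.sum_congr rfl fun i hi => Finset.sum_congr rfl fun k _ => ?_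
    exact main_eq hM hB.j3 hB.j14 (Finset.mem_range.1 hi) k a φ _
  · push_cast
    ring

end Blk

end Vale.Agent.P224.R2.H484
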