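import Vale.Agent.P224.R2.H484.TlD
import Vale.Agent.P224.R2.H484.TlG

/-!
Blocks of dimensions on the grid with 200 cells, thresholds `max (c1 c) (c2 c / (1 - T^2))` on the
cell `c`, and the relative tail with a rational polynomial.
-/

namespace Vale.Agent.P224.R2.H484

open MeasureTheory Set Function Module Vale.Agent.P224 Vale.Agent.P224.SM2
  Vale.Agent.P224.R2.H869 Vale.Agent.P224.R2.H582 Vale.Agent.P224.R2.H820
  Vale.Agent.P224.R2.H876 Vale.Agent.P224.R2.H728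
open scoped RealInnerProductSpace

set_option linter.unusedSectionVars false

/-- rounding up, 8 decimals -/
def rU8 (x : ℚ) : ℚ := (⌈x * 100000000⌉ : ℤ) / 100000000

lemma le_rU8 (x : ℚ) : x ≤ rU8 x := by
  unfold rU8
  have := Int.le_ceil (x * 100000000)
  linarith

/-- the representative of `Z^2 / m`, 8 decimals -/
def wB8 (m1 : ℕ) (c2 : ℚ) (c : ℕ) : ℚ :=
  if c < 199 then rU8 (min ((tR (c + 1) / kR (c + 1)) ^ 2 / m1) (1 / c2)) else rU8 (1 / c2)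

/-- a block on the grid with 200 cells; `m2 = 0` stands for no upper bound of the dimension -/
def mkB (m1 m2 : ℕ) (Mq : ℕ → ℚ) (c1 c2 : ℕ → ℚ) (η β K : ℚ) (j i1 i2 : ℕ) (θ : List ℚ)
    (θ1 θ2 : ℚ) : Blk where
  N := 200
  w := wR
  Z c := zB (c1 c) (c2 c) c
  ω c := wB8 m1 (c2 c) c
  u c := rU8 (1 / lB (c1 c) (c2 c) c)
  act c := (m2 == 0) || decide (lB (c1 c) (c2 c) c < m2)
  m1 := m1
  Mq := Mq
  η := η
  β := β
  K := K
  j := j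
  i1 := i1
  i2 := i2
  θ i := max (θ.getD i 1) (1 / 1000)
  θ1 := max θ1 (1 / 1000)
  θ2 := max θ2 (1 / 1000)

lemma wB8_nonneg {m1 : ℕ} {c2 : ℚ} (h2 : 0 < c2) (c : ℕ) : 0 ≤ wB8 m1 c2 c := by
  unfold wB8
  split_ifs
  · refine le_trans ?_ (le_rU8 _)
    positivity
  · refine le_trans ?_ (le_rU8 _)
    positivity

/-- the check of the parameters -/
def okB (m1 : ℕ) (c1 c2 : ℕ → ℚ) (η β K : ℚ) (j i1 i2 : ℕ) : Bool :=
  (List.range 200).all (fun c => decide (0 < c2 c) && decide (0 < lB (c1 c) (c2 c) c)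
    && decide (c1 c * kR 199 ^ 2 ≤ c2 c))
  && decide (0 < η) && decide (η < 1) && decide (0 < β) && decide (0 ≤ K)
  && decide (((j : ℚ) + 2) * η ≤ 1) && decide (1 ≤ K * (1 - (((j : ℚ) + 2) * η) ^ 2))
  && decide (3 ≤ j) && decide (j ≤ 14) && decide (1 ≤ i1) && decide (i1 ≤ 14)
  && decide (1 ≤ i2) && decide (i2 ≤ 14) && decide (17 ≤ m1)

section

variable {m1 m2 : ℕ} {Mq : ℕ → ℚ} {c1 c2 : ℕ → ℚ} {η β K : ℚ} {j i1 i2 : ℕ} {θ : List ℚ}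
  {θ1 θ2 : ℚ}

lemma okB_cell (h : okB m1 c1 c2 η β K j i1 i2 = true) {c : ℕ} (hc : c < 200) :
    0 < c2 c ∧ 0 < lB (c1 c) (c2 c) c ∧ c1 c * kR 199 ^ 2 ≤ c2 c := by
  unfold okB at h
  simp only [Bool.and_eq_true, decide_eq_true_eq, List.all_eq_true, List.mem_range] at h
  have h1 := h.1.1.1.1.1.1.1.1.1.1.1.1.1 c hc
  exact ⟨h1.1.1, h1.1.2, h1.2⟩

theorem mkB_ok (h : okB m1 c1 c2 η β K j i1 i2 = true) :
    (mkB m1 m2 Mq c1 c2 η β K j i1 i2 θ θ1 θ2).Ok := by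
  have hcell := fun c (hc : c < 200) => okB_cell h hc
  unfold okB at h
  simp only [Bool.and_eq_true, decide_eq_true_eq] at h
  obtain ⟨⟨⟨⟨⟨⟨⟨⟨⟨⟨⟨⟨⟨-, a1⟩, a2⟩, a3⟩, a4⟩, a5⟩, a6⟩, a7⟩, a8⟩, a9⟩, a10⟩, a11⟩, a12⟩, a13⟩ := h
  have hη : (0 : ℝ) < (η : ℝ) := by exact_mod_cast a1
  have hK : (0 : ℝ) ≤ (K : ℝ) := by exact_mod_cast a4
  have h5 : ((j : ℝ) + 2) * (η : ℝ) ≤ 1 := by exact_mod_cast a5
  have h6 : (1 : ℝ) ≤ (K : ℝ) * (1 - (((j : ℝ) + 2) * (η : ℝ)) ^ 2) := by exact_mod_cast a6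
  refine
  { cut := ⟨hη, by show (η : ℝ) < 1; exact_mod_cast a2, by show (0 : ℝ) < (β : ℝ); exact_mod_cast a3,
      hK, K_ok hη j h5 hK h6⟩
    w0 := fun c hc => grdR.w_nonneg c hc
    Z0 := fun c hc => zB_nonneg hc
    ω0 := fun c hc => wB8_nonneg (hcell c hc).1 c
    u0 := fun c hc => ?_
    θ := fun i => lt_of_lt_of_le (by norm_num) (le_max_right _ _)
    θ1 := lt_of_lt_of_le (by norm_num) (le_max_right _ _)
    θ2 := lt_of_lt_of_le (by norm_num) (le_max_right _ _)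
    j3 := a7
    j14 := a8
    i1 := a9
    i14 := a10
    i2 := a11
    i24 := a12 }
  have h7 := (hcell c hc).2.1
  exact lt_of_lt_of_le (by positivity) (le_rU8 _)

/-- the cells of the block -/
theorem mkB_cell (h : okB m1 c1 c2 η β K j i1 i2 = true) {m : ℕ} (hm1 : m1 ≤ m)
    (hm2 : m2 = 0 ∨ m ≤ m2) {lT : ℝ → ℝ}
    (hl : ∀ c < 200, ∀ T ∈ Ioo (0 : ℝ) 1, ((tR c : ℚ) : ℝ) < T → T ≤ tR (c + 1) →
      ((c1 c : ℚ) : ℝ) ≤ lT T ∧ ((c2 c : ℚ) : ℝ) / (1 - T ^ 2) ≤ lT T) :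
    ∀ c < (mkB m1 m2 Mq c1 c2 η β K j i1 i2 θ θ1 θ2).N, ∀ T ∈ Ioo (0 : ℝ) 1,
      ((tR c : ℚ) : ℝ) < T → T ≤ tR (c + 1) →
      (m : ℝ) ≤ lT T ∨ ((mkB m1 m2 Mq c1 c2 η β K j i1 i2 θ θ1 θ2).act c = true ∧
        T ^ 2 / (1 - T ^ 2) / m ≤ (mkB m1 m2 Mq c1 c2 η β K j i1 i2 θ θ1 θ2).ω c ∧
        ∃ r : ℝ, 1 ≤ r ∧ T / √(1 - T ^ 2) ≤ r * (mkB m1 m2 Mq c1 c2 η β K j i1 i2 θ θ1 θ2).Z c ∧
          r ^ 2 * (1 / (mkB m1 m2 Mq c1 c2 η β K j i1 i2 θ θ1 θ2).u c) ≤ lT T) := by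
  intro c hc T hT hT1 hT2
  have hc' : c < 200 := hc
  obtain ⟨h1, h3, h4⟩ := okB_cell h hc'
  obtain ⟨l1, l2⟩ := hl c hc' T hT hT1 hT2
  have h17 : 17 ≤ m1 := by
    unfold okB at h
    simp only [Bool.and_eq_true, decide_eq_true_eq] at h
    exact h.2
  rcases cellB (by omega) hm1 h1 h4 hc' hT hT1 hT2 l1 l2 with h5 | ⟨h5, h6, -, r, h8, h9, h10⟩
  · exact Or.inl h5
  by_cases hLm : (m : ℝ) ≤ lT T
  · exact Or.inl hLm
  right
  push Not at hLm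
  refine ⟨?_, ?_, r, h8, h9, ?_⟩
  · unfold mkB
    simp only [Bool.or_eq_true, beq_iff_eq, decide_eq_true_eq]
    rcases hm2 with h11 | h11
    · exact Or.inl h11
    · right
      have h12 : ((lB (c1 c) (c2 c) c : ℚ) : ℝ) < ((m2 : ℚ) : ℝ) := by
        push_cast
        have : (m : ℝ) ≤ m2 := by exact_mod_cast h11
        linarith
      exact_mod_cast h12
  · -- the bound of `Z^2 / m`
    have hk := grdR.k_cell hc' hT.2 hT1 hT2
    have hk0 : 0 < 1 - T ^ 2 := by nlinarith [hT.1, hT.2]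
    have h2' : (0 : ℝ) < ((c2 c : ℚ) : ℝ) := by exact_mod_cast h1
    have hm0 : (0 : ℝ) < m := by exact_mod_cast (by omega : 0 < m)
    have hm1' : (0 : ℝ) < m1 := by exact_mod_cast (by omega : 0 < m1)
    have hmm : (m1 : ℝ) ≤ m := by exact_mod_cast hm1
    have hc2m : T ^ 2 / (1 - T ^ 2) / m ≤ 1 / ((c2 c : ℚ) : ℝ) := by
      have h13 : ((c2 c : ℚ) : ℝ) / (1 - T ^ 2) < m := l2.trans_lt hLm
      rw [div_lt_iff₀ hk0] at h13
      rw [div_div, div_le_div_iff₀ (by positivity) h2']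
      have h14 : T ^ 2 ≤ 1 := by nlinarith [hT.1, hT.2]
      nlinarith
    show T ^ 2 / (1 - T ^ 2) / m ≤ ((wB8 m1 (c2 c) c : ℚ) : ℝ)
    unfold wB8
    split_ifs with hc9
    · have hκ1 : (0 : ℝ) < ((kR (c + 1) : ℚ) : ℝ) := by
        exact_mod_cast kR_pos (by omega : c + 1 < 200)
      have h15 : T ^ 2 / (1 - T ^ 2) / m
          ≤ (((tR (c + 1) : ℚ) : ℝ) / ((kR (c + 1) : ℚ) : ℝ)) ^ 2 / m1 := by
        rw [div_pow]
        have h7 : T ^ 2 ≤ ((tR (c + 1) : ℚ) : ℝ) ^ 2 := pow_le_pow_left₀ hT.1.le hT2 2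
        have h8 : T ^ 2 / (1 - T ^ 2)
            ≤ ((tR (c + 1) : ℚ) : ℝ) ^ 2 / ((kR (c + 1) : ℚ) : ℝ) ^ 2 :=
          div_le_div₀ (by positivity) h7 (by positivity) hk.1
        exact div_le_div₀ (by positivity) h8 hm1' hmm
      have h16 : ((min ((tR (c + 1) / kR (c + 1)) ^ 2 / m1) (1 / c2 c) : ℚ) : ℝ)
          ≤ ((rU8 (min ((tR (c + 1) / kR (c + 1)) ^ 2 / m1) (1 / c2 c)) : ℚ) : ℝ) := by
        exact_mod_cast le_rU8 _
      refine le_trans ?_ h16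
      push_cast
      exact le_min h15 hc2m
    · have h16 : ((1 / c2 c : ℚ) : ℝ) ≤ ((rU8 (1 / c2 c) : ℚ) : ℝ) := by exact_mod_cast le_rU8 _
      refine le_trans ?_ h16
      push_cast
      exact hc2m
  · refine le_trans ?_ h10
    show r ^ 2 * (1 / ((rU8 (1 / lB (c1 c) (c2 c) c) : ℚ) : ℝ)) ≤ _
    refine mul_le_mul_of_nonneg_left ?_ (by positivity)
    have h17' : ((1 / lB (c1 c) (c2 c) c : ℚ) : ℝ) ≤ ((rU8 (1 / lB (c1 c) (c2 c) c) : ℚ) : ℝ) := by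
      exact_mod_cast le_rU8 _
    have h18 : (0 : ℝ) < ((lB (c1 c) (c2 c) c : ℚ) : ℝ) := by exact_mod_cast h3
    push_cast at h17'
    rw [div_le_iff₀ (lt_of_lt_of_le (by positivity) h17')]
    rw [div_le_iff₀ h18] at h17'
    linarith

end

/-- comparison of the coefficients -/
def coefOK (B : Blk) (α α' : List (List ℚ)) (ρ ρ' : ℚ) : Bool :=
  (List.range (B.j + 2)).all (fun i => (List.range (i + 1)).all (fun k =>
    decide (B.A i k ≤ (α.getD i []).getD k 0) && decide (B.A' i k ≤ (α'.getD i []).getD k 0)))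
  && decide (B.R ≤ ρ) && decide (B.R' ≤ ρ')

/-- the polynomial with lists of coefficients -/
noncomputable def PLL (j : ℕ) (α α' : List (List ℚ)) (ρ ρ' : ℚ) (a b φ : ℝ) : ℝ :=
  PL j (fun i k => (α.getD i []).getD k 0) (fun i k => (α'.getD i []).getD k 0) ρ ρ' a b φ

lemma PL_le {B : Blk} {α α' : List (List ℚ)} {ρ ρ' : ℚ} (h : coefOK B α α' ρ ρ' = true)
    {a b φ : ℝ} (ha : 0 ≤ a) (hb : 0 ≤ b) (hφ : 0 ≤ φ) :
    PL B.j B.A B.A' B.R B.R' a b φ ≤ PLL B.j α α' ρ ρ' a b φ := by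
  unfold coefOK at h
  simp only [Bool.and_eq_true, decide_eq_true_eq, List.all_eq_true, List.mem_range] at h
  obtain ⟨⟨h1, h2⟩, h3⟩ := h
  have h2' : ((B.R : ℚ) : ℝ) ≤ (ρ : ℝ) := by exact_mod_cast h2
  have h3' : ((B.R' : ℚ) : ℝ) ≤ (ρ' : ℝ) := by exact_mod_cast h3
  unfold PLL PL
  refine add_le_add (Finset.sum_le_sum fun i hi => Finset.sum_le_sum fun k hk => ?_)
    (add_le_add (mul_le_mul_of_nonneg_right h2' ha) (mul_le_mul_of_nonneg_right h3' (by positivity)))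
  obtain ⟨h4, h5⟩ := h1 i (Finset.mem_range.1 hi) k (Finset.mem_range.1 hk)
  have h4' : ((B.A i k : ℚ) : ℝ) ≤ (((α.getD i []).getD k 0 : ℚ) : ℝ) := by exact_mod_cast h4
  have h5' : ((B.A' i k : ℚ) : ℝ) ≤ (((α'.getD i []).getD k 0 : ℚ) : ℝ) := by exact_mod_cast h5
  exact mul_le_mul_of_nonneg_right (add_le_add (mul_le_mul_of_nonneg_right h4' ha)
    (mul_le_mul_of_nonneg_right h5' (by positivity))) (by positivity)

/-- the table of the moments as rational numbers -/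
def MQ (L : List ℕ) (q : ℕ) : ℚ := ((L.getD (q - 3) 0 : ℕ) : ℚ) / 1000

lemma Mt_eq (m : ℕ) (L : List ℕ) (q : ℕ) (h1 : 3 ≤ q) (h2 : q < 33) :
    Mt m L q = ((MQ L q : ℚ) : ℝ) := by
  unfold Mt MQ
  rw [if_pos ⟨h1, h2⟩]
  push_cast
  rfl

section

variable {X : Type*} [MeasurableSpace X] {E : Type*} [NormedAddCommGroup E]
  [InnerProductSpace ℝ E] [MeasurableSpace E] [BorelSpace E] [SecondCountableTopology E]
  {μ : Measure X} [IsFiniteMeasure μ] {m : ℕ} {p n z : X → E}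

lemma bm_PLL {f g h : X → ℝ} (hf : BM f) (hg : BM g) (hh : BM h) (j : ℕ) (α α' : List (List ℚ))
    (ρ ρ' : ℚ) : BM (fun x => PLL j α α' ρ ρ' (f x) (g x) (h x)) := by
  unfold PLL PL
  refine BM.add (BM.sum _ fun i _ => BM.sum _ fun k _ => ?_)
    ((hf.const_mul _).add ((hh.pow 2).const_mul _))
  exact ((hf.const_mul _).add ((hh.pow 2).const_mul _)).mul ((hg.pow k).mul (hh.pow _))

/-- the relative tail of a block, rational polynomial -/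
theorem rel_blk {m1 m2 : ℕ} {L : List ℕ} {c1 c2 : ℕ → ℚ} {η β K : ℚ} {j i1 i2 : ℕ} {θ : List ℚ}
    {θ1 θ2 : ℚ} {α α' : List (List ℚ)} {ρ ρ' : ℚ}
    (hok : okB m1 c1 c2 η β K j i1 i2 = true)
    (hco : coefOK (mkB m1 m2 (MQ L) c1 c2 η β K j i1 i2 θ θ1 θ2) α α' ρ ρ' = true)
    (h2 : Two μ m p n) (hμ : μ.real univ = 1) (hM : MomB μ m p (Mt m L))
    (hm1 : m1 ≤ m) (hm2 : m2 = 0 ∨ m ≤ m2) (hz : Measurable z) {D : ℝ} (hD : ∀ x, ‖z x‖ ≤ D)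
    (hsym : ∀ x y, ⟪n x, p y⟫ - ⟪p x, n y⟫ = ⟪z x, p y⟫ - ⟪p x, z y⟫)
    {lT : ℝ → ℝ}
    (hl : ∀ c < 200, ∀ T ∈ Ioo (0 : ℝ) 1, ((tR c : ℚ) : ℝ) < T → T ≤ tR (c + 1) →
      ((c1 c : ℚ) : ℝ) ≤ lT T ∧ ((c2 c : ℚ) : ℝ) / (1 - T ^ 2) ≤ lT T) :
    Tail μ m p n lT (∫ y, PLL j α α' ρ ρ' (aG z y) (bG z n y) (pG m p z y) ∂μ) := by
  have h17 : 17 ≤ m1 := by
    unfold okB at hok
    simp only [Bool.and_eq_true, decide_eq_true_eq] at hok
    exact hok.2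
  have hb := bm_bG h2.mn h2.nn hz hD
  have h := Blk.rel (B := mkB m1 m2 (MQ L) c1 c2 η β K j i1 i2 θ θ1 θ2) (mkB_ok hok) grdR h2 hμ
    hM (Mt_nonneg m L) h17 hm1 hz hD hsym hb (fun y => bG_nonneg (h2.nn y)) (bOk_bG h2.nn)
    (mkB_cell hok hm1 hm2 hl)
  refine h.mono (integral_mono_of_nonneg (Filter.Eventually.of_forall fun y => ?_)
    (bm_PLL (bm_aG hz hD) hb (bm_pG h2.toPts hz hD) j α α' ρ ρ').int
    (Filter.Eventually.of_forall fun y => ?_))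
  · unfold Blk.F
    have h3 := mkB_ok (m2 := m2) (Mq := MQ L) (θ := θ) (θ1 := θ1) (θ2 := θ2) hok
    refine mul_nonneg (by exact_mod_cast Blk.cMQ_nonneg _) (mul_nonneg (by norm_num)
      (Finset.sum_nonneg fun c hc => mul_nonneg
        (by exact_mod_cast h3.w0 c (Finset.mem_range.1 hc)) ?_))
    split_ifs
    · have h4 : (0 : ℝ) < ((mkB m1 m2 (MQ L) c1 c2 η β K j i1 i2 θ θ1 θ2).u c : ℝ) := by
        exact_mod_cast h3.u0 c (Finset.mem_range.1 hc)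
      exact HC3_nonneg (Mt_nonneg m L) h3.cut
        (by exact_mod_cast h3.Z0 c (Finset.mem_range.1 hc))
        (by exact_mod_cast h3.ω0 c (Finset.mem_range.1 hc)) (by positivity)
        (bG_nonneg (h2.nn y)) (pG_nonneg y)
    · exact le_rfl
  · exact (Blk.F_le (mkB_ok hok) (Mt_nonneg m L) (Mt_eq m L) (aG_nonneg y)
      (bG_nonneg (h2.nn y)) (pG_nonneg y)).trans
        (PL_le hco (aG_nonneg y) (bG_nonneg (h2.nn y)) (pG_nonneg y))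

end

end Vale.Agent.P224.R2.H484
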